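import Vale.Agent.P242.H744.Start
import Vale.Agent.P242.H542.Avg
import Vale.Agent.P242.H196.AbsP

/-! P242, Part A (helper655): rescaling of configurations.  The same maps `u` form a configuration
at the scale `ρ/√M₁` with the constants `R' = √M₁ R/2`, `Q' = M₁ Q`, `η' = C η`; note
`Q' ρ'² = Q ρ²`, so `TTx`, `DropS` are unchanged.  Hence the constants `Q₀`, `R₀` of a one-centre
block may depend on later constants, if the block is only used for `t ≤ ρ²/M₁`. -/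

set_option linter.all false

open MeasureTheory Filter Topology Set
open scoped ENNReal NNReal MeasureTheory InnerProductSpace

universe u

namespace Vale.Agent.P242.H655

open Vale.Agent.P233 Vale.Agent.P233.RA Vale.Agent.P242.H990

variable {M : Type u} [MetricSpace M] [CompleteSpace M] [SecondCountableTopology M]
  [MeasurableSpace M] [BorelSpace M] {m : Measure M} {n : ℕ} {K A : ℝ} {o : M}
  {p : ℝ → M → M → ℝ}

/-- averages at an earlier time are bounded by averages at a later time -/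
theorem PP_dom (hp : H520.Ker0 m p) (hk : KB n o A p) {Γ C₀ s s' : ℝ} {x x' : M}
    (hs : 0 < s) (h1 : 4 * A ^ 2 * s ≤ s') (h2 : s' ≤ Γ * s) (h3 : s' ≤ 1 / 2)
    (hx : dist x x' ≤ C₀ * √s) {F : M →ₘ[m] ℝ} (h0 : 0 ≤ F)
    (hi : MemLp (ph m p s' x' * F : M →ₘ[m] ℝ) 1 m) :
    MemLp (ph m p s x * F : M →ₘ[m] ℝ) 1 m ∧
    H71.PP m p s x F ≤ cG n A Γ C₀ * Real.exp (2 * A * dist x o) * H71.PP m p s' x' F := by
  have hA := hk.one_le
  have hs' : 0 < s' := lt_of_lt_of_le (by positivity) h1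
  set D := cG n A Γ C₀ * Real.exp (2 * A * dist x o) with hD
  have key : ∀ᵐ z ∂m, 0 ≤ (ph m p s x * F : M →ₘ[m] ℝ) z ∧ (ph m p s x * F : M →ₘ[m] ℝ) z
      ≤ (D • (ph m p s' x' * F) : M →ₘ[m] ℝ) z := by
    filter_upwards [mul_ae (ph m p s x) F, smul_ae (ph m p s' x' * F) D, mul_ae (ph m p s' x') F,
      ph_ae hp hs x, ph_ae hp hs' x', nonneg_iff_ae.1 h0, nonneg_iff_ae.1 (ph_nonneg hp hs x)]
      with z a1 a2 a3 a4 a5 a6 a7
    rw [a1, a2, a3, a5]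
    refine ⟨mul_nonneg a7 a6, ?_⟩
    rw [a4]
    calc p s x z * F z ≤ (D * p s' x' z) * F z :=
          mul_le_mul_of_nonneg_right (hk.p_le hs h1 h2 h3 hx) a6
      _ = D * (p s' x' z * F z) := by ring
  have h4 : MemLp (ph m p s x * F : M →ₘ[m] ℝ) 1 m := by
    refine mem_of_le (mem_smul D hi) ?_
    filter_upwards [key] with z hz
    rw [abs_of_nonneg hz.1]
    exact hz.2.trans (le_abs_self _)
  refine ⟨h4, ?_⟩
  unfold H71.PP
  rw [← I_smul]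
  exact I_mono h4 (mem_smul D hi) (le_iff_ae.2 (key.mono fun z hz => hz.2))

theorem one_memTop : MemLp (1 : M →ₘ[m] ℝ) ∞ m := mem_top_one

section cfg

variable {R Q η ρ : ℝ} {u : Fin n → M →ₘ[m] ℝ} {uu : M → H71.E n}

/-- `Γ(u_c,u_c')` is bounded -/
theorem Γ_uc_top (e : H71.Env m n K o A p) (hu : H71.Cfg m n K o p R Q η ρ u uu) (c c' : H71.E n) :
    MemLp ((sob m).Γ (H71.uc u c) (H71.uc u c')) ∞ m := by
  obtain ⟨_, hC, _, _, _⟩ := H924.facts e.hyp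
  have h1 := H744.uc_test e hu c
  have h2 := H744.uc_test e hu c'
  exact hC.toIsDir.Γ_memTop (hC.test_A h1).1 (hC.test_Γ_top h1) (hC.test_A h2).1
    (hC.test_Γ_top h2)

/-- `Gm` from the class-level Gram bound -/
theorem Gm_sub_le (e : H71.Env m n K o A p) (hu : H71.Cfg m n K o p R Q η ρ u uu) {x : M} {s : ℝ}
    (hs : 0 < s) (c c' : H71.E n) :
    |H71.Gm m p u s x c c' - ⟪c, c'⟫_ℝ| ≤ H71.PP m p s x
      |(sob m).Γ (H71.uc u c) (H71.uc u c') - ⟪c, c'⟫_ℝ • (1 : M →ₘ[m] ℝ)| := by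
  have t1 := Γ_uc_top e hu c c'
  have m1 := ph_mem1 e.ker hs x
  have h6 : H71.Gm m p u s x c c' - ⟪c, c'⟫_ℝ
      = I (ph m p s x * ((sob m).Γ (H71.uc u c) (H71.uc u c')
        - ⟪c, c'⟫_ℝ • (1 : M →ₘ[m] ℝ))) := by
    rw [mul_sub, I_sub (mem_top_mul m1 t1)
      (mem_top_mul m1 (mem_smul _ mem_top_one)), mul_smul_comm, mul_one, I_smul,
      I_ph e.ker hs x, mul_one]
    rfl
  rw [h6]
  exact H196.I_abs_le_wabs (ph_nonneg e.ker hs x)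

/-- the Gram matrices at smaller scales -/
theorem gram_ext (e : H71.Env m n K o A p) {Q L : ℝ} (hQ : 1 ≤ Q) (hQ1 : 4 * A ^ 2 ≤ Q)
    (hL : 1 ≤ L) :
    ∃ C : ℝ, 1 ≤ C ∧ ∀ (R η ρ : ℝ) (u : Fin n → M →ₘ[m] ℝ) (uu : M → H71.E n), 0 ≤ η →
      H71.Cfg m n K o p R Q η ρ u uu → ∀ x ∈ Metric.ball o (R * ρ), ∀ s, ρ ^ 2 / L ≤ s →
      s ≤ Q * ρ ^ 2 → ∀ c c' : H71.E n, H71.PP m p s x |(sob m).Γ (H71.uc u c) (H71.uc u c')
        - ⟪c, c'⟫_ℝ • (1 : M →ₘ[m] ℝ)| ≤ C * η * ‖c‖ * ‖c'‖ := by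
  have hA := e.kb.one_le
  have hQ0 : 0 < Q := by linarith
  have hL0 : 0 < L := by linarith
  set Γ₀ : ℝ := max (4 * A ^ 2) L with hΓ₀
  have hΓ₀0 : 0 < Γ₀ := lt_of_lt_of_le (by positivity) (le_max_left _ _)
  have hG0 := (cG_pos (n := n) (A := A) (Γ := Γ₀) (C₀ := 0) hA hΓ₀0).le
  set C₂ : ℝ := cG n A Γ₀ 0 * Real.exp (2 * A) with hC₂
  have hC₂0 : 0 ≤ C₂ := by positivity
  refine ⟨max C₂ 1, le_max_right _ _, ?_⟩
  intro R η ρ u uu hη hu x hx s hs1 hs2 c c'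
  have hρ := hu.ρ_pos
  have hρ2 : 0 < ρ ^ 2 := by positivity
  have hs : 0 < s := lt_of_lt_of_le (by positivity) hs1
  have hcc : 0 ≤ η * ‖c‖ * ‖c'‖ := by positivity
  have hxo : dist x o ≤ 1 := (Metric.mem_ball.1 hx).le.trans hu.Rρ
  have hfin : ∀ C' : ℝ, C' ≤ max C₂ 1 → C' * (η * ‖c‖ * ‖c'‖) ≤ max C₂ 1 * η * ‖c‖ * ‖c'‖ := by
    intro C' h
    calc C' * (η * ‖c‖ * ‖c'‖) ≤ max C₂ 1 * (η * ‖c‖ * ‖c'‖) :=
          mul_le_mul_of_nonneg_right h hcc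
      _ = _ := by ring
  rcases le_total (ρ ^ 2 / Q) s with h | h
  · refine (hu.gram1 x hx s h hs2 c c').trans ?_
    have := hfin 1 (le_max_right _ _)
    rwa [one_mul] at this
  · have h1 := hu.gram1 x hx (ρ ^ 2) (by rw [div_le_iff₀ hQ0]; nlinarith) (by nlinarith) c c'
    have htop : MemLp (|(sob m).Γ (H71.uc u c) (H71.uc u c')
        - ⟪c, c'⟫_ℝ • (1 : M →ₘ[m] ℝ)| : M →ₘ[m] ℝ) ∞ m :=
      mem_abs (mem_sub (Γ_uc_top e hu c c') (mem_smul _ mem_top_one))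
    have k1 : 4 * A ^ 2 * s ≤ ρ ^ 2 := by
      calc 4 * A ^ 2 * s ≤ Q * (ρ ^ 2 / Q) := mul_le_mul hQ1 h hs.le hQ0.le
        _ = ρ ^ 2 := by field_simp
    have k2 : ρ ^ 2 ≤ Γ₀ * s := by
      calc ρ ^ 2 = L * (ρ ^ 2 / L) := by field_simp
        _ ≤ Γ₀ * s := mul_le_mul (le_max_right _ _) hs1 (by positivity) hΓ₀0.le
    have k3 : ρ ^ 2 ≤ 1 / 2 := by
      have := hu.Qρ
      nlinarith
    have h2 := (PP_dom e.ker e.kb (Γ := Γ₀) (C₀ := 0) (s := s) (s' := ρ ^ 2) (x := x) (x' := x)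
      hs k1 k2 k3 (by rw [dist_self, zero_mul])
      (abs_nonneg _) (mem_top_mul (ph_mem1 e.ker hρ2 x) htop)).2
    refine h2.trans (le_trans ?_ (hfin C₂ (le_max_left _ _)))
    have h3 : cG n A Γ₀ 0 * Real.exp (2 * A * dist x o) ≤ C₂ := by
      rw [hC₂]
      refine mul_le_mul_of_nonneg_left (Real.exp_le_exp.2 ?_) hG0
      have : 2 * A * dist x o ≤ 2 * A * 1 := mul_le_mul_of_nonneg_left hxo (by positivity)
      linarith
    have h4 : 0 ≤ H71.PP m p (ρ ^ 2) x |(sob m).Γ (H71.uc u c) (H71.uc u c')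
      - ⟪c, c'⟫_ℝ • (1 : M →ₘ[m] ℝ)| :=
      I_nonneg (mul_nonneg (ph_nonneg e.ker hρ2 x) (abs_nonneg _))
    exact mul_le_mul h3 h1 h4 hC₂0

/-- the density field of a rescaled configuration -/
theorem dens_resc (hu : H71.Cfg m n K o p R Q η ρ u uu) (hR : 4 ≤ R) {a : ℝ}
    (hη : 0 ≤ η) (ha : 2 * (η * ρ) ≤ a) : ∀ x ∈ Metric.ball o (R * ρ / 4), ∀ v : H71.E n,
      ‖v‖ ≤ R * ρ / 8 → ∃ y, dist x y ≤ 2 * ‖v‖ + a ∧ ‖uu y - uu x - v‖ ≤ η * ρ := by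
  intro x hx v hv
  have hρ := hu.ρ_pos
  have hRρ : 0 < R * ρ := by positivity
  have hR4 : 4 * ρ ≤ R * ρ := mul_le_mul_of_nonneg_right hR hρ.le
  obtain ⟨y, hy1, hy2⟩ := hu.dens x (Metric.ball_subset_ball (by linarith) hx) v
    (by linarith)
  have hxR : x ∈ Metric.ball o (R * ρ) := Metric.ball_subset_ball (by linarith) hx
  have hyR : y ∈ Metric.ball o (R * ρ) := by
    rw [Metric.mem_ball] at hx ⊢
    have h1 := dist_triangle y x o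
    rw [dist_comm y x] at h1
    linarith
  have h3 := hu.iso x hxR y hyR
  refine ⟨y, ?_, hy2⟩
  have h4 : dist (uu x) (uu y) ≤ ‖v‖ + η * ρ := by
    rw [dist_comm, dist_eq_norm]
    calc ‖uu y - uu x‖ = ‖(uu y - uu x - v) + v‖ := by congr 1; abel
      _ ≤ ‖uu y - uu x - v‖ + ‖v‖ := norm_add_le _ _
      _ ≤ η * ρ + ‖v‖ := by gcongr
      _ = _ := by ring
  rw [abs_le] at h3
  have h7 := norm_nonneg v
  linarith [h3.1]

/-- **Rescaling of configurations.** -/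
theorem cfg_resc (e : H71.Env m n K o A p) {R Q M₁ : ℝ} (hQ : 1 ≤ Q) (hQ1 : 4 * A ^ 2 ≤ Q)
    (hQ2 : 2 * A ≤ Q) (hR : 4 ≤ R) (hM : 1 ≤ M₁) :
    ∃ C : ℝ, 1 ≤ C ∧ ∀ (η ρ : ℝ) (u : Fin n → M →ₘ[m] ℝ) (uu : M → H71.E n), 0 < η →
      C * η ≤ 1 → H71.Cfg m n K o p R Q η ρ u uu →
      H71.Cfg m n K o p (√M₁ * R / 2) (M₁ * Q) (C * η) (ρ / √M₁) u uu := by
  have hM0 : 0 < M₁ := by linarith
  have hsM0 : 0 < √M₁ := Real.sqrt_pos.2 hM0
  have hsM : 1 ≤ √M₁ := Real.one_le_sqrt.2 hM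
  have hsM2 : √M₁ ^ 2 = M₁ := Real.sq_sqrt hM0.le
  have hQ0 : 0 < Q := by linarith
  have hL : 1 ≤ M₁ ^ 2 * Q := one_le_mul_of_one_le_of_one_le (one_le_pow₀ hM) hQ
  obtain ⟨C₁, hC₁, hgm⟩ := H744.gm_top e (Q' := Q) (L := M₁ ^ 2 * Q) hQ hQ2 hL
  obtain ⟨C₂, hC₂, hgr⟩ := gram_ext e (L := M₁ ^ 2 * Q) hQ hQ1 hL
  set C : ℝ := max (max (Q * C₁) (2 * M₁)) (max C₂ 1) with hCd
  have hCC₁ : Q * C₁ ≤ C := (le_max_left _ _).trans (le_max_left _ _)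
  have hCM : 2 * M₁ ≤ C := (le_max_right _ _).trans (le_max_left _ _)
  have hCC₂ : C₂ ≤ C := (le_max_left _ _).trans (le_max_right _ _)
  have hC1 : 1 ≤ C := (le_max_right _ _).trans (le_max_right _ _)
  clear_value C
  refine ⟨C, hC1, ?_⟩
  intro η ρ u uu hη hCη hu
  have hρ := hu.ρ_pos
  have hρ2 : 0 < ρ ^ 2 := by positivity
  have hρ' : 0 < ρ / √M₁ := by positivity
  have hρ'2 : (ρ / √M₁) ^ 2 = ρ ^ 2 / M₁ := by rw [div_pow, hsM2]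
  have e1 : √M₁ * R / 2 * (ρ / √M₁) = R * ρ / 2 := by field_simp
  have e2 : M₁ * Q * (ρ / √M₁) ^ 2 = Q * ρ ^ 2 := by rw [hρ'2]; field_simp
  have e3 : (ρ / √M₁) ^ 2 / (M₁ * Q) = ρ ^ 2 / (M₁ ^ 2 * Q) := by rw [hρ'2]; field_simp
  have hη1 : η ≤ C * η := le_mul_of_one_le_left hη.le hC1
  have hsMM : √M₁ ≤ M₁ := by
    calc √M₁ = √M₁ * 1 := (mul_one _).symm
      _ ≤ √M₁ * √M₁ := mul_le_mul_of_nonneg_left hsM hsM0.le
      _ = M₁ := Real.mul_self_sqrt hM0.le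
  have hRρ : 0 < R * ρ := by positivity
  have hball : ∀ x ∈ Metric.ball o (√M₁ * R / 2 * (ρ / √M₁)), x ∈ Metric.ball o (R * ρ) := by
    intro x hx
    rw [e1] at hx
    exact Metric.ball_subset_ball (by linarith) hx
  have hgram1 : ∀ x ∈ Metric.ball o (R * ρ), ∀ s, ρ ^ 2 / (M₁ ^ 2 * Q) ≤ s → s ≤ Q * ρ ^ 2 →
      ∀ c c' : H71.E n, H71.PP m p s x |(sob m).Γ (H71.uc u c) (H71.uc u c')
        - ⟪c, c'⟫_ℝ • (1 : M →ₘ[m] ℝ)| ≤ C * η * ‖c‖ * ‖c'‖ := by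
    intro x hx s hs1 hs2 c c'
    refine (hgr R η ρ u uu hη.le hu x hx s hs1 hs2 c c').trans ?_
    have h1 : 0 ≤ η * ‖c‖ * ‖c'‖ := by positivity
    have h2 := mul_le_mul_of_nonneg_right hCC₂ h1
    calc C₂ * η * ‖c‖ * ‖c'‖ = C₂ * (η * ‖c‖ * ‖c'‖) := by ring
      _ ≤ C * (η * ‖c‖ * ‖c'‖) := h2
      _ = _ := by ring
  have hbig : η * ρ ≤ C * η * (ρ / √M₁) := by
    have h0 : C * η * (ρ / √M₁) = (C / √M₁) * (η * ρ) := by field_simp
    rw [h0]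
    have h1 : 1 ≤ C / √M₁ := by
      rw [le_div_iff₀ hsM0]; linarith
    exact le_mul_of_one_le_left (by positivity) h1
  have h5 : 2 * (η * ρ) ≤ ρ / √M₁ := by
    rw [le_div_iff₀ hsM0]
    have h6 : 2 * η * √M₁ ≤ 1 := by
      calc 2 * η * √M₁ ≤ 2 * η * M₁ := mul_le_mul_of_nonneg_left hsMM (by positivity)
        _ = (2 * M₁) * η := by ring
        _ ≤ C * η := mul_le_mul_of_nonneg_right hCM hη.le
        _ ≤ 1 := hCη
    calc 2 * (η * ρ) * √M₁ = (2 * η * √M₁) * ρ := by ring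
      _ ≤ 1 * ρ := mul_le_mul_of_nonneg_right h6 hρ.le
      _ = ρ := one_mul _
  refine ⟨hρ', ?_, ?_, ?_, hu.test, hu.cont, hu.rep, hu.grad, ?_, ?_, ?_, ?_, ?_, ?_, ?_⟩
  · rw [e1]
    have := hu.Rρ
    linarith
  · rw [e2]; exact hu.Qρ
  · rw [hρ'2]
    calc |K| * (ρ ^ 2 / M₁) ≤ |K| * (ρ ^ 2 / 1) := by gcongr
      _ = |K| * ρ ^ 2 := by rw [div_one]
      _ ≤ η := hu.Kρ
      _ ≤ C * η := hη1
  · intro x hx s hs hs2 i
    rw [e2] at hs2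
    refine (hu.lap1 x (hball x hx) s hs hs2 i).trans ?_
    refine pow_le_pow_left₀ (by positivity) ?_ 2
    exact div_le_div₀ (by positivity) hη1 hρ' (div_le_self hρ.le hsM)
  · intro x hx s hs hs2 i
    rw [e2] at hs2
    refine (hu.lap2 x (hball x hx) s hs hs2 i).trans ?_
    have h6 : (ρ / √M₁) ^ 2 ≤ ρ ^ 2 := by
      rw [hρ'2]; exact div_le_self hρ2.le hM
    refine pow_le_pow_left₀ (by positivity) ?_ 2
    exact div_le_div₀ (by positivity) hη1 (by positivity) h6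
  · intro x hx s hs1 hs2 c c'
    rw [e3] at hs1
    rw [e2] at hs2
    have hs : 0 < s := lt_of_lt_of_le (by positivity) hs1
    exact (Gm_sub_le e hu hs c c').trans (hgram1 x (hball x hx) s hs1 hs2 c c')
  · intro x hx s hs1 hs2 c c'
    rw [e3] at hs1
    rw [e2] at hs2
    exact hgram1 x (hball x hx) s hs1 hs2 c c'
  · intro x hx s hs1 hs2 c
    rw [e3] at hs1
    rw [e2] at hs2
    have hs : 0 < s := lt_of_lt_of_le (by positivity) hs1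
    have h1 := hgm R η ρ u uu hu x (hball x hx) s hs1 hs2 c
    have h2 : 0 ≤ C₁ * (η * ‖c‖ ^ 2) := by positivity
    calc s * H71.gm m K p u s x c c ≤ s * (C₁ * η * ‖c‖ ^ 2 / ρ ^ 2) :=
          mul_le_mul_of_nonneg_left h1 hs.le
      _ = (s / ρ ^ 2) * (C₁ * (η * ‖c‖ ^ 2)) := by field_simp
      _ ≤ Q * (C₁ * (η * ‖c‖ ^ 2)) := by
        refine mul_le_mul_of_nonneg_right ?_ h2
        rw [div_le_iff₀ hρ2]
        exact hs2
      _ = Q * C₁ * (η * ‖c‖ ^ 2) := by ring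
      _ ≤ C * (η * ‖c‖ ^ 2) := mul_le_mul_of_nonneg_right hCC₁ (by positivity)
      _ = _ := by ring
  · intro x hx y hy
    exact (hu.iso x (hball x hx) y (hball y hy)).trans hbig
  · intro x hx v hv
    have e4 : √M₁ * R / 2 * (ρ / √M₁) / 2 = R * ρ / 4 := by rw [e1]; ring
    have e5 : √M₁ * R / 2 * (ρ / √M₁) / 4 = R * ρ / 8 := by rw [e1]; ring
    rw [e4] at hx
    rw [e5] at hv
    obtain ⟨y, hy1, hy2⟩ := dens_resc hu hR hη.le h5 x hx v hv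
    exact ⟨y, hy1, hy2.trans hbig⟩

end cfg

end Vale.Agent.P242.H655
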