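import Mathlib

/-! P242, package A-E4 (helper655): Mathlib-only part.  The recursion for the non-linear part
`d_k(v)`, the linear quasi-projection of a coercive form, and the bounds of the matrices `A_k`. -/

namespace Vale.Agent.P242.H655

/-- The recursion: `d_{k+1} ≤ κ d_k + a x_k` with a slowly varying comparison sequence `x`,
`x_k ≤ Q x_{k+1}`, and `κ Q ≤ 1/2`. -/
theorem rec_bound {d x : ℕ → ℝ} {κ a Q : ℝ} (hκ : 0 ≤ κ) (ha : 0 ≤ a) (hQ : 0 ≤ Q)
    (hx0 : ∀ k, 0 ≤ x k) (hx : ∀ k, x k ≤ Q * x (k + 1)) (hκQ : κ * Q ≤ 1 / 2)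
    (hd : ∀ k, d (k + 1) ≤ κ * d k + a * x k) {B : ℝ} (hB : 2 * a * Q ≤ B) (h0 : d 0 ≤ B * x 0) :
    ∀ k, d k ≤ B * x k := by
  intro k
  have hB0 : 0 ≤ B := le_trans (by positivity) hB
  induction k with
  | zero => exact h0
  | succ k ih =>
    have h1 : d (k + 1) ≤ (κ * B + a) * x k := by
      calc d (k + 1) ≤ κ * d k + a * x k := hd k
        _ ≤ κ * (B * x k) + a * x k := by gcongr
        _ = _ := by ring
    have h2 : (κ * B + a) * x k ≤ (κ * B + a) * (Q * x (k + 1)) := by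
      have := hx k
      gcongr
    have h3 : (κ * B + a) * Q ≤ B := by nlinarith
    calc d (k + 1) ≤ _ := h1
      _ ≤ _ := h2
      _ = ((κ * B + a) * Q) * x (k + 1) := by ring
      _ ≤ _ := mul_le_mul_of_nonneg_right h3 (hx0 _)

section lin

variable {V : Type*} [AddCommGroup V] [Module ℝ V] [FiniteDimensional ℝ V]

/-- A coercive bilinear form on a finite dimensional space represents every functional. -/
theorem exists_rep (G' : V →ₗ[ℝ] V →ₗ[ℝ] ℝ) (hpos : ∀ c, c ≠ 0 → 0 < G' c c) :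
    Function.Bijective G' := by
  have hinj : Function.Injective G' := by
    rw [← LinearMap.ker_eq_bot, LinearMap.ker_eq_bot']
    intro c hc
    by_contra h
    have := hpos c h
    rw [hc] at this
    simp at this
  refine ⟨hinj, ?_⟩
  have := (LinearMap.injective_iff_surjective_of_finrank_eq_finrank
    (f := G') (Subspace.dual_finrank_eq (K := ℝ) (V := V)).symm).1 hinj
  exact this

/-- The linear map `A` with `G' (A v) c = B v c`. -/
noncomputable def repMap (G' : V →ₗ[ℝ] V →ₗ[ℝ] ℝ) (hpos : ∀ c, c ≠ 0 → 0 < G' c c)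
    {W : Type*} [AddCommGroup W] [Module ℝ W] (B : W →ₗ[ℝ] V →ₗ[ℝ] ℝ) : W →ₗ[ℝ] V :=
  ((LinearEquiv.ofBijective G' (exists_rep G' hpos)).symm : (V →ₗ[ℝ] ℝ) →ₗ[ℝ] V) ∘ₗ B

theorem repMap_spec (G' : V →ₗ[ℝ] V →ₗ[ℝ] ℝ) (hpos : ∀ c, c ≠ 0 → 0 < G' c c)
    {W : Type*} [AddCommGroup W] [Module ℝ W] (B : W →ₗ[ℝ] V →ₗ[ℝ] ℝ) (w : W) (c : V) :
    G' (repMap G' hpos B w) c = B w c := by
  have := (LinearEquiv.ofBijective G' (exists_rep G' hpos)).apply_symm_apply (B w)
  have h2 : G' (repMap G' hpos B w) = B w := by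
    simpa [repMap] using this
  rw [h2]

end lin

end Vale.Agent.P242.H655
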