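import Vale.Agent.P233.H103.Semi5
import Vale.Agent.P242.H655.E4Rec

/-! P242, package A-E4 (helper655): the linear quasi-projection on the span of the coordinate
functions, and the weighted Cauchy-Schwarz inequality. -/

set_option linter.all false

open MeasureTheory Filter Topology Set
open scoped ENNReal NNReal

universe u

namespace Vale.Agent.P242.H655

open Vale.Agent.P233

variable {M : Type u} [MeasurableSpace M] {m : Measure M} {C : Calc m}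

section basic

variable {f g h φ : M →ₘ[m] ℝ}

/-- weighted energy -/
theorem mem1_mulΓ (hC : IsDir C) (hφ : MemLp φ ∞ m) (hf : f ∈ C.W) (hg : g ∈ C.W) :
    MemLp (φ * C.Γ f g : M →ₘ[m] ℝ) 1 m := mem_mul_top hφ (hC.Γ_mem1 hf hg)

theorem wE_nonneg (hC : IsDir C) (h0 : 0 ≤ φ) (hf : f ∈ C.W) : 0 ≤ I (φ * C.Γ f f) :=
  I_nonneg (mul_nonneg h0 (hC.nonneg f hf))

theorem wE_expand (hC : IsDir C) (hφ : MemLp φ ∞ m) (t : ℝ) (hf : f ∈ C.W) (hg : g ∈ C.W) :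
    I (φ * C.Γ (f + t • g) (f + t • g))
      = I (φ * C.Γ f f) + 2 * t * I (φ * C.Γ f g) + t ^ 2 * I (φ * C.Γ g g) := by
  have e : φ * C.Γ (f + t • g) (f + t • g)
      = φ * C.Γ f f + ((2 * t) • (φ * C.Γ f g) + (t ^ 2) • (φ * C.Γ g g)) := by
    have htg := hC.smul_mem t g hg
    rw [hC.add_left f hf _ htg _ (hC.add_mem f hf _ htg), hC.Γ_add_right hf hf htg,
      hC.Γ_add_right htg hf htg, hC.Γ_smul_right t hf hg, hC.smul_left t g hg f hf,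
      hC.smul_left t g hg _ htg, hC.Γ_smul_right t hg hg, hC.symm g hg f hf]
    simp only [mul_add, mul_smul_comm, smul_smul]
    module
  rw [e, I_add (mem1_mulΓ hC hφ hf hf)
    (mem_add (mem_smul _ (mem1_mulΓ hC hφ hf hg)) (mem_smul _ (mem1_mulΓ hC hφ hg hg))),
    I_add (mem_smul _ (mem1_mulΓ hC hφ hf hg)) (mem_smul _ (mem1_mulΓ hC hφ hg hg)), I_smul, I_smul]
  ring

/-- weighted Cauchy-Schwarz inequality -/
theorem wE_cs (hC : IsDir C) (hφ : MemLp φ ∞ m) (h0 : 0 ≤ φ) (hf : f ∈ C.W) (hg : g ∈ C.W) :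
    I (φ * C.Γ f g) ^ 2 ≤ I (φ * C.Γ f f) * I (φ * C.Γ g g) := by
  refine disc_of_forall fun t => ?_
  rw [← wE_expand hC hφ t hf hg]
  exact wE_nonneg hC h0 (hC.add_mem f hf _ (hC.smul_mem t g hg))

theorem wE_abs_le (hC : IsDir C) (hφ : MemLp φ ∞ m) (h0 : 0 ≤ φ) (hf : f ∈ C.W) (hg : g ∈ C.W) :
    |I (φ * C.Γ f g)| ≤ √(I (φ * C.Γ f f)) * √(I (φ * C.Γ g g)) := by
  rw [← Real.sqrt_mul (wE_nonneg hC h0 hf)]
  exact Real.abs_le_sqrt (wE_cs hC hφ h0 hf hg)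

end basic

section proj

variable {V : Type*} [AddCommGroup V] [Module ℝ V]

/-- the pairing `(v, c) ↦ ∫ φ ⟨∇P_τ F_v, ∇u_c⟩` -/
noncomputable def pairing (hC : IsDir C) {φ : M →ₘ[m] ℝ} (hφ : MemLp φ ∞ m) {τ : ℝ} (hτ : 0 < τ)
    (F u : V →ₗ[ℝ] (M →ₘ[m] ℝ)) (hF : ∀ v, MemLp (F v) 2 m) (hu : ∀ c, u c ∈ C.W) :
    V →ₗ[ℝ] V →ₗ[ℝ] ℝ :=
  LinearMap.mk₂ ℝ (fun v c => I (φ * C.Γ (C.P τ (F v)) (u c)))
    (fun v v' c => by
      show I (φ * C.Γ (C.P τ (F (v + v'))) (u c)) = I (φ * C.Γ (C.P τ (F v)) (u c))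
        + I (φ * C.Γ (C.P τ (F v')) (u c))
      have h1 := hC.P_mem hτ (hF v)
      have h2 := hC.P_mem hτ (hF v')
      rw [map_add, hC.P_add τ (hF v) (hF v'), hC.add_left _ h1 _ h2 _ (hu c), mul_add,
        I_add (mem1_mulΓ hC hφ h1 (hu c)) (mem1_mulΓ hC hφ h2 (hu c))])
    (fun a v c => by
      show I (φ * C.Γ (C.P τ (F (a • v))) (u c)) = a • I (φ * C.Γ (C.P τ (F v)) (u c))
      have h1 := hC.P_mem hτ (hF v)
      rw [map_smul, hC.P_smul τ a (hF v), hC.smul_left a _ h1 _ (hu c), mul_smul_comm, I_smul,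
        smul_eq_mul])
    (fun v c c' => by
      show I (φ * C.Γ (C.P τ (F v)) (u (c + c'))) = I (φ * C.Γ (C.P τ (F v)) (u c))
        + I (φ * C.Γ (C.P τ (F v)) (u c'))
      have h1 := hC.P_mem hτ (hF v)
      rw [map_add, hC.Γ_add_right h1 (hu c) (hu c'), mul_add,
        I_add (mem1_mulΓ hC hφ h1 (hu c)) (mem1_mulΓ hC hφ h1 (hu c'))])
    (fun a v c => by
      show I (φ * C.Γ (C.P τ (F v)) (u (a • c))) = a • I (φ * C.Γ (C.P τ (F v)) (u c))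
      have h1 := hC.P_mem hτ (hF v)
      rw [map_smul, hC.Γ_smul_right a h1 (hu c), mul_smul_comm, I_smul, smul_eq_mul])

theorem pairing_apply (hC : IsDir C) {φ : M →ₘ[m] ℝ} (hφ : MemLp φ ∞ m) {τ : ℝ} (hτ : 0 < τ)
    (F u : V →ₗ[ℝ] (M →ₘ[m] ℝ)) (hF : ∀ v, MemLp (F v) 2 m) (hu : ∀ c, u c ∈ C.W) (v c : V) :
    pairing hC hφ hτ F u hF hu v c = I (φ * C.Γ (C.P τ (F v)) (u c)) := rfl

variable [FiniteDimensional ℝ V]

open Classical in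
/-- The matrix `A` of the linear part of `F`: `∫ φ⟨∇P_τ u_{Av}, ∇u_c⟩ = ∫ φ ⟨∇P_τ F_v, ∇u_c⟩`. -/
noncomputable def AM (hC : IsDir C) {φ : M →ₘ[m] ℝ} (hφ : MemLp φ ∞ m) {τ : ℝ} (hτ : 0 < τ)
    (F u : V →ₗ[ℝ] (M →ₘ[m] ℝ)) (hF : ∀ v, MemLp (F v) 2 m) (hu : ∀ c, u c ∈ C.W) : V →ₗ[ℝ] V :=
  if h : ∀ c, c ≠ 0 → 0 < pairing hC hφ hτ u u (fun c => hC.memLp _ (hu c)) hu c c then
    repMap (pairing hC hφ hτ u u (fun c => hC.memLp _ (hu c)) hu) h (pairing hC hφ hτ F u hF hu)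
  else 0

theorem AM_spec (hC : IsDir C) {φ : M →ₘ[m] ℝ} (hφ : MemLp φ ∞ m) {τ : ℝ} (hτ : 0 < τ)
    (F u : V →ₗ[ℝ] (M →ₘ[m] ℝ)) (hF : ∀ v, MemLp (F v) 2 m) (hu : ∀ c, u c ∈ C.W)
    (h : ∀ c, c ≠ 0 → 0 < I (φ * C.Γ (C.P τ (u c)) (u c))) (v c : V) :
    I (φ * C.Γ (C.P τ (u (AM hC hφ hτ F u hF hu v))) (u c)) = I (φ * C.Γ (C.P τ (F v)) (u c)) := by
  have e : AM hC hφ hτ F u hF hu
      = repMap (pairing hC hφ hτ u u (fun c => hC.memLp _ (hu c)) hu) h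
        (pairing hC hφ hτ F u hF hu) := dif_pos h
  have h1 := repMap_spec (pairing hC hφ hτ u u (fun c => hC.memLp _ (hu c)) hu) h
    (pairing hC hφ hτ F u hF hu) v c
  rw [← e] at h1
  exact h1

/-- quasi-optimality of `A` -/
theorem AM_le (hC : IsDir C) {φ : M →ₘ[m] ℝ} (hφ : MemLp φ ∞ m) (h0 : 0 ≤ φ) {τ : ℝ} (hτ : 0 < τ)
    (F u : V →ₗ[ℝ] (M →ₘ[m] ℝ)) (hF : ∀ v, MemLp (F v) 2 m) (hu : ∀ c, u c ∈ C.W)
    {N : V → ℝ} (hN : ∀ c, 0 ≤ N c) (hN0 : ∀ c, c ≠ 0 → 0 < N c) {a₀ a₁ : ℝ} (ha₀ : 0 < a₀)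
    (ha₁ : 0 ≤ a₁)
    (hco : ∀ c, a₀ * N c ^ 2 ≤ I (φ * C.Γ (C.P τ (u c)) (u c)))
    (hup : ∀ c, I (φ * C.Γ (u c) (u c)) ≤ a₁ ^ 2 * N c ^ 2) (v c : V) :
    a₀ * N (AM hC hφ hτ F u hF hu v - c)
      ≤ a₁ * √(I (φ * C.Γ (C.P τ (F v - u c)) (C.P τ (F v - u c)))) := by
  have hpos : ∀ c, c ≠ 0 → 0 < I (φ * C.Γ (C.P τ (u c)) (u c)) := fun c hc =>
    lt_of_lt_of_le (mul_pos ha₀ (pow_pos (hN0 c hc) 2)) (hco c)
  set w := AM hC hφ hτ F u hF hu v with hw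
  have hFu : MemLp (F v - u c : M →ₘ[m] ℝ) 2 m := mem_sub (hF v) (hC.memLp _ (hu c))
  have h1 : I (φ * C.Γ (C.P τ (u (w - c))) (u (w - c)))
      = I (φ * C.Γ (C.P τ (F v - u c)) (u (w - c))) := by
    have e1 := AM_spec hC hφ hτ F u hF hu hpos v (w - c)
    rw [← hw] at e1
    have hPw := hC.P_mem hτ (hC.memLp _ (hu w))
    have hPc := hC.P_mem hτ (hC.memLp _ (hu c))
    have hPF := hC.P_mem hτ (hF v)
    rw [map_sub, hC.P_sub τ (hC.memLp _ (hu w)) (hC.memLp _ (hu c)),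
      hC.P_sub τ (hF v) (hC.memLp _ (hu c)), ← map_sub,
      hC.Γ_sub_left hPw hPc (hu _), hC.Γ_sub_left hPF hPc (hu _), mul_sub, mul_sub,
      I_sub (mem1_mulΓ hC hφ hPw (hu _)) (mem1_mulΓ hC hφ hPc (hu _)),
      I_sub (mem1_mulΓ hC hφ hPF (hu _)) (mem1_mulΓ hC hφ hPc (hu _)), e1]
  have h2 := wE_abs_le hC hφ h0 (hC.P_mem hτ hFu) (hu (w - c))
  rw [← h1] at h2
  have h3 := (hco (w - c)).trans ((le_abs_self _).trans h2)
  have h4 : √(I (φ * C.Γ (u (w - c)) (u (w - c)))) ≤ a₁ * N (w - c) := by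
    rw [Real.sqrt_le_left (mul_nonneg ha₁ (hN _)), mul_pow]
    exact hup _
  have h5 : a₀ * N (w - c) ^ 2
      ≤ √(I (φ * C.Γ (C.P τ (F v - u c)) (C.P τ (F v - u c)))) * (a₁ * N (w - c)) :=
    h3.trans (mul_le_mul_of_nonneg_left h4 (Real.sqrt_nonneg _))
  rcases (hN (w - c)).eq_or_lt with h6 | h6
  · rw [← h6, mul_zero]
    exact mul_nonneg ha₁ (Real.sqrt_nonneg _)
  · refine le_of_mul_le_mul_right ?_ h6
    calc a₀ * N (w - c) * N (w - c) = a₀ * N (w - c) ^ 2 := by ring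
      _ ≤ _ := h5
      _ = _ := by ring

end proj

end Vale.Agent.P242.H655
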