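import Vale.Agent.P242.H655.SBE4
import Vale.Agent.P242.H542.DlVoc

/-! P242, package A-E4 (helper655): **`SB_E4`**, without hypotheses. -/

set_option linter.all false

open MeasureTheory Filter Topology Set Metric
open scoped ENNReal NNReal InnerProductSpace

universe u

namespace Vale.Agent.P242.H655

open Vale.Agent.P233 Vale.Agent.P233.RA Vale.Agent.P242.H990 Vale.Agent.P242.H71

variable {M : Type u} [MetricSpace M] [CompleteSpace M] [SecondCountableTopology M]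
  [MeasurableSpace M] [BorelSpace M] {m : Measure M} {n : ℕ} {K A : ℝ} {o : M}
  {p : ℝ → M → M → ℝ}

theorem dlb_of (e : Env m n K o A p) : DLb m n K o p := by
  obtain ⟨C, a₀, hC, ha₀, ha₂, h⟩ := H542.blk_DLX M m n K o A p e
  refine ⟨C, hC, fun Λ hΛ => ?_⟩
  obtain ⟨CL, hCL, Q₀, hQ₀, h⟩ := h Λ hΛ
  refine ⟨CL, hCL, Q₀, hQ₀, fun Q hQ => ?_⟩
  obtain ⟨R₀, hR₀, h⟩ := h Q hQ
  refine ⟨R₀, hR₀, fun R hR e' he' => ?_⟩
  obtain ⟨ε₁, hε₁, h⟩ := h R hR e' he'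
  refine ⟨ε₁, hε₁, ?_⟩
  intro ε' η ρ h1 h2 h3 h4 h5 u uu hu x hx t ht htρ hT F hF hF' c₀ S hS hl
  obtain ⟨W, -, HW⟩ := h ε' η ρ h1 h2 h3 h4 h5 u uu hu x hx t ht htρ hT
  have hr0 : 0 ≤ PP m p t x |F - c₀ • (1 : M →ₘ[m] ℝ)| := by
    unfold PP
    exact I_nonneg (mul_nonneg (ph_nonneg e.ker ht x) (abs_nonneg _))
  obtain ⟨-, g2, c₁, g3⟩ := HW F hF hF' c₀ _ S hS le_rfl (fun s hs τ hτ =>
    hl s τ hs.1 hs.2 hτ.1 (hτ.2.trans (by nlinarith)))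
  refine ⟨c₁, W F, ?_, ?_⟩
  · rw [one_div] at g3
    exact g3
  · refine Real.sqrt_le_iff.2 ⟨?_, g2⟩
    have := Real.sqrt_nonneg t
    positivity

/-- **A-E4.** -/
theorem sb_E4 (e : Env m n K o A p) : H771.SB_E4 m n K o p := sb_E4_of e (dlb_of e)

end Vale.Agent.P242.H655
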