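import Vale.Agent.P242.H71.Voc

/-! P242, package A-E4 (helper655): output of A-E4 in the frozen vocabulary.

Levels `t_k = (r₀ Λ^{-k})²`, `k ≥ 0`, with an arbitrary start `r₀ ∈ [ρ/M, ρ/√M]`, `M = M(A₀)`
large (see note 4633). -/

set_option linter.all false

open MeasureTheory Filter Topology Set Metric
open scoped ENNReal NNReal InnerProductSpace

universe u

namespace Vale.Agent.P242.H655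

open Vale.Agent.P233 Vale.Agent.P233.RA Vale.Agent.P242.H990 Vale.Agent.P242.H71

section defs

variable {M : Type u} [MetricSpace M] [MeasurableSpace M]

/-- `|v|_t = √G_t(y)(v,v)` -/
noncomputable def nG (m : Measure M) {n : ℕ} (p : ℝ → M → M → ℝ) (u : Fin n → M →ₘ[m] ℝ) (t : ℝ)
    (y : M) (v : E n) : ℝ := √(Gm m p u t y v v)

/-- `x_t(y; v) = √D_t(y) · 𝔫'_t(y; v)`, `𝔫'² = N^{3/8}_t + D_t G_t` -/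
noncomputable def xE (m : Measure M) {n : ℕ} (K : ℝ) (p : ℝ → M → M → ℝ) (u : Fin n → M →ₘ[m] ℝ)
    (Q A₀ ρ t : ℝ) (y : M) (v : E n) : ℝ :=
  √(Dt m n K p Q A₀ ρ t y) *
    √(Nt m K p u Q A₀ ρ (3 / 8) t y v v + Dt m n K p Q A₀ ρ t y * Gm m p u t y v v)

/-- `E_t(v) = Γ(b_{y,t}, u_v) - u_v - u_{w} - c`, the error of the affine approximation -/
noncomputable def eE (m : Measure M) {n : ℕ} (p : ℝ → M → M → ℝ) (u : Fin n → M →ₘ[m] ℝ)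
    (t : ℝ) (y : M) (v w : E n) (c : ℝ) : M →ₘ[m] ℝ :=
  (sob m).Γ (bb m y t) (uc u v) - uc u v - uc u w - c • 1

/-- **Output of A-E4** at the vertex `y`: linear maps `𝒜 k` and constants `cc k v`. -/
structure E4Out (m : Measure M) {n : ℕ} (K : ℝ) (p : ℝ → M → M → ℝ) (u : Fin n → M →ₘ[m] ℝ)
    (uu : M → E n) (Q A₀ Λ B ρ r₀ : ℝ) (y : M) (𝒜 : ℕ → E n →ₗ[ℝ] E n) (cc : ℕ → E n → ℝ) :
    Prop where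
  /-- (O1) -/
  err : ∀ k v, PP m p (rr r₀ Λ k ^ 2) y |eE m p u (rr r₀ Λ k ^ 2) y v (𝒜 k v) (cc k v)|
    ≤ B * rr r₀ Λ k * xE m K p u Q A₀ ρ (rr r₀ Λ k ^ 2) y v
  /-- (O2) -/
  step : ∀ k v, nG m p u (rr r₀ Λ (k + 1) ^ 2) y (𝒜 (k + 1) v - 𝒜 k v)
    ≤ B * xE m K p u Q A₀ ρ (rr r₀ Λ k ^ 2) y v
  /-- (O3) -/
  bd : ∀ k v, nG m p u (rr r₀ Λ k ^ 2) y (𝒜 k v) ≤ B * nG m p u (rr r₀ Λ k ^ 2) y v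
  /-- (E4c): the constant term, `cc k v + u_v(y) + u_{𝒜v}(y)` -/
  const : ∀ k v, |cc k v + ⟪v + 𝒜 k v, uu y⟫_ℝ|
    ≤ B * rr r₀ Λ k * √(Dt m n K p Q A₀ ρ (rr r₀ Λ k ^ 2) y) * nG m p u (rr r₀ Λ k ^ 2) y v

end defs

/-- **A-E4.** -/
def Blk_E4 : Prop := ForM.{u} fun M _ _ _ => ∀ (m : Measure M) (n : ℕ) (K : ℝ) (o : M) (A : ℝ)
  (p : ℝ → M → M → ℝ), Env m n K o A p →
  ∃ Q₀, 1 ≤ Q₀ ∧ ∀ Q, Q₀ ≤ Q → ∃ R₀, 1 ≤ R₀ ∧ ∀ R, R₀ ≤ R → ∃ Λ₀, 16 ≤ Λ₀ ∧ ∀ Λ, Λ₀ ≤ Λ →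
    ∃ B, 1 ≤ B ∧ ∃ ε₁, 0 < ε₁ ∧ ∀ A₀, 0 < A₀ → A₀ ≤ ε₁ → ∃ M₀, 1 ≤ M₀ ∧ ∀ M', M₀ ≤ M' →
    ∃ η₁, 0 < η₁ ∧ ∀ ε' η δ ρ, 0 < ε' → ε' ≤ ε₁ → 0 < η → η ≤ η₁ → δ ≤ η₁ → ρ ≤ η₁ →
      ∀ (u : Fin n → M →ₘ[m] ℝ) (uu : M → E n),
      Cfg m n K o p R Q η ρ u uu → DropS m n K o p R Q δ ρ → TT m K o p (R / 2) Q ε' ρ u →
        ∀ y ∈ ball o (R / 4 * ρ), ∀ r₀, ρ / M' ≤ r₀ → r₀ ≤ ρ / √M' →
          ∃ (𝒜 : ℕ → E n →ₗ[ℝ] E n) (cc : ℕ → E n → ℝ),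
            E4Out m K p u uu Q A₀ Λ B ρ r₀ y 𝒜 cc

end Vale.Agent.P242.H655
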