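import Vale.Agent.P242.H655.E4Fill

/-! P242, package A-E4 (helper655): `E4Out` from `E4In`. -/

set_option linter.all false

open MeasureTheory Filter Topology Set Metric
open scoped ENNReal NNReal InnerProductSpace

universe u

namespace Vale.Agent.P242.H655

open Vale.Agent.P233 Vale.Agent.P233.RA Vale.Agent.P242.H990 Vale.Agent.P242.H71

variable {M : Type u} [MetricSpace M] [CompleteSpace M] [SecondCountableTopology M]
  [MeasurableSpace M] [BorelSpace M] {m : Measure M} {n : ℕ} {K A : ℝ} {o : M}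
  {p : ℝ → M → M → ℝ}
  {R Q η ρ A₀ Λ T₁ r₀ α κ₁ β : ℝ} {u : Fin n → M →ₘ[m] ℝ} {uu : M → E n} {y : M}

/-- the constant `B'` of the recursion -/
noncomputable def b4 (a b x : ℝ) : ℝ :=
  (2 + a ^ 3) * b + 2 * ((2 + a ^ 3) * (b * (b + a ^ 3) + b)) * x

/-- the constant of A-E4 -/
noncomputable def bO (a b κ x c : ℝ) : ℝ :=
  b4 a b x + (a ^ 2 * (κ * b4 a b x + (b * (b + a ^ 3) + b)) + 2 * a * b4 a b x)
    + a ^ 3 + c * (2 + a ^ 3)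

/-- **`E4Out` from `E4In`.** -/
theorem e4Out_voc (e : Env m n K o A p) (hu : Cfg m n K o p R Q η ρ u uu)
    (hy : y ∈ ball o (R * ρ)) (N : NumC n K A Q A₀ Λ ρ η T₁ β)
    (H : E4In m K A p u uu Q A₀ Λ ρ T₁ r₀ α κ₁ β y) (hα : 0 ≤ α) (hκ : 0 ≤ κ₁)
    (hA16 : A₀ ≤ 1 / 16) (hΛA : 4 * A ^ 2 ≤ Λ) (hr₀ : 0 < r₀) (hr : r₀ ^ 2 ≤ T₁)
    (hκ' : (2 + aE n A α ^ 3) * κ₁ * (2 * √Λ) ≤ 1 / 2) (hQ : 1 ≤ Q)
    (hρA : 28 * Real.exp 3 * n * (|K| + 1) * ρ ^ 2 ≤ A₀) (hKρ : (|K| + 1) * (2 * ρ ^ 2) ≤ 1)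
    {Bν : ℝ} (hBν : 0 ≤ Bν)
    (hν : ∀ t, 0 < t → t ≤ T₁ → nu m n K p y (2 * t) y ≤ Bν * Dt m n K p Q A₀ ρ t y) :
    ∃ (𝒜 : ℕ → E n →ₗ[ℝ] E n) (cc : ℕ → E n → ℝ),
      E4Out m K p u uu Q A₀ Λ (bO (aE n A α) (bE n K A Λ β) κ₁ (2 * √Λ)
        (H924.cF n Bν + √2 * √n)) ρ r₀ y 𝒜 cc := by
  have F := H924.facts e.hyp
  obtain ⟨Ns, hNs, HH⟩ := e4H_voc e hu hy N H hα hκ hA16 hΛA hr₀ hr
  have hA := e.kb.one_le
  have hΛ := N.hΛ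
  have hΛ0 : 0 < Λ := by linarith
  have hΛ1 : 1 ≤ Λ := by linarith
  have hη1 : η ≤ 1 := (η_le_A e N).trans N.hA₀1
  have hηA : η ^ 2 ≤ A₀ := by
    have h1 := η_le_A e N
    have h2 := N.hη
    nlinarith
  have hρ := N.hρ
  have hρ2 : 0 < ρ ^ 2 := by positivity
  have rp : ∀ k, 0 < rr r₀ Λ k := rr_pos' hr₀ hΛ0
  have tp : ∀ k, 0 < rr r₀ Λ k ^ 2 := fun k => pow_pos (rp k) 2
  have tT : ∀ k, rr r₀ Λ k ^ 2 ≤ T₁ := fun k =>
    (pow_le_pow_left₀ (rp k).le (rr_le' hr₀ hΛ1 k) 2).trans hr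
  have sq : ∀ k, √(rr r₀ Λ k ^ 2) = rr r₀ Λ k := fun k => Real.sqrt_sq (rp k).le
  have hcF := H924.cF_nonneg n Bν
  have ht : ∀ k, rr r₀ Λ k ^ 2 ≤ ρ ^ 2 := fun k => (tT k).trans N.hT1
  have htQ : ∀ k, rr r₀ Λ k ^ 2 ≤ Q * ρ ^ 2 := fun k =>
    (ht k).trans (le_mul_of_one_le_left hρ2.le hQ)
  have hD0 : ∀ k, 0 ≤ Dt m n K p Q A₀ ρ (rr r₀ Λ k ^ 2) y := fun k =>
    D_nonneg e N (tp k) (tT k)
  have hck := ck1_nonneg (n := n) hA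
  have hcP := cP4_pos
  have hexp : 0 ≤ ck1 n A (16 * A ^ 4) * Real.exp (10 * A) := by positivity
  have haE0 : 0 ≤ aE n A α := by unfold aE; linarith
  have hbE0 : 0 ≤ bE n K A Λ β := HH.B0
  have hs0 : 0 ≤ √Λ := Real.sqrt_nonneg _
  have hb4 : 0 ≤ b4 (aE n A α) (bE n K A Λ β) (2 * √Λ) := by unfold b4; positivity
  have hX : 0 ≤ aE n A α ^ 2 * (κ₁ * b4 (aE n A α) (bE n K A Λ β) (2 * √Λ)
      + (bE n K A Λ β * (bE n K A Λ β + aE n A α ^ 3) + bE n K A Λ β))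
      + 2 * aE n A α * b4 (aE n A α) (bE n K A Λ β) (2 * √Λ) := by positivity
  have hc0 : 0 ≤ H924.cF n Bν + √2 * √n := by positivity
  have hY : 0 ≤ (H924.cF n Bν + √2 * √n) * (2 + aE n A α ^ 3) := by positivity
  have ha3 : 0 ≤ aE n A α ^ 3 := by positivity
  refine e4out_of F.gam.toIsDir hNs HH hκ' (Bc := H924.cF n Bν + √2 * √n) hc0 ?_ ?_ ?_ ?_ ?_ ?_
  · intro k v
    have hKt : (|K| + 1) * (2 * rr r₀ Λ k ^ 2) ≤ 1 := by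
      refine le_trans ?_ hKρ
      have := abs_nonneg K
      exact mul_le_mul_of_nonneg_left (by linarith [ht k]) (by linarith)
    have h1 := H924.E4c_final e hu N.hη hη1 hηA hBν hρA hy (tp k) (ht k) (htQ k) hKt
      (hν _ (tp k) (tT k)) v (H.low _ (tp k) (ht k) v)
    rw [sq] at h1
    refine le_trans (le_of_eq rfl) (h1.trans ?_)
    have h2 : 0 ≤ rr r₀ Λ k * (√(Dt m n K p Q A₀ ρ (rr r₀ Λ k ^ 2) y)
        * nG m p u (rr r₀ Λ k ^ 2) y v) :=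
      mul_nonneg (rp k).le (mul_nonneg (Real.sqrt_nonneg _) (Real.sqrt_nonneg _))
    have h3 : 0 ≤ √2 * √(n : ℝ) := by positivity
    have h4 := mul_le_mul_of_nonneg_right (show H924.cF n Bν ≤ H924.cF n Bν + √2 * √n by linarith) h2
    calc _ = H924.cF n Bν * (rr r₀ Λ k * (√(Dt m n K p Q A₀ ρ (rr r₀ Λ k ^ 2) y)
          * nG m p u (rr r₀ Λ k ^ 2) y v)) := by unfold nG; ring
      _ ≤ _ := h4
      _ = _ := by ring
  · intro k v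
    have h1 := H924.uc_val_final e hu N.hη hηA hy (tp k) (ht k) (htQ k) v
      (H.low _ (tp k) (ht k) v)
    rw [sq] at h1
    refine le_trans (le_of_eq rfl) (h1.trans ?_)
    have h2 : 0 ≤ rr r₀ Λ k * (√(Dt m n K p Q A₀ ρ (rr r₀ Λ k ^ 2) y)
        * nG m p u (rr r₀ Λ k ^ 2) y v) :=
      mul_nonneg (rp k).le (mul_nonneg (Real.sqrt_nonneg _) (Real.sqrt_nonneg _))
    have h4 := mul_le_mul_of_nonneg_right (show √2 * √(n : ℝ) ≤ H924.cF n Bν + √2 * √n by linarith) h2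
    calc _ = √2 * √(n : ℝ) * (rr r₀ Λ k * (√(Dt m n K p Q A₀ ρ (rr r₀ Λ k ^ 2) y)
          * nG m p u (rr r₀ Λ k ^ 2) y v)) := by unfold nG; ring
      _ ≤ _ := h4
      _ = _ := by ring
  · change b4 (aE n A α) (bE n K A Λ β) (2 * √Λ) ≤ _
    unfold bO
    linarith
  · change aE n A α ^ 2 * (κ₁ * b4 (aE n A α) (bE n K A Λ β) (2 * √Λ)
      + (bE n K A Λ β * (bE n K A Λ β + aE n A α ^ 3) + bE n K A Λ β))
      + 2 * aE n A α * b4 (aE n A α) (bE n K A Λ β) (2 * √Λ) ≤ _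
    unfold bO
    linarith
  · unfold bO
    linarith
  · unfold bO
    linarith

end Vale.Agent.P242.H655
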