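import Vale.Agent.P242.H655.E4VocC
import Vale.Agent.P242.H655.Resc
import Vale.Agent.P242.H254.E1m
import Vale.Agent.P242.H703.HfL
import Vale.Agent.P242.H751.P3g
import Vale.Agent.P242.H744.NuD
import Vale.Agent.P242.H597.EnvB

/-! P242, package A-E4 (helper655): the inputs `E4In` from the landed packages. -/

set_option linter.all false

open MeasureTheory Filter Topology Set Metric
open scoped ENNReal NNReal InnerProductSpace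

universe u

namespace Vale.Agent.P242.H655

open Vale.Agent.P233 Vale.Agent.P233.RA Vale.Agent.P242.H990 Vale.Agent.P242.H71

variable {M : Type u} [MetricSpace M] [CompleteSpace M] [SecondCountableTopology M]
  [MeasurableSpace M] [BorelSpace M] {m : Measure M} {n : ℕ} {K A : ℝ} {o : M}
  {p : ℝ → M → M → ℝ}
  {R Q η ρ A₀ Λ ε' : ℝ} {u : Fin n → M →ₘ[m] ℝ} {uu : M → E n} {y : M}

/-- the six facts on the forms -/
structure FormF (m : Measure M) {n : ℕ} (K : ℝ) (p : ℝ → M → M → ℝ) (u : Fin n → M →ₘ[m] ℝ)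
    (Q A₀ Λ ρ β : ℝ) (y : M) : Prop where
  low : ∀ t, 0 < t → t ≤ ρ ^ 2 → ∀ c : E n, (t / ρ ^ 2) ^ (1 / 8 : ℝ) * ‖c‖ ^ 2 ≤ 2 * Gm m p u t y c c
  up : ∀ s t, 0 < s → s ≤ t → t ≤ ρ ^ 2 → ∀ c : E n, Gm m p u s y c c ≤ 2 * Gm m p u t y c c
  dn : ∀ s t, 0 < s → s ≤ t → t ≤ Λ ^ 2 * s → t ≤ ρ ^ 2 → ∀ c : E n,
    Gm m p u t y c c ≤ 2 * Gm m p u s y c c
  gam : ∀ s t, 0 < t → 2 * t ≤ ρ ^ 2 → t / Λ ^ 2 ≤ s → s ≤ 2 * t → ∀ c : E n,
    t * gm m K p u s y c c ≤ β * Nt m K p u Q A₀ ρ (3 / 8) t y c c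
  nlow : ∀ t, 0 < t → t ≤ ρ ^ 2 → ∀ c : E n,
    A₀ * (t / ρ ^ 2) ^ (3 / 8 : ℝ) * ‖c‖ ^ 2 ≤ Nt m K p u Q A₀ ρ (3 / 8) t y c c
  nstep : ∀ t, 0 < t → t ≤ ρ ^ 2 → ∀ c : E n, Nt m K p u Q A₀ ρ (3 / 8) t y c c
    ≤ Λ ^ (3 / 4 : ℝ) * Nt m K p u Q A₀ ρ (3 / 8) (t / Λ ^ 2) y c c

/-- constant of `gam` -/
noncomputable def bGam (n : ℕ) (A Λ : ℝ) : ℝ :=
  2 * H703.cH n A 1 * (4 * Λ ^ 2) ^ ((n : ℝ) / 2)

theorem formF_of (e : Env m n K o A p) (hu : Cfg m n K o p R Q η ρ u uu) (hη : 0 ≤ η)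
    (hQ : 8 * A ^ 2 ≤ Q) (hTT : TT m K o p (R / 2) Q ε' ρ u) (hR : 0 < R)
    (hy : y ∈ ball o (R / 2 * ρ)) (hε0 : 0 ≤ ε') (hε : ε' ≤ 1 / 16)
    (hη1 : 12 * n * H703.cH n A 1 * η ≤ 1 / 8) (hη2 : Q * (12 * n * H703.cH n A 1 * η) ≤ A₀)
    (hη3 : (1 + 24 * n) * η ≤ 1 / 2) (hA₀ : A₀ ≤ 1 / 8) (hΛ : 1 ≤ Λ)
    (hp : (Λ ^ 2) ^ (2 * ε' + 5 * n * Q * η) ≤ 2) :
    FormF m K p u Q A₀ Λ ρ (bGam n A Λ) y := by
  have hA := e.kb.one_le
  have hA2 : 1 ≤ A ^ 2 := one_le_pow₀ hA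
  have hρ := hu.ρ_pos
  have hρ2 : 0 < ρ ^ 2 := by positivity
  have hQ1 : 1 ≤ Q := by linarith
  have hρQ : ρ ^ 2 ≤ Q * ρ ^ 2 := le_mul_of_one_le_left hρ2.le hQ1
  have hΛ0 : 0 < Λ := by linarith
  have hn1 : 1 ≤ n := by have := e.hyp.two_le; omega
  have hyR : y ∈ ball o (R * ρ) := ball_subset_ball (by nlinarith) hy
  have hH := H703.hf_hyp e hu hη (C₀ := 1) le_rfl hQ (le_refl R)
  have hS : ∀ s, 0 < s → (H703.hf m K p u).Small (ρ ^ 2) ε' s y := fun s hs =>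
    H703.hf_small e hu hQ1 hTT hs hy
  have hq : H703.HF.Par Q (12 * n * H703.cH n A 1 * η) A₀ (3 / 8) :=
    ⟨by norm_num, by norm_num, hη2, hA₀⟩
  have hTx : ∀ t, 0 < t → H155.TTx m K p Q ε' ρ u y t := fun t ht => by
    intro s h1 h2 c
    exact hTT y hy s (ht.trans_le h1) h2 c
  have hNt : ∀ t, 0 < t → t ≤ Q * ρ ^ 2 → ∀ c : E n,
      (H703.hf m K p u).Nb (ρ ^ 2) Q A₀ (3 / 8) t y c c = Nt m K p u Q A₀ ρ (3 / 8) t y c c :=
    fun t ht htQ c => H703.hf_Nt e hu hη hQ (by norm_num) ht htQ hyR c c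
  refine ⟨?_, ?_, ?_, ?_, ?_, ?_⟩
  · intro t ht htρ c
    have h := H597.G_lower e hu hQ1 hyR ht htρ (hTx t ht) hε hη hη3 c
    linarith
  · intro s t hs hst htρ c
    have ht := hs.trans_le hst
    have h := hH.F7 (ε := ε') (by linarith) hη1 hs hst htρ hyR (hS t ht) c
    rw [H703.hf_G e hu hs, H703.hf_G e hu ht] at h
    have hG0 : 0 ≤ Gm m p u t y c c := Gm_nonneg' e hu ht c
    refine h.trans (mul_le_mul_of_nonneg_right ?_ hG0)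
    linarith
  · intro s t hs hst htΛ htρ c
    have ht := hs.trans_le hst
    have h := (H597.G_two e hu hQ1 hn1 hyR hs (hTx s hs) hε hη hη3 le_rfl hst
      (htρ.trans hρQ) c).1
    have hG0 : 0 ≤ Gm m p u s y c c := Gm_nonneg' e hu hs c
    refine h.trans (mul_le_mul_of_nonneg_right ?_ hG0)
    refine le_trans ?_ hp
    refine Real.rpow_le_rpow (by positivity) ?_ (by positivity)
    rw [div_le_iff₀ hs]
    exact htΛ
  · intro s t ht htρ hs1 hs2 c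
    have hs0 : 0 < s := lt_of_lt_of_le (by positivity) hs1
    have h := hH.gam_le_Nb hq (t' := t / Λ ^ 2) (s := s) (t := 2 * t) (by positivity) hs1 hs2 htρ
      hyR c
    rw [H703.hf_gam e hu hs0] at h
    have h2 := hH.F4c hq ht (by linarith : t ≤ 2 * t) (htρ.trans hρQ) hyR c
    rw [hNt t ht (by linarith)] at h2
    have hN0 : 0 ≤ Nt m K p u Q A₀ ρ (3 / 8) t y c c := by
      have := hH.Nb_nonneg hq ht (by linarith) hyR c
      rwa [hNt t ht (by linarith)] at this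
    have e1 : 2 * (2 * t) / (t / Λ ^ 2) = 4 * Λ ^ 2 := by field_simp; ring
    rw [e1] at h
    have e2 : (2 * t / t) ^ (3 / 8 : ℝ) ≤ 2 := by
      have : 2 * t / t = 2 := by field_simp
      rw [this]
      calc (2 : ℝ) ^ (3 / 8 : ℝ) ≤ 2 ^ (1 : ℝ) :=
            Real.rpow_le_rpow_of_exponent_le (by norm_num) (by norm_num)
        _ = 2 := Real.rpow_one 2
    have h3 := h2.trans (mul_le_mul_of_nonneg_right e2 hN0)
    have hcH : 0 ≤ H703.cH n A 1 := zero_le_one.trans (H703.one_le_cH hA (by norm_num))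
    have hc : 0 ≤ 2 * H703.cH n A 1 * (4 * Λ ^ 2) ^ ((n : ℝ) / 2) := by positivity
    have h4 := h.trans (mul_le_mul_of_nonneg_left h3 hc)
    unfold bGam
    linarith
  · intro t ht htρ c
    have h := hH.bg_le_Nb (A₀ := A₀) (e := 3 / 8) (by norm_num) ht (htρ.trans hρQ) hyR c
    rw [hNt t ht (htρ.trans hρQ)] at h
    exact h
  · intro t ht htρ c
    have ht' : 0 < t / Λ ^ 2 := by positivity
    have hle : t / Λ ^ 2 ≤ t := div_le_self ht.le (one_le_pow₀ hΛ)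
    have h := hH.F4c hq ht' hle (htρ.trans hρQ) hyR c
    rw [hNt t ht (htρ.trans hρQ), hNt _ ht' (hle.trans (htρ.trans hρQ))] at h
    have e1 : (t / (t / Λ ^ 2)) ^ (3 / 8 : ℝ) = Λ ^ (3 / 4 : ℝ) := by
      have : t / (t / Λ ^ 2) = Λ ^ 2 := by field_simp
      rw [this, ← Real.rpow_natCast, ← Real.rpow_mul hΛ0.le]
      norm_num
    rwa [e1] at h

/-- **gradient of `ν_t`**, in the frozen vocabulary, at the vertex -/
theorem gnu_env (e : Env m n K o A p) {L : ℝ} (hL : 1 ≤ L) :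
    ∃ B, 1 ≤ B ∧ ∃ Γ, 1 ≤ Γ ∧ ∀ Q A₀ ρ t s : ℝ, ∀ y : M, 0 < ρ → 1 ≤ Q → 0 ≤ A₀ →
      dist y o ≤ 1 → 0 < t → t / L ≤ s → s ≤ L * t → Γ * t ≤ Q * ρ ^ 2 → Γ * t ≤ 1 / 2 →
      PP m p s y ((sob m).gr ((sob m).lap (bb m y t) - (|K| + 1) • bb m y t))
        ≤ B * (Dt m n K p Q A₀ ρ t y / √t) := by
  have hA := e.kb.one_le
  have hA2 : 1 ≤ A ^ 2 := one_le_pow₀ hA
  set a : ℝ := 512 * A ^ 2 with ha
  have ha1 : 1 ≤ a := by rw [ha]; linarith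
  set Γ₂ : ℝ := a * (L + 1) + 1 with hΓ₂
  have hΓ₂1 : 1 ≤ Γ₂ := by
    have : 0 ≤ a * (L + 1) := by positivity
    linarith
  have hΓL : L ≤ Γ₂ := by nlinarith
  obtain ⟨Bν, hBν, hν⟩ := H196.nu_le_Dt e 1 0 Γ₂ hΓ₂1 le_rfl
  set W := H254.cWin n K A 1 0 Γ₂ with hW
  have hW1 : 1 ≤ W := H254.cWin_ge n K 1 0 Γ₂ hA
  refine ⟨2 * W * Bν, by nlinarith [mul_le_mul hW1 hBν zero_le_one (by linarith)],
    8 * A ^ 2 * Γ₂, by nlinarith, ?_⟩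
  intro Q A₀ ρ t s y hρ hQ hA₀ hyo ht hs1 hs2 hw1 hw2
  have F := H924.facts e.hyp
  have hC := F.gam
  haveI := F.sf
  have hBE := (H744.be_abs e.hyp).1
  have hBEi := (H744.be_abs e.hyp).2
  have hΓt : Γ₂ * t ≤ 1 / 2 := by
    have h1 : 0 ≤ Γ₂ * t := by positivity
    have h2 : 8 * A ^ 2 * Γ₂ * t = 8 * A ^ 2 * (Γ₂ * t) := by ring
    rw [h2] at hw2
    nlinarith
  have hlo : 0 < t / Γ₂ := by positivity
  have hWin := H254.win_of e (R₀ := 1) (C₀ := 0) (Γ₂ := Γ₂) (x := y) (y := y) (by linarith) hyo ht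
    (by rw [dist_self, zero_mul]) hlo hΓt
  have hD : ∀ σ, t / Γ₂ ≤ σ → σ ≤ Γ₂ * t →
      H254.nuP (sob m) n (|K| + 1) (1 / 2) (cl m (ww (1 / 2) y)) (ph m p σ y)
        ≤ Bν * Dt m n K p Q A₀ ρ t y := by
    intro σ h1 h2
    rw [← H254.nuF_eq]
    exact hν Q A₀ ρ t σ y y hA₀ hyo ht (by rw [dist_self, zero_mul]) h1 h2 hw1 hw2
  have htQ : t ≤ Q * ρ ^ 2 := by
    refine le_trans ?_ hw1
    have : 1 ≤ 8 * A ^ 2 * Γ₂ := by nlinarith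
    exact le_mul_of_one_le_left ht.le this
  have hD0 : 0 ≤ Dt m n K p Q A₀ ρ t y := H744.dt_nonneg e hA₀ ht htQ y
  have hs0 : t / Γ₂ ≤ s := le_trans (div_le_div_of_nonneg_left ht.le (by linarith) hΓL) hs1
  have hwin : a * (s + t) + t ≤ Γ₂ * t := by
    have h1 : a * (s + t) ≤ a * (L * t + t) := mul_le_mul_of_nonneg_left (by linarith) (by linarith)
    calc a * (s + t) + t ≤ a * (L * t + t) + t := by linarith
      _ = Γ₂ * t := by rw [hΓ₂]; ring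
  have key := (H254.vx_of e.hyp y).gr_nu hC hBEi hWin hBE hlo ha1 (by linarith) (by positivity) hD ht
    hs0 hwin
  have hbW := (hC.test_A (bb_testI e y ht).1).1
  have hlW := hC.test_lap_mem (bb_testI e y ht).1
  have hXW : (sob m).lap (bb m y t) - (|K| + 1) • bb m y t ∈ (sob m).W :=
    hC.toIsDir.sub_mem hlW (hC.smul_mem _ _ hbW)
  have e1 : H254.nuW (sob m) (|K| + 1) (cl m (ww (1 / 2) y)) t
      = -((sob m).lap (bb m y t) - (|K| + 1) • bb m y t) := by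
    unfold H254.nuW H71.bb
    abel
  have e2 : (sob m).gr (H254.nuW (sob m) (|K| + 1) (cl m (ww (1 / 2) y)) t)
      = (sob m).gr ((sob m).lap (bb m y t) - (|K| + 1) • bb m y t) := by
    rw [e1]
    unfold Calc.gr
    rw [H196.I_Γ_neg hC hXW]
  rw [e2] at key
  refine le_trans (le_of_eq rfl) (key.trans (le_of_eq ?_))
  ring

/-- `P_s (Δb)² ≤ 2 P_s (Δb - n)² + 2 n²` -/
theorem lapb_le (e : Env m n K o A p) (x y : M) {t s B : ℝ} (ht : 0 < t) (hs : 0 < s)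
    (h : PP m p s x (((sob m).lap (bb m y t) - (n : ℝ) • (1 : M →ₘ[m] ℝ)) ^ 2) ≤ B) :
    PP m p s x ((sob m).lap (bb m y t) ^ 2) ≤ 2 * B + 2 * (n : ℝ) ^ 2 := by
  have F := H924.facts e.hyp
  have hT := bb_testI e y ht
  have hlt : MemLp ((sob m).lap (bb m y t)) ∞ m := hT.2
  have m1 := ph_mem1 e.ker hs x
  have h1t : MemLp (1 : M →ₘ[m] ℝ) ∞ m := mem_top_one
  have d1 : MemLp (((sob m).lap (bb m y t) - (n : ℝ) • (1 : M →ₘ[m] ℝ)) ^ 2 : M →ₘ[m] ℝ) ∞ m := by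
    rw [_root_.sq]
    exact mem_mul_top (mem_sub hlt (mem_smul _ h1t)) (mem_sub hlt (mem_smul _ h1t))
  have d2 : MemLp ((sob m).lap (bb m y t) ^ 2 : M →ₘ[m] ℝ) ∞ m := by
    rw [_root_.sq]
    exact mem_mul_top hlt hlt
  have key : (sob m).lap (bb m y t) ^ 2
      ≤ (2 : ℝ) • ((sob m).lap (bb m y t) - (n : ℝ) • (1 : M →ₘ[m] ℝ)) ^ 2
        + (2 * (n : ℝ) ^ 2) • (1 : M →ₘ[m] ℝ) := by
    rw [le_iff_ae]
    filter_upwards [sq_ae ((sob m).lap (bb m y t)),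
      add_ae ((2 : ℝ) • ((sob m).lap (bb m y t) - (n : ℝ) • (1 : M →ₘ[m] ℝ)) ^ 2)
        ((2 * (n : ℝ) ^ 2) • (1 : M →ₘ[m] ℝ)),
      smul_ae (((sob m).lap (bb m y t) - (n : ℝ) • (1 : M →ₘ[m] ℝ)) ^ 2) (2 : ℝ),
      sq_ae ((sob m).lap (bb m y t) - (n : ℝ) • (1 : M →ₘ[m] ℝ)),
      sub_ae ((sob m).lap (bb m y t)) ((n : ℝ) • (1 : M →ₘ[m] ℝ)),
      smul_ae (1 : M →ₘ[m] ℝ) (n : ℝ), smul_ae (1 : M →ₘ[m] ℝ) (2 * (n : ℝ) ^ 2),
      one_ae (M := M) (m := m)] with z a1 a2 a3 a4 a5 a6 a7 a8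
    rw [a1, a2, a3, a4, a5, a6, a7, a8]
    nlinarith [sq_nonneg ((sob m).lap (bb m y t) z - 2 * n)]
  unfold PP at h ⊢
  calc I (ph m p s x * (sob m).lap (bb m y t) ^ 2)
      ≤ I (ph m p s x * ((2 : ℝ) • ((sob m).lap (bb m y t) - (n : ℝ) • (1 : M →ₘ[m] ℝ)) ^ 2
        + (2 * (n : ℝ) ^ 2) • (1 : M →ₘ[m] ℝ))) :=
        I_mono (mem_top_mul m1 d2) (mem_top_mul m1 (mem_add (mem_smul _ d1) (mem_smul _ h1t)))
          (mul_le_mul_of_nonneg_left key (ph_nonneg e.ker hs x))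
    _ = 2 * I (ph m p s x * ((sob m).lap (bb m y t) - (n : ℝ) • (1 : M →ₘ[m] ℝ)) ^ 2)
        + 2 * (n : ℝ) ^ 2 := by
        rw [mul_add, I_add (mem_top_mul m1 (mem_smul _ d1)) (mem_top_mul m1 (mem_smul _ h1t)),
          mul_smul_comm, mul_smul_comm, I_smul, I_smul, mul_one, I_ph e.ker hs x, mul_one]
    _ ≤ _ := by linarith

/-- **`E4In` from the packages.** -/
theorem e4In_core (e : Env m n K o A p) (hu : Cfg m n K o p R Q η ρ u uu)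
    {T₁ r₀ α κ₁ β β₀ B₀ B₂ B₃ : ℝ} (N : NumC n K A Q A₀ Λ ρ η T₁ β)
    (hF : FormF m K p u Q A₀ Λ ρ β₀ y) (hβ₀ : β₀ ≤ β)
    (hE : ∀ t, 0 < t → t ≤ T₁ → ∀ s, t / (Λ ^ 2 + 8 * A ^ 2) ≤ s → s ≤ (Λ ^ 2 + 8 * A ^ 2) * t →
      H254.E1X m n K p B₂ (Dt m n K p Q A₀ ρ t y) t s y y)
    (hB₂ : B₂ ≤ β) (hB₂0 : 0 ≤ B₂) (hB₂n : 2 * B₂ + 2 * (n : ℝ) ^ 2 ≤ β ^ 2)
    (hE0 : ∀ t, 0 < t → t ≤ T₁ →
      H254.E1X m n K p B₀ (Dt m n K p Q A₀ ρ t y) t t y y) (hα : B₀ ≤ α ^ 2)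
    (hgn : ∀ t, 0 < t → t ≤ T₁ → ∀ s, t / (Λ ^ 2 + 8 * A ^ 2) ≤ s →
      s ≤ (Λ ^ 2 + 8 * A ^ 2) * t →
      PP m p s y ((sob m).gr ((sob m).lap (bb m y t) - (|K| + 1) • bb m y t))
        ≤ B₃ * (Dt m n K p Q A₀ ρ t y / √t)) (hB₃ : B₃ ≤ β)
    (hP3 : ∀ t, 0 < t → t ≤ T₁ → ∀ c : E n, ∀ᵐ z ∂m, (sob m).Γ (uc u c) (uc u c) z ≤
      H751.cP n A * Real.exp (dist y z ^ 2 / (8 * A * (t / 4))) * Gm m p u t y c c)
    (hcP : H751.cP n A ≤ β ^ 2)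
    (hd1 : ∀ t, 0 < t → t ≤ T₁ → Dt m n K p Q A₀ ρ t y ≤ 1)
    (hdl : ∀ t, 0 < t → t ≤ T₁ → ∀ F : M →ₘ[m] ℝ, MemLp F 2 m → MemLp F ∞ m → ∀ c₀ S : ℝ, 0 ≤ S →
      (∀ s τ, t / Λ ^ 2 ≤ s → s ≤ t → 0 < τ → τ ≤ t →
        PP m p s y |(sob m).lap ((sob m).P τ F)| ≤ S) →
      ∃ (c₁ : ℝ) (c : E n), PP m p (t / Λ ^ 2) y |F - c₁ • (1 : M →ₘ[m] ℝ) - uc u c|
          ≤ Λ⁻¹ * (κ₁ * PP m p t y |F - c₀ • (1 : M →ₘ[m] ℝ)| + β * t * S) ∧
        √(Gm m p u t y c c) ≤ α * PP m p t y |F - c₀ • (1 : M →ₘ[m] ℝ)| / √t)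
    (hst : ∀ v : E n, ∃ a : ℝ, PP m p (r₀ ^ 2) y
      |(sob m).Γ (bb m y (r₀ ^ 2)) (uc u v) - uc u v - a • (1 : M →ₘ[m] ℝ)|
        ≤ r₀ * (A₀ * (r₀ ^ 2 / ρ ^ 2) * ‖v‖)) :
    E4In m K A p u uu Q A₀ Λ ρ T₁ r₀ α κ₁ β y := by
  have hA := e.kb.one_le
  have hA0 := e.kb.pos
  have hA2 : 1 ≤ A ^ 2 := one_le_pow₀ hA
  have hΛ := N.hΛ
  have hΛ0 : 0 < Λ := by linarith
  have hΛ2 : 256 ≤ Λ ^ 2 := by nlinarith
  have hβ := N.hβ
  have hT1 := N.hT1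
  have hLs : ∀ t s, 0 < t → t / Λ ^ 2 ≤ s → t / (Λ ^ 2 + 8 * A ^ 2) ≤ s := fun t s ht h =>
    le_trans (div_le_div_of_nonneg_left ht.le (by positivity) (by linarith)) h
  have hL2 : ∀ t s, 0 < t → s ≤ 2 * t → s ≤ (Λ ^ 2 + 8 * A ^ 2) * t := fun t s ht h =>
    h.trans (mul_le_mul_of_nonneg_right (by linarith) ht.le)
  have h8a : ∀ t, 0 < t → t / (Λ ^ 2 + 8 * A ^ 2) ≤ 8 * A ^ 2 * t := fun t ht => by
    rw [div_le_iff₀ (by positivity)]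
    have : 1 ≤ 8 * A ^ 2 * (Λ ^ 2 + 8 * A ^ 2) := by nlinarith
    calc t ≤ (8 * A ^ 2 * (Λ ^ 2 + 8 * A ^ 2)) * t := le_mul_of_one_le_left ht.le this
      _ = _ := by ring
  have h8b : ∀ t, 0 < t → 8 * A ^ 2 * t ≤ (Λ ^ 2 + 8 * A ^ 2) * t := fun t ht =>
    mul_le_mul_of_nonneg_right (by linarith) ht.le
  have hD0 : ∀ t, 0 < t → t ≤ T₁ → 0 ≤ Dt m n K p Q A₀ ρ t y := fun t ht htT =>
    D_nonneg e N ht htT
  have hN0 : ∀ t, 0 < t → t ≤ T₁ → ∀ c : E n, 0 ≤ Nt m K p u Q A₀ ρ (3 / 8) t y c c := by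
    intro t ht htT c
    refine le_trans ?_ (hF.nlow t ht (htT.trans hT1) c)
    have := N.hA₀
    positivity
  refine
    { low := hF.low
      up := hF.up
      dn := hF.dn
      gam := ?_
      nlow := hF.nlow
      nstep := fun t ht htT c => hF.nstep t ht (htT.trans hT1) c
      dstep := ?_
      d1 := hd1
      qq := ?_
      lapb := ?_
      gb := ?_
      gb0 := ?_
      gnu := ?_
      scb := ?_
      p3g := ?_
      dl := hdl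
      start := hst }
  · intro s t ht htT h1 h2 c
    have h4 := N.hT4
    refine (hF.gam s t ht (by linarith) h1 h2 c).trans ?_
    exact mul_le_mul_of_nonneg_right hβ₀ (hN0 t ht htT c)
  · intro t ht htT
    have h2 := N.hT2
    have h3 := N.hT
    exact H744.dt_step e N.hρ (by linarith) ht (by linarith) y
  · intro s t ht htT h1 h2
    refine (hE t ht htT s (hLs t s ht h1) (hL2 t s ht h2)).qq.trans ?_
    exact mul_le_mul_of_nonneg_right hB₂ (hD0 t ht htT)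
  · intro s t ht htT h1 h2
    have hs : 0 < s := lt_of_lt_of_le (by positivity) h1
    have h3 := (hE t ht htT s (hLs t s ht h1) (hL2 t s ht h2)).mu2
    have h4 : B₂ * Dt m n K p Q A₀ ρ t y ≤ B₂ := mul_le_of_le_one_right hB₂0 (hd1 t ht htT)
    exact (lapb_le e y y ht hs (h3.trans h4)).trans hB₂n
  · intro s t ht htT h1 h2
    refine (hE t ht htT s (hLs t s ht h1) (hL2 t s ht h2)).gb.trans ?_
    refine mul_le_mul_of_nonneg_right (hB₂.trans ?_) ht.le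
    nlinarith
  · intro t ht htT
    exact (hE0 t ht htT).gb.trans (mul_le_mul_of_nonneg_right hα ht.le)
  · intro t ht htT
    refine (hgn t ht htT _ (h8a t ht) (h8b t ht)).trans ?_
    exact mul_le_mul_of_nonneg_right hB₃ (div_nonneg (hD0 t ht htT) (Real.sqrt_nonneg _))
  · intro t ht htT
    have h3 := (hE t ht htT _ (h8a t ht) (h8b t ht)).sc (t / Λ ^ 2) (by positivity)
      (div_le_self ht.le (by linarith))
    refine h3.trans ?_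
    exact mul_le_mul_of_nonneg_right hB₂ (mul_nonneg (Real.sqrt_nonneg _) (hD0 t ht htT))
  · intro t ht htT v
    filter_upwards [hP3 t ht htT v] with z hz
    have hG0 := Gm_nonneg' (y := y) e hu ht v
    have e1 : dist y z ^ 2 / (8 * A * (t / 4)) = 1 / (2 * A * t) * dist y z ^ 2 := by
      field_simp; ring
    rw [e1] at hz
    refine hz.trans ?_
    calc H751.cP n A * Real.exp (1 / (2 * A * t) * dist y z ^ 2) * Gm m p u t y v v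
        = Real.exp (1 / (2 * A * t) * dist y z ^ 2) * (H751.cP n A * Gm m p u t y v v) := by ring
      _ ≤ _ := mul_le_mul_of_nonneg_left (mul_le_mul_of_nonneg_right hcP hG0)
          (Real.exp_pos _).le

end Vale.Agent.P242.H655
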