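import Vale.Agent.P242.H71.Voc
import Vale.Agent.P242.H542.Gam
import Vale.Agent.P242.H990.Ph

/-! P242, package A-E4 (helper655): `P_s |Γ(X,f)| (y)` when `|∇f|` has Gaussian growth. -/

set_option linter.all false

open MeasureTheory Filter Topology Set Metric
open scoped ENNReal NNReal InnerProductSpace

universe u

namespace Vale.Agent.P242.H655

open Vale.Agent.P233 Vale.Agent.P233.RA Vale.Agent.P242.H990 Vale.Agent.P242.H71

variable {M : Type u} [MetricSpace M] [MeasurableSpace M] {m : Measure M}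
  {n : ℕ} {o : M} {A : ℝ} {p : ℝ → M → M → ℝ}

theorem gr_mem2 {C : Calc m} (hC : IsDir C) {f : M →ₘ[m] ℝ} (hf : f ∈ C.W) :
    MemLp (C.gr f) 2 m := by
  apply memLp_two_of_sq
  have : C.gr f ^ 2 = C.Γ f f := by
    rw [eq_iff_ae]
    filter_upwards [sq_ae (C.gr f), C.gr_ae f, hC.Γ_nonneg_ae hf] with x h1 h2 h3
    rw [h1, h2, Real.sq_sqrt h3]
  rw [this]
  exact hC.mem1 f hf

/-- Gaussian growth of `|∇f|` is absorbed by the kernel. -/
theorem I_grow (hC : IsDir (sob m)) (hp : H520.Ker0 m p) (hk : KB n o A p) {y : M} {s s' Γ₀ : ℝ}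
    (hs : 0 < s) (h1 : 4 * A ^ 2 * s ≤ s') (h2 : s' ≤ Γ₀ * s) (h3 : s' ≤ 1 / 2)
    {X f : M →ₘ[m] ℝ} (hX : X ∈ (sob m).W) (hf : f ∈ (sob m).W) {c G : ℝ} (hc0 : 0 ≤ c)
    (hc : c * (A * s) ≤ 1) (hG : 0 ≤ G)
    (hg : ∀ᵐ z ∂m, (sob m).Γ f f z ≤ Real.exp (c * dist y z ^ 2) * G ^ 2) :
    I (ph m p s y * |(sob m).Γ X f|)
      ≤ cG n A Γ₀ 0 * Real.exp (2 * A * dist y o) * G * I (ph m p s' y * (sob m).gr X) := by
  have hA := hk.one_le
  have hA0 := hk.pos
  have hA2 : 1 ≤ A ^ 2 := one_le_pow₀ hA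
  have hss : s ≤ s' := by nlinarith
  have hs' : 0 < s' := hs.trans_le hss
  have hs1 : s ≤ 1 / 2 := hss.trans h3
  have hE : MemLp (ph m p s' y * (sob m).gr X : M →ₘ[m] ℝ) 1 m :=
    mem_mul_22 (ph_mem2 hp hs' y) (gr_mem2 hC hX)
  set D := cG n A Γ₀ 0 * Real.exp (2 * A * dist y o) * G with hD
  have key : ∀ᵐ z ∂m, (ph m p s y * |(sob m).Γ X f| : M →ₘ[m] ℝ) z
      ≤ (D • (ph m p s' y * (sob m).gr X) : M →ₘ[m] ℝ) z := by
    filter_upwards [mul_ae (ph m p s y) |(sob m).Γ X f|, abs_ae' ((sob m).Γ X f),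
      smul_ae (ph m p s' y * (sob m).gr X) D, mul_ae (ph m p s' y) ((sob m).gr X),
      ph_ae hp hs y, ph_ae hp hs' y, (sob m).gr_ae X, hC.Γ_abs_ae hX hf, hg,
      hC.Γ_nonneg_ae hX, hC.Γ_nonneg_ae hf] with z a1 a2 a3 a4 a5 a6 a7 a8 a9 a10 a11
    rw [a1, a2, a3, a4, a5, a6, a7]
    have pz := (hk.p_pos hs hs1 y z).le
    have pz' := (hk.p_pos hs' h3 y z).le
    have g := hk.exp_mul_p_le (x := y) (x' := y) (z := z) (C₀ := 0) hs h1 h2 h3
      (by rw [dist_self, zero_mul])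
    have b1 : √((sob m).Γ f f z) ≤ Real.exp (dist y z ^ 2 / (2 * A * s)) * G := by
      rw [Real.sqrt_le_left (by positivity)]
      refine a9.trans ?_
      rw [mul_pow, ← Real.exp_nat_mul]
      refine mul_le_mul_of_nonneg_right (Real.exp_le_exp.2 ?_) (sq_nonneg G)
      have e1 : ((2 : ℕ) : ℝ) * (dist y z ^ 2 / (2 * A * s)) = dist y z ^ 2 / (A * s) := by
        push_cast; field_simp
      rw [e1, le_div_iff₀ (by positivity)]
      have hd : 0 ≤ dist y z ^ 2 := sq_nonneg _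
      calc c * dist y z ^ 2 * (A * s) = (c * (A * s)) * dist y z ^ 2 := by ring
        _ ≤ 1 * dist y z ^ 2 := mul_le_mul_of_nonneg_right hc hd
        _ = _ := one_mul _
    have b2 : |(sob m).Γ X f z| ≤ √((sob m).Γ X X z) * √((sob m).Γ f f z) := a8
    calc p s y z * |(sob m).Γ X f z|
        ≤ p s y z * (√((sob m).Γ X X z) * (Real.exp (dist y z ^ 2 / (2 * A * s)) * G)) := by
          gcongr
          exact b2.trans (mul_le_mul_of_nonneg_left b1 (Real.sqrt_nonneg _))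
      _ = (Real.exp (dist y z ^ 2 / (2 * A * s)) * p s y z) * (G * √((sob m).Γ X X z)) := by ring
      _ ≤ (cG n A Γ₀ 0 * Real.exp (2 * A * dist y o) * p s' y z) * (G * √((sob m).Γ X X z)) := by
          gcongr
      _ = D * (p s' y z * √((sob m).Γ X X z)) := by rw [hD]; ring
  have h0 : MemLp (ph m p s y * |(sob m).Γ X f| : M →ₘ[m] ℝ) 1 m := by
    refine mem_of_le (mem_smul D hE) ?_
    filter_upwards [key, mul_ae (ph m p s y) |(sob m).Γ X f|, abs_ae' ((sob m).Γ X f),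
      ph_ae hp hs y] with z b1 b2 b3 b4
    have : 0 ≤ (ph m p s y * |(sob m).Γ X f| : M →ₘ[m] ℝ) z := by
      rw [b2, b3, b4]
      exact mul_nonneg (hk.p_pos hs hs1 y z).le (abs_nonneg _)
    rw [abs_of_nonneg this]
    exact b1.trans (le_abs_self _)
  rw [← I_smul]
  exact I_mono h0 (mem_smul D hE) (le_iff_ae.2 key)

end Vale.Agent.P242.H655
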