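import Vale.Agent.P233.H103.Semi5
import Vale.Agent.P242.H655.E4Proj

/-! P242, package A-E4 (helper655): the Laplacian of `P_τ (Γ(b,u) - u)` in `L¹(φ)`. -/

set_option linter.all false

open MeasureTheory Filter Topology Set
open scoped ENNReal NNReal

universe u

namespace Vale.Agent.P242.H655

open Vale.Agent.P233

variable {M : Type u} [MeasurableSpace M] {m : Measure M} {C : Calc m}

section basic

variable {f g h φ ψ : M →ₘ[m] ℝ} {τ : ℝ}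

theorem abs_ae' (f : M →ₘ[m] ℝ) : ⇑|f| =ᵐ[m] fun x => |f x| := AEEqFun.coeFn_abs f

theorem mem_abs {p : ℝ≥0∞} (hf : MemLp f p m) : MemLp (|f| : M →ₘ[m] ℝ) p m := by
  refine mem_of_le hf ?_
  filter_upwards [abs_ae' f] with x hx
  rw [hx, abs_abs]

/-- the sign of `f` -/
noncomputable def sg (f : M →ₘ[m] ℝ) : M →ₘ[m] ℝ :=
  AEEqFun.compMeasurable (fun t : ℝ => if 0 ≤ t then (1 : ℝ) else -1)
    (Measurable.ite (measurableSet_le measurable_const measurable_id) measurable_const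
      measurable_const) f

theorem sg_ae (f : M →ₘ[m] ℝ) : ⇑(sg f) =ᵐ[m] fun x => if 0 ≤ f x then (1 : ℝ) else -1 :=
  AEEqFun.coeFn_compMeasurable _ _ f

theorem sg_abs (f : M →ₘ[m] ℝ) : ∀ᵐ x ∂m, |sg f x| = 1 := by
  filter_upwards [sg_ae f] with x hx
  rw [hx]
  split_ifs <;> simp

theorem sg_mem_top (f : M →ₘ[m] ℝ) : MemLp (sg f) ∞ m := by
  rw [mem_top_iff]
  exact ⟨1, (sg_abs f).mono fun x hx => hx.le⟩

theorem sg_mul (f : M →ₘ[m] ℝ) : sg f * f = |f| := by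
  rw [eq_iff_ae]
  filter_upwards [mul_ae (sg f) f, sg_ae f, abs_ae' f] with x h1 h2 h3
  rw [h1, h2, h3]
  split_ifs with h
  · rw [one_mul, abs_of_nonneg h]
  · rw [abs_of_neg (not_le.1 h)]; ring

/-- integral against a dominated weight -/
theorem I_mul_abs_le {z : M →ₘ[m] ℝ} (hz : MemLp z ∞ m) (hX : MemLp f 1 m)
    (h : |ψ| ≤ z) : |I (ψ * f)| ≤ I (z * |f|) := by
  have hψ : MemLp ψ ∞ m := by
    refine mem_of_le hz ?_
    filter_upwards [le_iff_ae.1 h, abs_ae' ψ] with x h1 h2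
    rw [h2] at h1
    exact h1.trans (le_abs_self _)
  unfold I
  refine (abs_integral_le_integral_abs).trans ?_
  refine integral_mono_ae (int_of_mem (mem_mul_top hψ hX)).abs
    (int_of_mem (mem_mul_top hz (mem_abs hX))) ?_
  filter_upwards [mul_ae ψ f, mul_ae z |f|, abs_ae' f, le_iff_ae.1 h, abs_ae' ψ]
    with x h1 h2 h3 h4 h5
  rw [h1, h2, h3, abs_mul]
  rw [h5] at h4
  exact mul_le_mul_of_nonneg_right h4 (abs_nonneg _)

/-- duality: `∫ ψ Δ P_τ g = - ∫ ⟨∇ P_τ ψ, ∇ g⟩` -/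
theorem I_mul_lap_P (hC : IsDir C) (hτ : 0 < τ) (hψ : MemLp ψ 2 m) (hg : g ∈ C.W) :
    I (ψ * C.lap (C.P τ g)) = -I (C.Γ (C.P τ ψ) g) := by
  have h2 : 0 < τ / 2 := by positivity
  have hg2 := hC.memLp g hg
  have e : τ / 2 + τ / 2 = τ := by ring
  have key : ∀ a : M →ₘ[m] ℝ, MemLp a 2 m → C.lap (C.P τ a) = C.P (τ / 2) (C.lap (C.P (τ / 2) a)) := by
    intro a ha
    have h := hC.P_lap_of (τ / 2) (hC.P_isLap h2 ha)
    rw [hC.P_P h2.le h2.le ha, e] at h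
    exact h
  have hl : ∀ a : M →ₘ[m] ℝ, MemLp a 2 m → MemLp (C.lap (C.P (τ / 2) a)) 2 m :=
    fun a ha => (hC.P_isLap h2 ha).2.1
  have a1 : I (ψ * C.lap (C.P τ g)) = I (C.P (τ / 2) ψ * C.lap (C.P (τ / 2) g)) := by
    rw [key g hg2, ← hC.P_symm (τ / 2) hψ (hl g hg2)]
  have a2 : I (C.P (τ / 2) ψ * C.lap (C.P (τ / 2) g))
      = I (C.P (τ / 2) g * C.lap (C.P (τ / 2) ψ)) := by
    have b1 := (hC.P_isLap h2 hg2).2.2 _ (hC.P_mem h2 hψ)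
    have b2 := (hC.P_isLap h2 hψ).2.2 _ (hC.P_mem h2 hg2)
    have b3 : I (C.Γ (C.P (τ / 2) g) (C.P (τ / 2) ψ)) = I (C.Γ (C.P (τ / 2) ψ) (C.P (τ / 2) g)) := by
      rw [hC.symm _ (hC.P_mem h2 hg2) _ (hC.P_mem h2 hψ)]
    change I (C.Γ (C.P (τ / 2) g) (C.P (τ / 2) ψ))
      = -I (C.lap (C.P (τ / 2) g) * C.P (τ / 2) ψ) at b1
    change I (C.Γ (C.P (τ / 2) ψ) (C.P (τ / 2) g))
      = -I (C.lap (C.P (τ / 2) ψ) * C.P (τ / 2) g) at b2
    rw [mul_comm (C.P (τ / 2) ψ), mul_comm (C.P (τ / 2) g)]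
    linarith
  have a3 : I (C.P (τ / 2) g * C.lap (C.P (τ / 2) ψ)) = I (C.lap (C.P τ ψ) * g) := by
    rw [key ψ hψ, hC.P_symm (τ / 2) hg2 (hl ψ hψ), mul_comm]
  rw [a1, a2, a3]
  have b4 := (hC.P_isLap hτ hψ).2.2 g hg
  change I (C.Γ (C.P τ ψ) g) = -I (C.lap (C.P τ ψ) * g) at b4
  linarith

/-- the dual function of the `L¹(φ)`-norm of `Δ P_τ g` -/
theorem exists_dual (hC : IsDir C) (hτ : 0 < τ) (h0 : 0 ≤ φ) (hφ2 : MemLp φ 2 m)
    (hφt : MemLp φ ∞ m) (hg : g ∈ C.W) :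
    ∃ ζ ∈ C.A, |ζ| ≤ C.P τ φ ∧ I (φ * |C.lap (C.P τ g)|) = -I (C.Γ ζ g) := by
  set F := C.lap (C.P τ g) with hF
  set ψ := φ * sg F with hψ
  have hψ2 : MemLp ψ 2 m := mem_top_mul hφ2 (sg_mem_top F)
  have hψa : ∀ᵐ x ∂m, |ψ x| = φ x := by
    filter_upwards [mul_ae φ (sg F), sg_abs F, nonneg_iff_ae.1 h0] with x h1 h2 h3
    rw [hψ, h1, abs_mul, h2, mul_one, abs_of_nonneg h3]
  have hle : ψ ≤ φ := le_iff_ae.2 (hψa.mono fun x hx => hx ▸ le_abs_self _)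
  have hge : -φ ≤ ψ := by
    rw [le_iff_ae]
    filter_upwards [hψa, neg_ae φ] with x h1 h2
    rw [h2, ← h1]
    exact neg_abs_le _
  have hζ1 : C.P τ ψ ≤ C.P τ φ := hC.P_mono hτ.le hψ2 hφ2 hle
  have hζ2 : -C.P τ φ ≤ C.P τ ψ := by
    have := hC.P_mono hτ.le (mem_neg hφ2) hψ2 hge
    rwa [hC.P_neg τ hφ2] at this
  have hζ : |C.P τ ψ| ≤ C.P τ φ := by
    rw [le_iff_ae]
    filter_upwards [le_iff_ae.1 hζ1, le_iff_ae.1 hζ2, abs_ae' (C.P τ ψ), neg_ae (C.P τ φ)]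
      with x h1 h2 h3 h4
    rw [h3, abs_le]
    rw [h4] at h2
    exact ⟨h2, h1⟩
  have hPt : MemLp (C.P τ φ) ∞ m := by
    obtain ⟨L, hL⟩ := mem_top_iff.1 hφt
    rw [mem_top_iff]
    refine ⟨|L|, ?_⟩
    have h1 := hC.P_le hτ.le hφ2 (abs_nonneg L)
      (hL.mono fun x hx => (le_abs_self _).trans (hx.trans (le_abs_self L)))
    have h2 := nonneg_iff_ae.1 (hC.P_nonneg hτ.le hφ2 h0)
    filter_upwards [h1, h2] with x h3 h4
    rw [abs_of_nonneg h4]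
    exact h3
  refine ⟨C.P τ ψ, ⟨hC.P_mem hτ hψ2, ?_⟩, hζ, ?_⟩
  · refine mem_of_le hPt ?_
    filter_upwards [le_iff_ae.1 hζ, abs_ae' (C.P τ ψ)] with x h1 h2
    rw [h2] at h1
    exact h1.trans (le_abs_self _)
  · rw [← I_mul_lap_P hC hτ hψ2 hg, ← hF, hψ, mul_assoc, sg_mul]

end basic

end Vale.Agent.P242.H655

namespace Vale.Agent.P242.H655

open Vale.Agent.P233

variable {M : Type u} [MeasurableSpace M] {m : Measure M} {C : Calc m}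

section main

variable {b u φ : M →ₘ[m] ℝ} {τ : ℝ}

/-- **Source bound** for `g = Γ(b,u) - u`.  `S` bounds the form `QQ(b,u)` tested with functions
dominated by `P_τ φ`. -/
theorem I_abs_lap_le (hC : IsGamma C) {K n K₁ : ℝ} (hB : C.BEi K) (hτ : 0 < τ) (h0 : 0 ≤ φ)
    (hφ2 : MemLp φ 2 m) (hφt : MemLp φ ∞ m) (hb : b ∈ C.Test) (hu : u ∈ C.Test) {S : ℝ}
    (hS : ∀ ζ ∈ C.A, |ζ| ≤ C.P τ φ →
      |C.NN K b u ζ - n⁻¹ * I (ζ * (C.lap b * C.lap u))| ≤ S)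
    (hφu : MemLp (C.P τ φ) ∞ m) (hlu : MemLp (C.P τ φ * |C.lap u| : M →ₘ[m] ℝ) 1 m) :
    I (φ * |C.lap (C.P τ (C.Γ b u - u))|)
      ≤ 2 * S + 2 * |n⁻¹| * I (C.P τ φ * |C.lap b * C.lap u|)
        + I (C.P τ φ * |C.Γ b (C.lap u)|)
        + I (C.P τ φ * |C.Γ u (C.lap b - K₁ • b)|)
        + (2 * |K| + |K₁|) * I (C.P τ φ * |C.Γ b u|)
        + I (C.P τ φ * |C.lap u|) := by
  have hD := hC.toIsDir
  have bA := hC.test_A hb
  have uA := hC.test_A hu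
  have lb := hC.test_lap_mem hb
  have lu := hC.test_lap_mem hu
  have hbu := hC.Γ_mem hB hb hu
  have hg : C.Γ b u - u ∈ C.W := hD.sub_mem hbu.1 uA.1
  obtain ⟨ζ, hζA, hζ, e⟩ := exists_dual hD hτ h0 hφ2 hφt hg
  set z := C.P τ φ with hz
  rw [e, hD.Γ_sub_right hζA.1 hbu.1 uA.1, I_sub (hD.Γ_mem1 hζA.1 hbu.1) (hD.Γ_mem1 hζA.1 uA.1)]
  obtain ⟨n1, n2, n3, n4⟩ := hC.NN_int1 hB hb hu hζA
  -- the two parts
  have p1 : -I (C.Γ ζ (C.Γ b u)) = 2 * C.NN K b u ζ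
      + I (ζ * (C.Γ b (C.lap u) + C.Γ u (C.lap b))) + 2 * K * I (ζ * C.Γ b u) := by
    unfold Calc.NN
    rw [hC.symm _ hζA.1 _ hbu.1]
    ring
  have p2 : I (C.Γ ζ u) = -I (ζ * C.lap u) := by
    have h1 := (hC.test_isLap hu).2.2 ζ hζA.1
    change I (C.Γ u ζ) = -I (C.lap u * ζ) at h1
    rw [hC.symm _ hζA.1 _ uA.1, h1, mul_comm]
  have p3 : C.Γ u (C.lap b) = C.Γ u (C.lap b - K₁ • b) + K₁ • C.Γ b u := by
    have h1 := hC.smul_mem K₁ b bA.1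
    rw [hD.Γ_sub_right uA.1 lb h1, hD.Γ_smul_right K₁ uA.1 bA.1, hC.symm _ uA.1 _ bA.1]
    abel
  have hνW : C.lap b - K₁ • b ∈ C.W := hD.sub_mem lb (hC.smul_mem K₁ b bA.1)
  have i1 : MemLp (C.Γ b (C.lap u)) 1 m := hD.Γ_mem1 bA.1 lu
  have i2 : MemLp (C.Γ u (C.lap b - K₁ • b)) 1 m := hD.Γ_mem1 uA.1 hνW
  have i3 : MemLp (C.Γ b u) 1 m := hD.Γ_mem1 bA.1 uA.1
  have i4 : MemLp (C.lap b * C.lap u) 1 m :=
    mem_mul_22 (hC.test_isLap hb).2.1 (hC.test_isLap hu).2.1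
  have p4 : I (ζ * (C.Γ b (C.lap u) + C.Γ u (C.lap b)))
      = I (ζ * C.Γ b (C.lap u)) + I (ζ * C.Γ u (C.lap b - K₁ • b)) + K₁ * I (ζ * C.Γ b u) := by
    rw [p3, ← I_smul, ← I_add (mem_mul_top hζA.2 i1) (mem_mul_top hζA.2 i2),
      ← I_add (mem_add (mem_mul_top hζA.2 i1) (mem_mul_top hζA.2 i2))
        (mem_smul _ (mem_mul_top hζA.2 i3))]
    congr 1
    rw [mul_add, mul_add, mul_smul_comm]
    abel
  have q0 := hS ζ hζA hζ
  have q1 := I_mul_abs_le hφu i4 hζ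
  have q2 := I_mul_abs_le hφu i1 hζ
  have q3 := I_mul_abs_le hφu i2 hζ
  have q4 := I_mul_abs_le hφu i3 hζ
  have q5 : |I (ζ * C.lap u)| ≤ I (z * |C.lap u|) := by
    have hlz : MemLp (ζ * C.lap u) 1 m := by
      refine mem_of_le hlu ?_
      filter_upwards [mul_ae ζ (C.lap u), mul_ae z |C.lap u|, abs_ae' (C.lap u),
        le_iff_ae.1 hζ, abs_ae' ζ] with x h1 h2 h3 h4 h5
      rw [h1, h2, h3, abs_mul, abs_mul, abs_abs]
      rw [h5] at h4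
      exact mul_le_mul_of_nonneg_right (h4.trans (le_abs_self _)) (abs_nonneg _)
    unfold I
    refine (abs_integral_le_integral_abs).trans ?_
    refine integral_mono_ae (int_of_mem hlz).abs (int_of_mem hlu) ?_
    filter_upwards [mul_ae ζ (C.lap u), mul_ae z |C.lap u|, abs_ae' (C.lap u),
      le_iff_ae.1 hζ, abs_ae' ζ] with x h1 h2 h3 h4 h5
    rw [h1, h2, h3, abs_mul]
    rw [h5] at h4
    exact mul_le_mul_of_nonneg_right h4 (abs_nonneg _)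
  have r0 : C.NN K b u ζ ≤ S + |n⁻¹| * I (z * |C.lap b * C.lap u|) := by
    have h1 := (le_abs_self _).trans q0
    have h2 : n⁻¹ * I (ζ * (C.lap b * C.lap u)) ≤ |n⁻¹| * I (z * |C.lap b * C.lap u|) :=
      (le_abs_self _).trans (by rw [abs_mul]; exact mul_le_mul_of_nonneg_left q1 (abs_nonneg _))
    linarith
  have r2 := (le_abs_self _).trans q2
  have r3 := (le_abs_self _).trans q3
  have r4 : 2 * K * I (ζ * C.Γ b u) + K₁ * I (ζ * C.Γ b u)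
      ≤ (2 * |K| + |K₁|) * I (z * |C.Γ b u|) := by
    have h1 : 2 * K * I (ζ * C.Γ b u) + K₁ * I (ζ * C.Γ b u)
        = (2 * K + K₁) * I (ζ * C.Γ b u) := by ring
    rw [h1]
    refine (le_abs_self _).trans ?_
    rw [abs_mul]
    refine mul_le_mul ?_ q4 (abs_nonneg _) (by positivity)
    refine (abs_add_le _ _).trans ?_
    rw [abs_mul]
    norm_num
  have r5 : -I (ζ * C.lap u) ≤ I (z * |C.lap u|) := (neg_le_abs _).trans q5
  have e2 : -(I (C.Γ ζ (C.Γ b u)) - I (C.Γ ζ u))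
      = -I (C.Γ ζ (C.Γ b u)) + I (C.Γ ζ u) := by ring
  rw [e2, p1, p2, p4]
  linarith

end main

end Vale.Agent.P242.H655
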