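import Vale.Agent.P242.H542.Gam
import Vale.Agent.P242.H363.QQ
import Vale.Agent.P242.H196.AbsP
import Vale.Agent.P242.H655.E4Lap

/-! P242, package A-E4 (helper655): the recursion (abstract form at one vertex).  `ph` is the family
of the heat kernels at the vertex, `u c` the coordinate functions, `b k` the regularised squared
distance, `F_k v = Γ(b_k,u_v) - u_v`. -/

set_option linter.all false

open MeasureTheory Filter Topology Set
open scoped ENNReal NNReal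

universe u

namespace Vale.Agent.P242.H655

open Vale.Agent.P233
open Vale.Agent.P242.H196 (I_wabs_le I_wabs_add_le I_wabs_sub_le I_wabs_nonneg I_wabs_smul
  I_abs_le_wabs)

variable {M : Type u} [MeasurableSpace M] {m : Measure M} {C : Calc m}

section adm

variable {φ f g : M →ₘ[m] ℝ}

/-- admissible functions for the weight `φ`: `φ |f|` is integrable -/
def Adm (φ f : M →ₘ[m] ℝ) : Prop := MemLp (φ * |f| : M →ₘ[m] ℝ) 1 m

theorem Adm.of_2 (hφ : MemLp φ 2 m) (hf : MemLp f 2 m) : Adm φ f := mem_mul_22 hφ (mem_abs hf)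

theorem Adm.of_1 (hφ : MemLp φ ∞ m) (hf : MemLp f 1 m) : Adm φ f := mem_mul_top hφ (mem_abs hf)

theorem Adm.mul (h : Adm φ f) : MemLp (φ * f : M →ₘ[m] ℝ) 1 m := by
  refine mem_of_le h ?_
  filter_upwards [mul_ae φ f, mul_ae φ |f|, abs_ae' f] with x h1 h2 h3
  rw [h1, h2, h3, abs_mul, abs_mul, abs_abs]

theorem Adm.of_mul (h : MemLp (φ * f : M →ₘ[m] ℝ) 1 m) : Adm φ f := by
  refine mem_of_le h ?_
  filter_upwards [mul_ae φ f, mul_ae φ |f|, abs_ae' f] with x h1 h2 h3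
  rw [h1, h2, h3, abs_mul, abs_mul, abs_abs]

theorem Adm.add (hf : Adm φ f) (hg : Adm φ g) : Adm φ (f + g) := by
  apply Adm.of_mul
  rw [mul_add]
  exact mem_add hf.mul hg.mul

theorem Adm.sub (hf : Adm φ f) (hg : Adm φ g) : Adm φ (f - g) := by
  apply Adm.of_mul
  rw [mul_sub]
  exact mem_sub hf.mul hg.mul

theorem Adm.const (hφ : MemLp φ 1 m) (c : ℝ) : Adm φ (c • (1 : M →ₘ[m] ℝ)) := by
  apply Adm.of_mul
  rw [mul_smul_comm, mul_one]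
  exact mem_smul c hφ

theorem wabs_const (h0 : 0 ≤ φ) (h1 : I φ = 1) (c : ℝ) :
    I (φ * |c • (1 : M →ₘ[m] ℝ)|) = |c| := by
  rw [I_wabs_smul]
  have : |(1 : M →ₘ[m] ℝ)| = 1 := abs_of_nonneg (by
    rw [nonneg_iff_ae]
    filter_upwards [one_ae (M := M) (m := m)] with x hx
    rw [hx]; norm_num)
  rw [this, mul_one, h1, mul_one]

end adm

section main

variable {V : Type*} [AddCommGroup V] [Module ℝ V] [FiniteDimensional ℝ V]

/-- the linear map `v ↦ Γ(b,u_v) - u_v` -/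
noncomputable def FF (hC : IsDir C) (b : M →ₘ[m] ℝ) (hb : b ∈ C.W) (u : V →ₗ[ℝ] (M →ₘ[m] ℝ))
    (hu : ∀ c, u c ∈ C.W) : V →ₗ[ℝ] (M →ₘ[m] ℝ) where
  toFun v := C.Γ b (u v) - u v
  map_add' v w := by
    rw [map_add, hC.Γ_add_right hb (hu v) (hu w)]
    abel
  map_smul' a v := by
    rw [map_smul, hC.Γ_smul_right a hb (hu v), RingHom.id_apply, smul_sub]

theorem FF_apply (hC : IsDir C) (b : M →ₘ[m] ℝ) (hb : b ∈ C.W) (u : V →ₗ[ℝ] (M →ₘ[m] ℝ))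
    (hu : ∀ c, u c ∈ C.W) (v : V) : FF hC b hb u hu v = C.Γ b (u v) - u v := rfl

/-- One scale: the data for the linear quasi-projection with constant `A`. `ph s` is the heat
kernel, `t = r²`, `N` the norm of the scale. -/
structure Lvl (C : Calc m) (ph : ℝ → M →ₘ[m] ℝ) (u : V →ₗ[ℝ] (M →ₘ[m] ℝ)) (N : Seminorm ℝ V)
    (r σ A : ℝ) : Prop where
  hr : 0 < r
  hσ : 0 < σ
  hA : 1 ≤ A
  pos : ∀ c, c ≠ 0 → 0 < N c
  co : ∀ c, A⁻¹ * N c ^ 2 ≤ I (ph (σ * r ^ 2) * C.Γ (C.P (σ * r ^ 2) (u c)) (u c))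
  up : ∀ c, I (ph (σ * r ^ 2) * C.Γ (u c) (u c)) ≤ A * N c ^ 2
  k1 : ∀ g : M →ₘ[m] ℝ, MemLp g 2 m → ∀ a : ℝ,
    I (ph (σ * r ^ 2) * C.Γ (C.P (σ * r ^ 2) g) (C.P (σ * r ^ 2) g))
      ≤ A * (I (ph (r ^ 2) * |g - a • 1|) / r) ^ 2
  poi : ∀ c, I (ph (r ^ 2) * |u c - I (ph (r ^ 2) * u c) • 1|) ≤ A * r * N c

variable {ph : ℝ → M →ₘ[m] ℝ} {u : V →ₗ[ℝ] (M →ₘ[m] ℝ)} {N : Seminorm ℝ V} {r σ A : ℝ}

/-- the matrix of the scale -/
noncomputable def AL (hC : IsDir C) (hcen : Cen C ph) (hL : Lvl C ph u N r σ A)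
    (F : V →ₗ[ℝ] (M →ₘ[m] ℝ)) (hF : ∀ v, MemLp (F v) 2 m) (hu : ∀ c, u c ∈ C.W) : V →ₗ[ℝ] V :=
  AM hC (hcen.top (σ * r ^ 2) (mul_pos hL.hσ (pow_pos hL.hr 2)))
    (mul_pos hL.hσ (pow_pos hL.hr 2)) F u hF hu

/-- the error of the affine approximation -/
noncomputable def erf (ph : ℝ → M →ₘ[m] ℝ) (u : V →ₗ[ℝ] (M →ₘ[m] ℝ)) (r : ℝ) (f : M →ₘ[m] ℝ)
    (c : V) : ℝ :=
  I (ph (r ^ 2) * |f - u c - I (ph (r ^ 2) * (f - u c)) • 1|) / r

theorem AL_le (hC : IsDir C) (hcen : Cen C ph) (hL : Lvl C ph u N r σ A)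
    (F : V →ₗ[ℝ] (M →ₘ[m] ℝ)) (hF : ∀ v, MemLp (F v) 2 m) (hu : ∀ c, u c ∈ C.W) (v c : V) (a : ℝ) :
    N (AL hC hcen hL F hF hu v - c) ≤ A ^ 2 * (I (ph (r ^ 2) * |F v - u c - a • 1|) / r) := by
  have ht : 0 < σ * r ^ 2 := mul_pos hL.hσ (pow_pos hL.hr 2)
  have ht' : 0 < r ^ 2 := pow_pos hL.hr 2
  have hA0 : 0 < A := lt_of_lt_of_le one_pos hL.hA
  have h1 := AM_le hC (hcen.top _ ht) (hcen.nonneg _ ht) ht F u hF hu (N := N)
    (fun c => apply_nonneg N c) hL.pos (a₀ := A⁻¹) (a₁ := √A) (inv_pos.2 hA0) (Real.sqrt_nonneg _)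
    hL.co (fun c => by rw [Real.sq_sqrt hA0.le]; exact hL.up c) v c
  set X := I (ph (r ^ 2) * |F v - u c - a • 1|) / r with hX
  have hX0 : 0 ≤ X := div_nonneg (I_wabs_nonneg (hcen.nonneg _ ht')) hL.hr.le
  have h2 := hL.k1 (F v - u c) (mem_sub (hF v) (hC.memLp _ (hu c))) a
  have h3 : √(I (ph (σ * r ^ 2) * C.Γ (C.P (σ * r ^ 2) (F v - u c))
      (C.P (σ * r ^ 2) (F v - u c)))) ≤ √A * X := by
    rw [Real.sqrt_le_left (mul_nonneg (Real.sqrt_nonneg _) hX0), mul_pow, Real.sq_sqrt hA0.le]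
    exact h2
  have h4 : A⁻¹ * N (AL hC hcen hL F hF hu v - c) ≤ A * X := by
    calc A⁻¹ * N (AL hC hcen hL F hF hu v - c) ≤ _ := h1
      _ ≤ √A * (√A * X) := mul_le_mul_of_nonneg_left h3 (Real.sqrt_nonneg _)
      _ = (√A * √A) * X := by ring
      _ = A * X := by rw [Real.mul_self_sqrt hA0.le]
  calc N (AL hC hcen hL F hF hu v - c)
      = A * (A⁻¹ * N (AL hC hcen hL F hF hu v - c)) := by field_simp
    _ ≤ A * (A * X) := mul_le_mul_of_nonneg_left h4 hA0.le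
    _ = A ^ 2 * X := by ring

/-- quasi-optimality in `L¹` -/
theorem erf_AL_le (hC : IsDir C) (hcen : Cen C ph) (hL : Lvl C ph u N r σ A)
    (F : V →ₗ[ℝ] (M →ₘ[m] ℝ)) (hF : ∀ v, MemLp (F v) 2 m) (hu : ∀ c, u c ∈ C.W) (v c : V) (a : ℝ) :
    erf ph u r (F v) (AL hC hcen hL F hF hu v)
      ≤ (2 + A ^ 3) * (I (ph (r ^ 2) * |F v - u c - a • 1|) / r) := by
  have ht' : 0 < r ^ 2 := pow_pos hL.hr 2
  have hA0 : 0 < A := lt_of_lt_of_le one_pos hL.hA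
  have h0 := hcen.nonneg _ ht'
  have hm2 := hcen.mem2 _ ht'
  have hm1 := hcen.mem1 _ ht'
  set w := AL hC hcen hL F hF hu v with hw
  set φ := ph (r ^ 2) with hφ
  have hFc : MemLp (F v - u c : M →ₘ[m] ℝ) 2 m := mem_sub (hF v) (hC.memLp _ (hu c))
  have hwc : MemLp (u (w - c)) 2 m := hC.memLp _ (hu _)
  have e0 : F v - u w = (F v - u c) - u (w - c) := by rw [map_sub]; abel
  have e1 : I (φ * (F v - u w)) = I (φ * (F v - u c)) - I (φ * u (w - c)) := by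
    rw [e0, mul_sub, I_sub (mem_mul_22 hm2 hFc) (mem_mul_22 hm2 hwc)]
  have e2 : F v - u w - I (φ * (F v - u w)) • (1 : M →ₘ[m] ℝ)
      = (F v - u c - a • (1 : M →ₘ[m] ℝ))
        - ((I (φ * (F v - u c)) - a) • (1 : M →ₘ[m] ℝ))
        - (u (w - c) - I (φ * u (w - c)) • (1 : M →ₘ[m] ℝ)) := by
    rw [e1, e0, sub_smul, sub_smul]; abel
  have A1 : Adm φ (F v - u c - a • (1 : M →ₘ[m] ℝ)) :=
    (Adm.of_2 hm2 hFc).sub (Adm.const hm1 a)
  have A2 : Adm φ ((I (φ * (F v - u c)) - a) • (1 : M →ₘ[m] ℝ)) := Adm.const hm1 _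
  have A3 : Adm φ (u (w - c) - I (φ * u (w - c)) • (1 : M →ₘ[m] ℝ)) :=
    (Adm.of_2 hm2 hwc).sub (Adm.const hm1 _)
  have b1 := I_wabs_sub_le h0 (A1.sub A2) A3
  have b2 := I_wabs_sub_le h0 A1 A2
  have b3 : I (φ * |(I (φ * (F v - u c)) - a) • (1 : M →ₘ[m] ℝ)|)
      ≤ I (φ * |F v - u c - a • (1 : M →ₘ[m] ℝ)|) := by
    rw [wabs_const h0 (hcen.mass _ ht')]
    have : I (φ * (F v - u c)) - a = I (φ * (F v - u c - a • (1 : M →ₘ[m] ℝ))) := by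
      have e3 : φ * (F v - u c - a • (1 : M →ₘ[m] ℝ)) = φ * (F v - u c) - a • φ := by
        rw [mul_sub φ (F v - u c), mul_smul_comm, mul_one]
      rw [e3, I_sub (mem_mul_22 hm2 hFc) (mem_smul a hm1), I_smul, hcen.mass _ ht', mul_one]
    rw [this]
    exact I_abs_le_wabs h0
  have b4 := hL.poi (w - c)
  have b5 := AL_le hC hcen hL F hF hu v c a
  rw [← hw] at b5
  set X := I (φ * |F v - u c - a • (1 : M →ₘ[m] ℝ)|) with hX
  have b6 : I (φ * |u (w - c) - I (φ * u (w - c)) • (1 : M →ₘ[m] ℝ)|) ≤ A ^ 3 * X := by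
    calc _ ≤ A * r * N (w - c) := b4
      _ ≤ A * r * (A ^ 2 * (X / r)) := by
        have := hL.hr
        gcongr
      _ = A ^ 3 * X := by
        have := hL.hr.ne'
        field_simp
  unfold erf
  rw [← mul_div_assoc, e2]
  have := hL.hr
  gcongr
  calc _ ≤ _ := b1
    _ ≤ (X + X) + A ^ 3 * X := by
      have := b2.trans (add_le_add le_rfl b3)
      exact add_le_add this b6
    _ = (2 + A ^ 3) * X := by ring

end main

end Vale.Agent.P242.H655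

namespace Vale.Agent.P242.H655

open Vale.Agent.P233
open Vale.Agent.P242.H196 (I_wabs_le I_wabs_add_le I_wabs_sub_le I_wabs_nonneg I_wabs_smul
  I_abs_le_wabs)

variable {M : Type u} [MeasurableSpace M] {m : Measure M} {C : Calc m}

section seq

variable {V : Type*} [AddCommGroup V] [Module ℝ V] [FiniteDimensional ℝ V]

/-- The hypotheses of the recursion (one vertex, all scales `r k`).  `N k = |·|_k`,
`X k v = √D_k 𝔫'_k(v)`, `e k` = size of the Laplacians of the coordinates. -/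
structure E4H (C : Calc m) (ph : ℝ → M →ₘ[m] ℝ) (u : V →ₗ[ℝ] (M →ₘ[m] ℝ)) (b : ℕ → M →ₘ[m] ℝ)
    (N : ℕ → Seminorm ℝ V) (X : ℕ → V → ℝ) (r e : ℕ → ℝ) (σ A κ B Q : ℝ) : Prop where
  cen : Cen C ph
  lvl : ∀ k, Lvl C ph u (N k) (r k) σ A
  uA : ∀ c, u c ∈ C.A
  bW : ∀ k, b k ∈ C.W
  bu : ∀ k v, C.Γ (b k) (u v) ∈ C.A
  κ0 : 0 ≤ κ
  B0 : 0 ≤ B
  Q0 : 0 ≤ Q
  N2 : ∀ k c, N (k + 1) c ≤ 2 * N k c
  X0 : ∀ k v, 0 ≤ X k v
  XQ : ∀ k v, X k v ≤ Q * X (k + 1) v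
  dl : ∀ k, ∀ g ∈ C.A, ∀ a S : ℝ,
    (∀ s τ, (r (k + 1)) ^ 2 ≤ s → s ≤ (r k) ^ 2 → 0 < τ → τ ≤ (r k) ^ 2 →
      r k * I (ph s * |C.lap (C.P τ g)|) ≤ S) →
    ∃ (c : V) (a' : ℝ), N k c ≤ A * (I (ph (r k ^ 2) * |g - a • 1|) / r k) ∧
      I (ph (r (k + 1) ^ 2) * |g - u c - a' • 1|) / r (k + 1)
        ≤ κ * (I (ph (r k ^ 2) * |g - a • 1|) / r k) + B * S
  src : ∀ k v s τ, (r (k + 1)) ^ 2 ≤ s → s ≤ (r k) ^ 2 → 0 < τ → τ ≤ (r k) ^ 2 →
    r k * I (ph s * |C.lap (C.P τ (C.Γ (b k) (u v) - u v))|) ≤ B * X k v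
  srcu : ∀ k c s τ, (r (k + 1)) ^ 2 ≤ s → s ≤ (r k) ^ 2 → 0 < τ → τ ≤ (r k) ^ 2 →
    r k * I (ph s * |C.lap (C.P τ (u c))|) ≤ e k * N k c
  e0 : ∀ k, 0 ≤ e k
  eX : ∀ k v, e k * N k v ≤ X k v
  sc : ∀ k v, I (ph (r (k + 1) ^ 2) * |C.Γ (b (k + 1)) (u v) - C.Γ (b k) (u v)|) / r (k + 1)
    ≤ B * X k v
  ap : ∀ k v, ∃ a : ℝ, I (ph (r k ^ 2) * |C.Γ (b k) (u v) - u v - a • 1|) / r k ≤ A * N k v
  start : ∀ v, ∃ (c : V) (a : ℝ),
    I (ph (r 0 ^ 2) * |C.Γ (b 0) (u v) - u v - u c - a • 1|) / r 0 ≤ B * X 0 v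

variable {ph : ℝ → M →ₘ[m] ℝ} {u : V →ₗ[ℝ] (M →ₘ[m] ℝ)} {b : ℕ → M →ₘ[m] ℝ}
  {N : ℕ → Seminorm ℝ V} {X : ℕ → V → ℝ} {r e : ℕ → ℝ} {σ A κ B Q : ℝ}

/-- `F_k v = Γ(b_k,u_v) - u_v` -/
noncomputable def Fk (hC : IsDir C) (H : E4H C ph u b N X r e σ A κ B Q) (k : ℕ) :
    V →ₗ[ℝ] (M →ₘ[m] ℝ) := FF hC (b k) (H.bW k) u (fun c => (H.uA c).1)

theorem Fk_apply (hC : IsDir C) (H : E4H C ph u b N X r e σ A κ B Q) (k : ℕ) (v : V) :
    Fk hC H k v = C.Γ (b k) (u v) - u v := rfl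

theorem Fk_memA (hC : IsDir C) (H : E4H C ph u b N X r e σ A κ B Q) (k : ℕ) (v : V) :
    Fk hC H k v ∈ C.A := hC.A_sub (H.bu k v) (H.uA v)

theorem Fk_mem2 (hC : IsDir C) (H : E4H C ph u b N X r e σ A κ B Q) (k : ℕ) (v : V) :
    MemLp (Fk hC H k v) 2 m := hC.memLp _ (Fk_memA hC H k v).1

/-- **The matrices `A_k(y)`.** -/
noncomputable def Ak (hC : IsDir C) (H : E4H C ph u b N X r e σ A κ B Q) (k : ℕ) : V →ₗ[ℝ] V :=
  AL hC H.cen (H.lvl k) (Fk hC H k) (Fk_mem2 hC H k) (fun c => (H.uA c).1)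

/-- (O3) a priori bound -/
theorem Ak_le (hC : IsDir C) (H : E4H C ph u b N X r e σ A κ B Q) (k : ℕ) (v : V) :
    N k (Ak hC H k v) ≤ A ^ 3 * N k v := by
  obtain ⟨a, ha⟩ := H.ap k v
  have h1 := AL_le hC H.cen (H.lvl k) (Fk hC H k) (Fk_mem2 hC H k) (fun c => (H.uA c).1) v 0 a
  rw [sub_zero, map_zero, sub_zero, Fk_apply] at h1
  have hA0 : 0 ≤ A := zero_le_one.trans (H.lvl k).hA
  calc _ ≤ _ := h1
    _ ≤ A ^ 2 * (A * N k v) := mul_le_mul_of_nonneg_left ha (by positivity)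
    _ = _ := by ring

/-- one step of the recursion -/
theorem step (hC : IsDir C) (H : E4H C ph u b N X r e σ A κ B Q) (k : ℕ) (v : V) :
    erf ph u (r (k + 1)) (Fk hC H (k + 1) v) (Ak hC H (k + 1) v)
        ≤ (2 + A ^ 3) * (κ * erf ph u (r k) (Fk hC H k v) (Ak hC H k v)
          + (B * (B + A ^ 3) + B) * X k v) ∧
      N (k + 1) (Ak hC H (k + 1) v - Ak hC H k v)
        ≤ A ^ 2 * (κ * erf ph u (r k) (Fk hC H k v) (Ak hC H k v)
          + (B * (B + A ^ 3) + B) * X k v)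
          + 2 * A * erf ph u (r k) (Fk hC H k v) (Ak hC H k v) := by
  have hr := (H.lvl k).hr
  have hr1 := (H.lvl (k + 1)).hr
  have hA0 : 0 ≤ A := zero_le_one.trans (H.lvl k).hA
  have ht : 0 < r k ^ 2 := pow_pos hr 2
  have ht1 : 0 < r (k + 1) ^ 2 := pow_pos hr1 2
  have hB := H.B0
  set w := Ak hC H k v with hw
  set d := erf ph u (r k) (Fk hC H k v) w with hd
  set g := Fk hC H k v - u w with hg
  have hgA : g ∈ C.A := hC.A_sub (Fk_memA hC H k v) (H.uA w)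
  have hwN : N k w ≤ A ^ 3 * N k v := Ak_le hC H k v
  -- the source of `g`
  have hS : ∀ s τ, (r (k + 1)) ^ 2 ≤ s → s ≤ (r k) ^ 2 → 0 < τ → τ ≤ (r k) ^ 2 →
      r k * I (ph s * |C.lap (C.P τ g)|) ≤ (B + A ^ 3) * X k v := by
    intro s τ h1 h2 h3 h4
    have hs : 0 < s := ht1.trans_le h1
    have hF2 := Fk_mem2 hC H k v
    have hu2 := hC.memLp _ (H.uA w).1
    have e1 : C.lap (C.P τ g) = C.lap (C.P τ (Fk hC H k v)) - C.lap (C.P τ (u w)) := by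
      have b1 := hC.isLap_add (hC.P_isLap h3 hF2) (hC.isLap_smul (-1) (hC.P_isLap h3 hu2))
      have b2 : C.P τ (Fk hC H k v) + (-1 : ℝ) • C.P τ (u w) = C.P τ g := by
        rw [hg, hC.P_sub τ hF2 hu2, neg_smul, one_smul, sub_eq_add_neg]
      rw [b2] at b1
      rw [hC.lap_eq b1, neg_smul, one_smul, sub_eq_add_neg]
    have l1 := (hC.P_isLap h3 hF2).2.1
    have l2 := (hC.P_isLap h3 hu2).2.1
    have m2 := H.cen.mem2 s hs
    have b3 := I_wabs_sub_le (H.cen.nonneg s hs) (Adm.of_2 m2 l1) (Adm.of_2 m2 l2)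
    rw [e1]
    have b4 := H.src k v s τ h1 h2 h3 h4
    have b5 := H.srcu k w s τ h1 h2 h3 h4
    rw [← Fk_apply hC H k v] at b4
    have b6 : e k * N k w ≤ A ^ 3 * X k v := by
      calc e k * N k w ≤ e k * (A ^ 3 * N k v) := mul_le_mul_of_nonneg_left hwN (H.e0 k)
        _ = A ^ 3 * (e k * N k v) := by ring
        _ ≤ A ^ 3 * X k v := mul_le_mul_of_nonneg_left (H.eX k v) (by positivity)
    calc _ ≤ r k * (I (ph s * |C.lap (C.P τ (Fk hC H k v))|)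
          + I (ph s * |C.lap (C.P τ (u w))|)) := mul_le_mul_of_nonneg_left b3 hr.le
      _ ≤ B * X k v + A ^ 3 * X k v := by rw [mul_add]; exact add_le_add b4 (b5.trans b6)
      _ = _ := by ring
  obtain ⟨c', a', hc', ha'⟩ := H.dl k g hgA (I (ph (r k ^ 2) * (Fk hC H k v - u w))) _ hS
  have hdd : I (ph (r k ^ 2) * |g - I (ph (r k ^ 2) * (Fk hC H k v - u w)) • (1 : M →ₘ[m] ℝ)|) / r k
      = d := rfl
  rw [hdd] at hc' ha'
  -- scale change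
  have hX : I (ph (r (k + 1) ^ 2) * |Fk hC H (k + 1) v - u (w + c') - a' • (1 : M →ₘ[m] ℝ)|)
      / r (k + 1) ≤ κ * d + (B * (B + A ^ 3) + B) * X k v := by
    have m2 := H.cen.mem2 _ ht1
    have m1 := H.cen.mem1 _ ht1
    have e1 : Fk hC H (k + 1) v - u (w + c') - a' • (1 : M →ₘ[m] ℝ)
        = (g - u c' - a' • (1 : M →ₘ[m] ℝ)) + (C.Γ (b (k + 1)) (u v) - C.Γ (b k) (u v)) := by
      rw [hg, Fk_apply, Fk_apply, map_add]; abel
    have A1 : Adm (ph (r (k + 1) ^ 2)) (g - u c' - a' • (1 : M →ₘ[m] ℝ)) :=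
      (Adm.of_2 m2 (mem_sub (hC.memLp _ hgA.1) (hC.memLp _ (H.uA c').1))).sub (Adm.const m1 a')
    have A2 : Adm (ph (r (k + 1) ^ 2)) (C.Γ (b (k + 1)) (u v) - C.Γ (b k) (u v)) :=
      Adm.of_2 m2 (mem_sub (hC.memLp _ (H.bu (k + 1) v).1) (hC.memLp _ (H.bu k v).1))
    have b1 := I_wabs_add_le (H.cen.nonneg _ ht1) A1 A2
    have b2 := H.sc k v
    rw [e1]
    calc _ ≤ (I (ph (r (k + 1) ^ 2) * |g - u c' - a' • (1 : M →ₘ[m] ℝ)|)
          + I (ph (r (k + 1) ^ 2) * |C.Γ (b (k + 1)) (u v) - C.Γ (b k) (u v)|)) / r (k + 1) := by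
          gcongr
      _ = _ := add_div _ _ _
      _ ≤ (κ * d + B * ((B + A ^ 3) * X k v)) + B * X k v := add_le_add ha' b2
      _ = _ := by ring
  have hY := erf_AL_le hC H.cen (H.lvl (k + 1)) (Fk hC H (k + 1)) (Fk_mem2 hC H (k + 1))
    (fun c => (H.uA c).1) v (w + c') a'
  have hZ := AL_le hC H.cen (H.lvl (k + 1)) (Fk hC H (k + 1)) (Fk_mem2 hC H (k + 1))
    (fun c => (H.uA c).1) v (w + c') a'
  refine ⟨hY.trans (mul_le_mul_of_nonneg_left hX (by positivity)), ?_⟩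
  have e2 : Ak hC H (k + 1) v - w = (Ak hC H (k + 1) v - (w + c')) + c' := by abel
  rw [e2]
  have b1 : N (k + 1) c' ≤ 2 * A * d := by
    calc N (k + 1) c' ≤ 2 * N k c' := H.N2 k c'
      _ ≤ 2 * (A * d) := by gcongr
      _ = _ := by ring
  refine (map_add_le_add (N (k + 1)) _ _).trans (add_le_add ?_ b1)
  exact hZ.trans (mul_le_mul_of_nonneg_left hX (by positivity))

/-- **(E4), the recursion.**  Explicit constants: `B₁ = (2 + A³)(B(B + A³) + B)`. -/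
theorem e4_rec (hC : IsDir C) (H : E4H C ph u b N X r e σ A κ B Q)
    (hκ : (2 + A ^ 3) * κ * Q ≤ 1 / 2) :
    ∃ B' : ℝ, 0 ≤ B' ∧ B' = (2 + A ^ 3) * B + 2 * ((2 + A ^ 3) * (B * (B + A ^ 3) + B)) * Q ∧
      (∀ k v, erf ph u (r k) (Fk hC H k v) (Ak hC H k v) ≤ B' * X k v) ∧
      (∀ k v, N (k + 1) (Ak hC H (k + 1) v - Ak hC H k v)
        ≤ (A ^ 2 * (κ * B' + (B * (B + A ^ 3) + B)) + 2 * A * B') * X k v) ∧
      (∀ k v, N k (Ak hC H k v) ≤ A ^ 3 * N k v) := by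
  have hA0 : 0 ≤ A := zero_le_one.trans (H.lvl 0).hA
  have hB := H.B0
  have hQ := H.Q0
  have hκ0 := H.κ0
  have hB' : 0 ≤ (2 + A ^ 3) * B + 2 * ((2 + A ^ 3) * (B * (B + A ^ 3) + B)) * Q := by positivity
  refine ⟨_, hB', rfl, ?_, ?_, Ak_le hC H⟩
  · intro k v
    refine rec_bound (d := fun k => erf ph u (r k) (Fk hC H k v) (Ak hC H k v))
      (x := fun k => X k v) (κ := (2 + A ^ 3) * κ) (a := (2 + A ^ 3) * (B * (B + A ^ 3) + B))
      (Q := Q) (by positivity) (by positivity) hQ (fun k => H.X0 k v) (fun k => H.XQ k v) hκ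
      (fun k => ?_) ?_ ?_ k
    · have := (step hC H k v).1
      calc _ ≤ _ := this
        _ = _ := by ring
    · have : 0 ≤ (2 + A ^ 3) * B := by positivity
      linarith
    · obtain ⟨c, a, hca⟩ := H.start v
      have h1 := erf_AL_le hC H.cen (H.lvl 0) (Fk hC H 0) (Fk_mem2 hC H 0)
        (fun c => (H.uA c).1) v c a
      have hX0 := H.X0 0 v
      have h2 : 0 ≤ 2 * ((2 + A ^ 3) * (B * (B + A ^ 3) + B)) * Q * X 0 v := by positivity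
      calc _ ≤ _ := h1
        _ ≤ (2 + A ^ 3) * (B * X 0 v) := mul_le_mul_of_nonneg_left hca (by positivity)
        _ ≤ _ := by linarith
  · intro k v
    have h1 := (step hC H k v).2
    have h2 : erf ph u (r k) (Fk hC H k v) (Ak hC H k v)
        ≤ ((2 + A ^ 3) * B + 2 * ((2 + A ^ 3) * (B * (B + A ^ 3) + B)) * Q) * X k v := by
      refine rec_bound (d := fun k => erf ph u (r k) (Fk hC H k v) (Ak hC H k v))
        (x := fun k => X k v) (κ := (2 + A ^ 3) * κ) (a := (2 + A ^ 3) * (B * (B + A ^ 3) + B))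
        (Q := Q) (by positivity) (by positivity) hQ (fun k => H.X0 k v) (fun k => H.XQ k v) hκ
        (fun k => ?_) ?_ ?_ k
      · have := (step hC H k v).1
        calc _ ≤ _ := this
          _ = _ := by ring
      · have : 0 ≤ (2 + A ^ 3) * B := by positivity
        linarith
      · obtain ⟨c, a, hca⟩ := H.start v
        have h1 := erf_AL_le hC H.cen (H.lvl 0) (Fk hC H 0) (Fk_mem2 hC H 0)
          (fun c => (H.uA c).1) v c a
        have hX0 := H.X0 0 v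
        have h2 : 0 ≤ 2 * ((2 + A ^ 3) * (B * (B + A ^ 3) + B)) * Q * X 0 v := by positivity
        calc _ ≤ _ := h1
          _ ≤ (2 + A ^ 3) * (B * X 0 v) := mul_le_mul_of_nonneg_left hca (by positivity)
          _ ≤ _ := by linarith
    set B' := (2 + A ^ 3) * B + 2 * ((2 + A ^ 3) * (B * (B + A ^ 3) + B)) * Q with hBd
    set d := erf ph u (r k) (Fk hC H k v) (Ak hC H k v) with hdd
    calc _ ≤ _ := h1
      _ ≤ A ^ 2 * (κ * (B' * X k v) + (B * (B + A ^ 3) + B) * X k v)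
          + 2 * A * (B' * X k v) := by gcongr
      _ = _ := by ring

end seq

end Vale.Agent.P242.H655
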