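import Vale.Agent.P242.H655.E4Src
import Vale.Agent.P242.H655.E4Def

/-! P242, package A-E4 (helper655): from the abstract recursion `E4H` to the output `E4Out` in the
frozen vocabulary. -/

set_option linter.all false

open MeasureTheory Filter Topology Set Metric
open scoped ENNReal NNReal InnerProductSpace

universe u

namespace Vale.Agent.P242.H655

open Vale.Agent.P233 Vale.Agent.P233.RA Vale.Agent.P242.H990 Vale.Agent.P242.H71

variable {M : Type u} [MetricSpace M] [MeasurableSpace M] {m : Measure M} {n : ℕ} {K : ℝ}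
  {p : ℝ → M → M → ℝ} {u : Fin n → M →ₘ[m] ℝ} {uu : M → E n} {Q A₀ Λ ρ r₀ : ℝ} {y : M}

/-- `c ↦ u_c` as a linear map -/
noncomputable def ul (u : Fin n → M →ₘ[m] ℝ) : E n →ₗ[ℝ] (M →ₘ[m] ℝ) where
  toFun c := uc u c
  map_add' c d := by
    unfold uc
    rw [← Finset.sum_add_distrib]
    refine Finset.sum_congr rfl fun i _ => ?_
    rw [PiLp.add_apply, add_smul]
  map_smul' a c := by
    unfold uc
    rw [RingHom.id_apply, Finset.smul_sum]
    refine Finset.sum_congr rfl fun i _ => ?_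
    rw [PiLp.smul_apply, smul_eq_mul, mul_smul]

theorem ul_apply (u : Fin n → M →ₘ[m] ℝ) (c : E n) : ul u c = uc u c := rfl

/-- **From `E4H` to `E4Out`.** -/
theorem e4out_of (hC : IsDir (sob m)) {N : ℕ → Seminorm ℝ (E n)} {e : ℕ → ℝ} {σ A κ B Qx Bc : ℝ}
    (hN : ∀ k c, N k c = nG m p u (rr r₀ Λ k ^ 2) y c)
    (H : E4H (sob m) (fun s => ph m p s y) (ul u) (fun k => bb m y (rr r₀ Λ k ^ 2)) N
      (fun k v => xE m K p u Q A₀ ρ (rr r₀ Λ k ^ 2) y v) (fun k => rr r₀ Λ k) e σ A κ B Qx)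
    (hκ : (2 + A ^ 3) * κ * Qx ≤ 1 / 2) (hBc : 0 ≤ Bc)
    (hc1 : ∀ k v, |I (ph m p (rr r₀ Λ k ^ 2) y * (sob m).Γ (bb m y (rr r₀ Λ k ^ 2)) (uc u v))|
      ≤ Bc * rr r₀ Λ k * √(Dt m n K p Q A₀ ρ (rr r₀ Λ k ^ 2) y) * nG m p u (rr r₀ Λ k ^ 2) y v)
    (hc2 : ∀ k v, |I (ph m p (rr r₀ Λ k ^ 2) y * uc u v) - ⟪v, uu y⟫_ℝ|
      ≤ Bc * rr r₀ Λ k * √(Dt m n K p Q A₀ ρ (rr r₀ Λ k ^ 2) y) * nG m p u (rr r₀ Λ k ^ 2) y v)
    {B' : ℝ}
    (hB1 : (2 + A ^ 3) * B + 2 * ((2 + A ^ 3) * (B * (B + A ^ 3) + B)) * Qx ≤ B')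
    (hB2 : A ^ 2 * (κ * ((2 + A ^ 3) * B + 2 * ((2 + A ^ 3) * (B * (B + A ^ 3) + B)) * Qx)
      + (B * (B + A ^ 3) + B)) + 2 * A * ((2 + A ^ 3) * B
      + 2 * ((2 + A ^ 3) * (B * (B + A ^ 3) + B)) * Qx) ≤ B')
    (hB3 : A ^ 3 ≤ B') (hB4 : Bc * (2 + A ^ 3) ≤ B') :
    ∃ (𝒜 : ℕ → E n →ₗ[ℝ] E n) (cc : ℕ → E n → ℝ), E4Out m K p u uu Q A₀ Λ B' ρ r₀ y 𝒜 cc := by
  obtain ⟨B₁, hB₁0, hB₁, h1, h2, h3⟩ := e4_rec hC H hκ
  have hX0 : ∀ k v, 0 ≤ xE m K p u Q A₀ ρ (rr r₀ Λ k ^ 2) y v := H.X0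
  have hr : ∀ k, 0 < rr r₀ Λ k := fun k => (H.lvl k).hr
  refine ⟨fun k => Ak hC H k, fun k v => I (ph m p (rr r₀ Λ k ^ 2) y
    * (Fk hC H k v - ul u (Ak hC H k v))), ?_, ?_, ?_, ?_⟩
  · intro k v
    have h4 := h1 k v
    unfold erf at h4
    rw [div_le_iff₀ (hr k)] at h4
    refine le_trans (le_of_eq ?_) (h4.trans ?_)
    · rfl
    · have h5 : B₁ ≤ B' := by rw [hB₁]; exact hB1
      have h6 := mul_le_mul_of_nonneg_right (mul_le_mul_of_nonneg_right h5 (hX0 k v)) (hr k).le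
      calc _ ≤ _ := h6
        _ = _ := by ring
  · intro k v
    have h4 := h2 k v
    rw [hN] at h4
    refine h4.trans (mul_le_mul_of_nonneg_right ?_ (hX0 k v))
    rw [hB₁]
    exact hB2
  · intro k v
    have h4 := h3 k v
    rw [hN, hN] at h4
    exact h4.trans (mul_le_mul_of_nonneg_right hB3 (Real.sqrt_nonneg _))
  · intro k v
    set t := rr r₀ Λ k ^ 2 with ht
    have ht0 : 0 < t := pow_pos (hr k) 2
    set w := Ak hC H k v with hw
    have m2 : MemLp (ph m p t y) 2 m := H.cen.mem2 t ht0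
    have a1 : MemLp ((sob m).Γ (bb m y t) (uc u v)) 2 m := hC.memLp _ (H.bu k v).1
    have a2 : ∀ c, MemLp (uc u c) 2 m := fun c => hC.memLp _ (H.uA c).1
    have e1 : I (ph m p t y * (Fk hC H k v - ul u w))
        = I (ph m p t y * (sob m).Γ (bb m y t) (uc u v)) - I (ph m p t y * uc u v)
          - I (ph m p t y * uc u w) := by
      have e0 : Fk hC H k v - ul u w = (sob m).Γ (bb m y t) (uc u v) - uc u v - uc u w := rfl
      rw [e0, mul_sub, mul_sub, I_sub (mem_sub (mem_mul_22 m2 a1) (mem_mul_22 m2 (a2 v)))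
        (mem_mul_22 m2 (a2 w)), I_sub (mem_mul_22 m2 a1) (mem_mul_22 m2 (a2 v))]
    show |I (ph m p t y * (Fk hC H k v - ul u w)) + ⟪v + w, uu y⟫_ℝ| ≤ _
    rw [e1, inner_add_left]
    have b1 := hc1 k v
    have b2 := hc2 k v
    have b3 := hc2 k w
    have b4 := h3 k v
    rw [hN, hN] at b4
    change nG m p u t y w ≤ A ^ 3 * nG m p u t y v at b4
    set T := Bc * rr r₀ Λ k * √(Dt m n K p Q A₀ ρ t y) with hT
    have hT0 : 0 ≤ T := by have := (hr k).le; positivity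
    have b5 : T * nG m p u t y w ≤ T * (A ^ 3 * nG m p u t y v) :=
      mul_le_mul_of_nonneg_left b4 hT0
    have e2 : I (ph m p t y * (sob m).Γ (bb m y t) (uc u v)) - I (ph m p t y * uc u v)
          - I (ph m p t y * uc u w) + (⟪v, uu y⟫_ℝ + ⟪w, uu y⟫_ℝ)
        = I (ph m p t y * (sob m).Γ (bb m y t) (uc u v))
          - (I (ph m p t y * uc u v) - ⟪v, uu y⟫_ℝ)
          - (I (ph m p t y * uc u w) - ⟪w, uu y⟫_ℝ) := by ring
    rw [e2]
    have b6 : |I (ph m p t y * (sob m).Γ (bb m y t) (uc u v))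
          - (I (ph m p t y * uc u v) - ⟪v, uu y⟫_ℝ)
          - (I (ph m p t y * uc u w) - ⟪w, uu y⟫_ℝ)|
        ≤ T * nG m p u t y v + T * nG m p u t y v + T * nG m p u t y w := by
      refine (abs_sub _ _).trans (add_le_add ((abs_sub _ _).trans (add_le_add b1 b2)) b3)
    have hnn : 0 ≤ rr r₀ Λ k * √(Dt m n K p Q A₀ ρ t y) * nG m p u t y v := by
      have := (hr k).le
      have h0 : 0 ≤ nG m p u t y v := Real.sqrt_nonneg _
      positivity
    calc _ ≤ T * nG m p u t y v + T * nG m p u t y v + T * nG m p u t y w := b6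
      _ ≤ T * nG m p u t y v + T * nG m p u t y v + T * (A ^ 3 * nG m p u t y v) := by linarith
      _ = (Bc * (2 + A ^ 3)) * (rr r₀ Λ k * √(Dt m n K p Q A₀ ρ t y) * nG m p u t y v) := by
        rw [hT]; ring
      _ ≤ B' * (rr r₀ Λ k * √(Dt m n K p Q A₀ ρ t y) * nG m p u t y v) :=
        mul_le_mul_of_nonneg_right hB4 hnn
      _ = _ := by ring

end Vale.Agent.P242.H655
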