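import Mathlib.Analysis.SpecialFunctions.Pow.Real

/-! P242, package A-E4 (helper655): scalar inequalities for the norms of a level. -/

set_option linter.all false

namespace Vale.Agent.P242.H655

/-- the size `X = √D √(N + D G)` -/
noncomputable def xx (D N G : ℝ) : ℝ := √D * √(N + D * G)

theorem xx_nonneg (D N G : ℝ) : 0 ≤ xx D N G := mul_nonneg (Real.sqrt_nonneg _) (Real.sqrt_nonneg _)

theorem xx_ge_sqrt {D N G : ℝ} (hD : 0 ≤ D) (hN : 0 ≤ N) (hG : 0 ≤ G) : √D * √N ≤ xx D N G := by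
  unfold xx
  refine mul_le_mul_of_nonneg_left (Real.sqrt_le_sqrt ?_) (Real.sqrt_nonneg _)
  have := mul_nonneg hD hG
  linarith

theorem xx_ge_D {D N G : ℝ} (hD : 0 ≤ D) (hN : 0 ≤ N) (hG : 0 ≤ G) : D * √G ≤ xx D N G := by
  unfold xx
  calc D * √G = √D * (√D * √G) := by rw [← mul_assoc, Real.mul_self_sqrt hD]
    _ = √D * √(D * G) := by rw [Real.sqrt_mul hD]
    _ ≤ _ := mul_le_mul_of_nonneg_left (Real.sqrt_le_sqrt (by linarith)) (Real.sqrt_nonneg _)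

theorem xx_ge_A {A₀ θ x D N G : ℝ} (hA : 0 ≤ A₀) (hθ : 0 < θ) (hx : 0 ≤ x) (hG : 0 ≤ G)
    (hD : A₀ * θ ^ (1 / 8 : ℝ) ≤ D) (hN : A₀ * θ ^ (3 / 8 : ℝ) * x ^ 2 ≤ N) :
    A₀ * θ ^ (1 / 4 : ℝ) * x ≤ xx D N G := by
  have h8 : 0 < θ ^ (1 / 8 : ℝ) := Real.rpow_pos_of_pos hθ _
  have h38 : 0 < θ ^ (3 / 8 : ℝ) := Real.rpow_pos_of_pos hθ _
  have h4 : 0 < θ ^ (1 / 4 : ℝ) := Real.rpow_pos_of_pos hθ _
  have hD0 : 0 ≤ D := (mul_nonneg hA h8.le).trans hD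
  have hN0 : 0 ≤ N := le_trans (by positivity) hN
  refine le_trans ?_ (xx_ge_sqrt hD0 hN0 hG)
  rw [← Real.sqrt_mul hD0]
  refine Real.le_sqrt_of_sq_le ?_
  have e1 : θ ^ (1 / 4 : ℝ) * θ ^ (1 / 4 : ℝ) = θ ^ (1 / 8 : ℝ) * θ ^ (3 / 8 : ℝ) := by
    rw [← Real.rpow_add hθ, ← Real.rpow_add hθ]
    norm_num
  calc (A₀ * θ ^ (1 / 4 : ℝ) * x) ^ 2
      = A₀ * A₀ * (θ ^ (1 / 4 : ℝ) * θ ^ (1 / 4 : ℝ)) * x ^ 2 := by ring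
    _ = (A₀ * θ ^ (1 / 8 : ℝ)) * (A₀ * θ ^ (3 / 8 : ℝ) * x ^ 2) := by rw [e1]; ring
    _ ≤ D * N := mul_le_mul hD hN (by positivity) hD0

theorem rpow_le_of_le {θ a b : ℝ} (hθ : 0 < θ) (h1 : θ ≤ 1) (h : b ≤ a) : θ ^ a ≤ θ ^ b :=
  Real.rpow_le_rpow_of_exponent_ge hθ h1 h

/-- `√θ ≤ θ^{1/4}` -/
theorem sqrt_le_quarter {θ : ℝ} (hθ : 0 < θ) (h1 : θ ≤ 1) : √θ ≤ θ ^ (1 / 4 : ℝ) := by
  rw [Real.sqrt_eq_rpow]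
  exact rpow_le_of_le hθ h1 (by norm_num)

theorem self_le_quarter {θ : ℝ} (hθ : 0 < θ) (h1 : θ ≤ 1) : θ ≤ θ ^ (1 / 4 : ℝ) := by
  calc θ = θ ^ (1 : ℝ) := (Real.rpow_one θ).symm
    _ ≤ _ := rpow_le_of_le hθ h1 (by norm_num)

theorem self_le_eighth {θ : ℝ} (hθ : 0 < θ) (h1 : θ ≤ 1) : θ ≤ θ ^ (1 / 8 : ℝ) := by
  calc θ = θ ^ (1 : ℝ) := (Real.rpow_one θ).symm
    _ ≤ _ := rpow_le_of_le hθ h1 (by norm_num)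

/-- `√θ x ≤ √2 θ^{1/8} √G` -/
theorem sqrt_le_G {θ x G : ℝ} (hθ : 0 < θ) (h1 : θ ≤ 1) (hx : 0 ≤ x)
    (hG : θ ^ (1 / 8 : ℝ) * x ^ 2 ≤ 2 * G) : √θ * x ≤ √2 * (θ ^ (1 / 8 : ℝ) * √G) := by
  have h8 : 0 < θ ^ (1 / 8 : ℝ) := Real.rpow_pos_of_pos hθ _
  have h3 : 0 < θ ^ (3 / 16 : ℝ) := Real.rpow_pos_of_pos hθ _
  have h16 : 0 < θ ^ (1 / 16 : ℝ) := Real.rpow_pos_of_pos hθ _
  have e1 : √θ ≤ θ ^ (1 / 8 : ℝ) * θ ^ (1 / 16 : ℝ) := by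
    rw [Real.sqrt_eq_rpow, ← Real.rpow_add hθ]
    exact rpow_le_of_le hθ h1 (by norm_num)
  have e2 : θ ^ (1 / 16 : ℝ) * x ≤ √2 * √G := by
    rw [← Real.sqrt_mul (by norm_num : (0 : ℝ) ≤ 2)]
    refine Real.le_sqrt_of_sq_le ?_
    have e3 : θ ^ (1 / 16 : ℝ) * θ ^ (1 / 16 : ℝ) = θ ^ (1 / 8 : ℝ) := by
      rw [← Real.rpow_add hθ]; norm_num
    calc (θ ^ (1 / 16 : ℝ) * x) ^ 2 = (θ ^ (1 / 16 : ℝ) * θ ^ (1 / 16 : ℝ)) * x ^ 2 := by ring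
      _ ≤ 2 * G := by rw [e3]; exact hG
  calc √θ * x ≤ θ ^ (1 / 8 : ℝ) * θ ^ (1 / 16 : ℝ) * x := mul_le_mul_of_nonneg_right e1 hx
    _ = θ ^ (1 / 8 : ℝ) * (θ ^ (1 / 16 : ℝ) * x) := by ring
    _ ≤ θ ^ (1 / 8 : ℝ) * (√2 * √G) := mul_le_mul_of_nonneg_left e2 h8.le
    _ = _ := by ring

/-- change of the level -/
theorem xx_step {Λ D N G D' N' G' : ℝ} (hΛ : 1 ≤ Λ) (hD : 0 ≤ D) (hD' : 0 ≤ D')
    (hN' : 0 ≤ N') (hG : 0 ≤ G) (hG' : 0 ≤ G')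
    (h1 : D ≤ Λ ^ (1 / 4 : ℝ) * D') (h2 : N ≤ Λ ^ (3 / 4 : ℝ) * N') (h3 : G ≤ 2 * G') :
    xx D N G ≤ 2 * √Λ * xx D' N' G' := by
  have hΛ0 : 0 < Λ := by linarith
  have a4 : 0 < Λ ^ (1 / 4 : ℝ) := Real.rpow_pos_of_pos hΛ0 _
  have a34 : 0 < Λ ^ (3 / 4 : ℝ) := Real.rpow_pos_of_pos hΛ0 _
  have a12 : 0 < Λ ^ (1 / 2 : ℝ) := Real.rpow_pos_of_pos hΛ0 _
  have e1 : Λ ^ (1 / 4 : ℝ) * Λ ^ (3 / 4 : ℝ) = Λ := by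
    rw [← Real.rpow_add hΛ0]; norm_num
  have e2 : Λ ^ (1 / 4 : ℝ) * Λ ^ (1 / 4 : ℝ) = Λ ^ (1 / 2 : ℝ) := by
    rw [← Real.rpow_add hΛ0]; norm_num
  have e3 : Λ ^ (1 / 2 : ℝ) ≤ Λ := by
    calc Λ ^ (1 / 2 : ℝ) ≤ Λ ^ (1 : ℝ) := Real.rpow_le_rpow_of_exponent_le hΛ (by norm_num)
      _ = Λ := Real.rpow_one Λ
  have e4 : Λ ^ (1 / 4 : ℝ) ≤ Λ := by
    calc Λ ^ (1 / 4 : ℝ) ≤ Λ ^ (1 : ℝ) := Real.rpow_le_rpow_of_exponent_le hΛ (by norm_num)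
      _ = Λ := Real.rpow_one Λ
  have e5 : Λ ^ (1 / 4 : ℝ) * Λ ^ (1 / 2 : ℝ) ≤ Λ := by
    calc Λ ^ (1 / 4 : ℝ) * Λ ^ (1 / 2 : ℝ) ≤ Λ ^ (1 / 4 : ℝ) * Λ ^ (3 / 4 : ℝ) := by
          refine mul_le_mul_of_nonneg_left ?_ a4.le
          exact Real.rpow_le_rpow_of_exponent_le hΛ (by norm_num)
      _ = Λ := e1
  have hDG : D * G ≤ Λ ^ (1 / 4 : ℝ) * (2 * (D' * G')) := by
    calc D * G ≤ (Λ ^ (1 / 4 : ℝ) * D') * (2 * G') := mul_le_mul h1 h3 hG (by positivity)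
      _ = _ := by ring
  have key : D * (N + D * G) ≤ (2 * √Λ) ^ 2 * (D' * (N' + D' * G')) := by
    have hX : 0 ≤ D' * N' := mul_nonneg hD' hN'
    have hY : 0 ≤ D' * (D' * G') := by positivity
    rw [mul_pow, Real.sq_sqrt hΛ0.le]
    have b1 : N + D * G ≤ Λ ^ (3 / 4 : ℝ) * N' + Λ ^ (1 / 4 : ℝ) * (2 * (D' * G')) :=
      add_le_add h2 hDG
    have b2 : 0 ≤ Λ ^ (3 / 4 : ℝ) * N' + Λ ^ (1 / 4 : ℝ) * (2 * (D' * G')) := by positivity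
    calc D * (N + D * G) ≤ D * (Λ ^ (3 / 4 : ℝ) * N' + Λ ^ (1 / 4 : ℝ) * (2 * (D' * G'))) :=
          mul_le_mul_of_nonneg_left b1 hD
      _ ≤ (Λ ^ (1 / 4 : ℝ) * D') * (Λ ^ (3 / 4 : ℝ) * N' + Λ ^ (1 / 4 : ℝ) * (2 * (D' * G'))) :=
          mul_le_mul_of_nonneg_right h1 b2
      _ = (Λ ^ (1 / 4 : ℝ) * Λ ^ (3 / 4 : ℝ)) * (D' * N')
          + 2 * (Λ ^ (1 / 4 : ℝ) * Λ ^ (1 / 4 : ℝ)) * (D' * (D' * G')) := by ring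
      _ ≤ Λ * (D' * N') + 2 * Λ * (D' * (D' * G')) := by
          rw [e1, e2]
          have := mul_le_mul_of_nonneg_right e3 hY
          linarith
      _ ≤ 2 ^ 2 * Λ * (D' * (N' + D' * G')) := by
          have c1 := mul_nonneg hΛ0.le hX
          have c2 := mul_nonneg hΛ0.le hY
          have : 2 ^ 2 * Λ * (D' * (N' + D' * G'))
              = 4 * (Λ * (D' * N')) + 4 * (Λ * (D' * (D' * G'))) := by ring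
          rw [this]
          linarith
  unfold xx
  rw [← Real.sqrt_mul hD, ← Real.sqrt_mul hD']
  have : 2 * √Λ * √(D' * (N' + D' * G')) = √((2 * √Λ) ^ 2 * (D' * (N' + D' * G'))) := by
    rw [Real.sqrt_mul (x := (2 * √Λ) ^ 2) (by positivity), Real.sqrt_sq (by positivity)]
  rw [this]
  exact Real.sqrt_le_sqrt key

end Vale.Agent.P242.H655
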