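import Vale.Agent.P242.H655.E4Main

/-! P242, package A-E4 (helper655): the source terms at a centre. -/

set_option linter.all false

open MeasureTheory Filter Topology Set
open scoped ENNReal NNReal

universe u

namespace Vale.Agent.P242.H655

open Vale.Agent.P233
open Vale.Agent.P242.H363 (QQ QQ_cs_abs QQ_le_NN)

variable {M : Type u} [MeasurableSpace M] {m : Measure M} {C : Calc m}
variable {ph : ℝ → M →ₘ[m] ℝ} {b u : M →ₘ[m] ℝ} {s τ K n K₁ : ℝ}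

/-- source of `Γ(b,u) - u` at a centre -/
theorem src_cen (hC : IsGamma C) (hn : 0 < n) (hBE : C.BE K n) (hcen : Cen C ph) (hs : 0 < s)
    (hτ : 0 < τ) (hb : b ∈ C.Test) (hu : u ∈ C.Test) :
    I (ph s * |C.lap (C.P τ (C.Γ b u - u))|)
      ≤ 2 * (√(QQ C K n b b (ph (s + τ))) * √(C.NN K u u (ph (s + τ))))
        + 2 * |n⁻¹| * I (ph (s + τ) * |C.lap b * C.lap u|)
        + I (ph (s + τ) * |C.Γ b (C.lap u)|)
        + I (ph (s + τ) * |C.Γ u (C.lap b - K₁ • b)|)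
        + (2 * |K| + |K₁|) * I (ph (s + τ) * |C.Γ b u|)
        + I (ph (s + τ) * |C.lap u|) := by
  have hB := hC.bei hn hBE
  have hst : 0 < s + τ := add_pos hs hτ
  have e : C.P τ (ph s) = ph (s + τ) := hcen.semi s τ hs hτ.le
  have hA := hcen.memA hC.toIsDir hst
  have lu2 : MemLp (C.lap u) 2 m := (hC.test_isLap hu).2.1
  have h := I_abs_lap_le (K₁ := K₁) (n := n) hC hB hτ (hcen.nonneg s hs) (hcen.mem2 s hs)
    (hcen.top s hs) hb hu (S := √(QQ C K n b b (ph (s + τ))) * √(C.NN K u u (ph (s + τ)))) ?_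
    (by rw [e]; exact hA.2) (by rw [e]; exact mem_mul_22 (hcen.mem2 _ hst) (mem_abs lu2))
  · rw [e] at h
    exact h
  · intro ζ hζ hle
    rw [e] at hle
    have hle' : ∀ᵐ x ∂m, |ζ x| ≤ ph (s + τ) x := by
      filter_upwards [le_iff_ae.1 hle, abs_ae' ζ] with x h1 h2
      rwa [h2] at h1
    have h1 := QQ_cs_abs hC (K := K) hn hBE hb hu hζ hA hle'
    refine h1.trans (mul_le_mul_of_nonneg_left ?_ (Real.sqrt_nonneg _))
    exact Real.sqrt_le_sqrt (QQ_le_NN hC hn (hcen.nonneg _ hst))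

/-- source of `u` -/
theorem srcu_cen (hC : IsGamma C) (hcen : Cen C ph) (hs : 0 < s) (hτ : 0 < τ) (hu : u ∈ C.Test) :
    I (ph s * |C.lap (C.P τ u)|) ≤ I (ph (s + τ) * |C.lap u|) := by
  have hD := hC.toIsDir
  have hst : 0 < s + τ := add_pos hs hτ
  have e : C.P τ (ph s) = ph (s + τ) := hcen.semi s τ hs hτ.le
  have uA := hC.test_A hu
  have lu2 : MemLp (C.lap u) 2 m := (hC.test_isLap hu).2.1
  obtain ⟨ζ, hζA, hζ, h⟩ := exists_dual hD hτ (hcen.nonneg s hs) (hcen.mem2 s hs) (hcen.top s hs)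
    uA.1
  rw [h]
  have h1 := (hC.test_isLap hu).2.2 ζ hζA.1
  change I (C.Γ u ζ) = -I (C.lap u * ζ) at h1
  rw [hC.symm _ hζA.1 _ uA.1, h1, neg_neg, mul_comm]
  rw [e] at hζ
  have hz2 := hcen.mem2 _ hst
  have i1 : MemLp (ph (s + τ) * |C.lap u| : M →ₘ[m] ℝ) 1 m := mem_mul_22 hz2 (mem_abs lu2)
  have i2 : MemLp (ζ * C.lap u : M →ₘ[m] ℝ) 1 m := mem_mul_22 (hC.memLp _ hζA.1) lu2
  refine I_mono i2 i1 (le_iff_ae.2 ?_)
  filter_upwards [mul_ae ζ (C.lap u), mul_ae (ph (s + τ)) |C.lap u|, abs_ae' (C.lap u),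
    le_iff_ae.1 hζ, abs_ae' ζ] with x h1 h2 h3 h4 h5
  rw [h1, h2, h3]
  rw [h5] at h4
  calc ζ x * C.lap u x ≤ |ζ x * C.lap u x| := le_abs_self _
    _ = |ζ x| * |C.lap u x| := abs_mul _ _
    _ ≤ _ := mul_le_mul_of_nonneg_right h4 (abs_nonneg _)

end Vale.Agent.P242.H655
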