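import Vale.Agent.P242.H655.E4Out
import Vale.Agent.P242.H655.E4Grow
import Vale.Agent.P242.H655.E4Sc
import Vale.Agent.P242.H924.Final
import Vale.Agent.P242.H990.Far
import Vale.Agent.P242.H990.Poin
import Vale.Agent.P242.H542.Avg
import Vale.Agent.P242.H196.GamP
import Vale.Agent.P242.H751.Uc
import Vale.Agent.P242.H744.Start

/-! P242, package A-E4 (helper655): the recursion data `E4H` in the frozen vocabulary, from the
outputs of the other packages at one vertex (`E4In`). -/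

set_option linter.all false

open MeasureTheory Filter Topology Set Metric
open scoped ENNReal NNReal InnerProductSpace

universe u

namespace Vale.Agent.P242.H655

open Vale.Agent.P233 Vale.Agent.P233.RA Vale.Agent.P242.H990 Vale.Agent.P242.H71

variable {M : Type u} [MetricSpace M] [CompleteSpace M] [SecondCountableTopology M]
  [MeasurableSpace M] [BorelSpace M]

/-- Inputs of A-E4 at the vertex `y`, times `t ≤ T₁`.  `α`, `κ₁` do not depend on `Λ`; `β` may. -/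
structure E4In (m : Measure M) {n : ℕ} (K A : ℝ) (p : ℝ → M → M → ℝ) (u : Fin n → M →ₘ[m] ℝ)
    (uu : M → E n) (Q A₀ Λ ρ T₁ r₀ α κ₁ β : ℝ) (y : M) : Prop where
  /-- comparison of the forms -/
  low : ∀ t, 0 < t → t ≤ ρ ^ 2 → ∀ c : E n, (t / ρ ^ 2) ^ (1 / 8 : ℝ) * ‖c‖ ^ 2 ≤ 2 * Gm m p u t y c c
  up : ∀ s t, 0 < s → s ≤ t → t ≤ ρ ^ 2 → ∀ c : E n, Gm m p u s y c c ≤ 2 * Gm m p u t y c c
  dn : ∀ s t, 0 < s → s ≤ t → t ≤ Λ ^ 2 * s → t ≤ ρ ^ 2 → ∀ c : E n,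
    Gm m p u t y c c ≤ 2 * Gm m p u s y c c
  gam : ∀ s t, 0 < t → t ≤ T₁ → t / Λ ^ 2 ≤ s → s ≤ 2 * t → ∀ c : E n,
    t * gm m K p u s y c c ≤ β * Nt m K p u Q A₀ ρ (3 / 8) t y c c
  nlow : ∀ t, 0 < t → t ≤ ρ ^ 2 → ∀ c : E n,
    A₀ * (t / ρ ^ 2) ^ (3 / 8 : ℝ) * ‖c‖ ^ 2 ≤ Nt m K p u Q A₀ ρ (3 / 8) t y c c
  nstep : ∀ t, 0 < t → t ≤ T₁ → ∀ c : E n, Nt m K p u Q A₀ ρ (3 / 8) t y c c
    ≤ Λ ^ (3 / 4 : ℝ) * Nt m K p u Q A₀ ρ (3 / 8) (t / Λ ^ 2) y c c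
  dstep : ∀ t, 0 < t → t ≤ T₁ →
    Dt m n K p Q A₀ ρ t y ≤ Λ ^ (1 / 4 : ℝ) * Dt m n K p Q A₀ ρ (t / Λ ^ 2) y
  d1 : ∀ t, 0 < t → t ≤ T₁ → Dt m n K p Q A₀ ρ t y ≤ 1
  /-- (E1) -/
  qq : ∀ s t, 0 < t → t ≤ T₁ → t / Λ ^ 2 ≤ s → s ≤ 2 * t →
    QQ m n K p s y (bb m y t) (bb m y t) ≤ β * Dt m n K p Q A₀ ρ t y
  lapb : ∀ s t, 0 < t → t ≤ T₁ → t / Λ ^ 2 ≤ s → s ≤ 2 * t →
    PP m p s y ((sob m).lap (bb m y t) ^ 2) ≤ β ^ 2
  gb : ∀ s t, 0 < t → t ≤ T₁ → t / Λ ^ 2 ≤ s → s ≤ 2 * t →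
    PP m p s y ((sob m).Γ (bb m y t) (bb m y t)) ≤ β ^ 2 * t
  gb0 : ∀ t, 0 < t → t ≤ T₁ → PP m p t y ((sob m).Γ (bb m y t) (bb m y t)) ≤ α ^ 2 * t
  gnu : ∀ t, 0 < t → t ≤ T₁ → PP m p (8 * A ^ 2 * t) y
    ((sob m).gr ((sob m).lap (bb m y t) - (|K| + 1) • bb m y t))
      ≤ β * (Dt m n K p Q A₀ ρ t y / √t)
  scb : ∀ t, 0 < t → t ≤ T₁ → PP m p (8 * A ^ 2 * t) y
    ((sob m).gr (bb m y (t / Λ ^ 2) - bb m y t)) ≤ β * (√t * Dt m n K p Q A₀ ρ t y)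
  /-- growth of the gradients -/
  p3g : ∀ t, 0 < t → t ≤ T₁ → ∀ v : E n, ∀ᵐ z ∂m, (sob m).Γ (uc u v) (uc u v) z
    ≤ Real.exp (1 / (2 * A * t) * dist y z ^ 2) * (β ^ 2 * Gm m p u t y v v)
  /-- decay lemma -/
  dl : ∀ t, 0 < t → t ≤ T₁ → ∀ F : M →ₘ[m] ℝ, MemLp F 2 m → MemLp F ∞ m → ∀ c₀ S : ℝ, 0 ≤ S →
    (∀ s τ, t / Λ ^ 2 ≤ s → s ≤ t → 0 < τ → τ ≤ t →
      PP m p s y |(sob m).lap ((sob m).P τ F)| ≤ S) →
    ∃ (c₁ : ℝ) (c : E n), PP m p (t / Λ ^ 2) y |F - c₁ • (1 : M →ₘ[m] ℝ) - uc u c|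
        ≤ Λ⁻¹ * (κ₁ * PP m p t y |F - c₀ • (1 : M →ₘ[m] ℝ)| + β * t * S) ∧
      √(Gm m p u t y c c) ≤ α * PP m p t y |F - c₀ • (1 : M →ₘ[m] ℝ)| / √t
  /-- start -/
  start : ∀ v : E n, ∃ a : ℝ, PP m p (r₀ ^ 2) y
    |(sob m).Γ (bb m y (r₀ ^ 2)) (uc u v) - uc u v - a • (1 : M →ₘ[m] ℝ)|
      ≤ r₀ * (A₀ * (r₀ ^ 2 / ρ ^ 2) * ‖v‖)

section gen

variable {M' : Type*} [MeasurableSpace M'] {m' : Measure M'} {C : Calc m'}

theorem cen_cs {φ : ℝ → M' →ₘ[m'] ℝ} (hφ : Cen C φ) {s : ℝ} (hs : 0 < s) {f g : M' →ₘ[m'] ℝ}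
    (hf : MemLp f 2 m') (hg : MemLp g 2 m') :
    I (φ s * |f * g|) ≤ √(I (φ s * f ^ 2)) * √(I (φ s * g ^ 2)) := by
  refine (I_gm_w (hφ.nonneg s hs) (mem_mul_top (hφ.top s hs) (mem_sq hf))
    (mem_mul_top (hφ.top s hs) (mem_sq hg)) (sq_nonneg' f) (sq_nonneg' g) ?_).2
  filter_upwards [mul_ae f g, sq_ae f, sq_ae g] with x h1 h2 h3
  rw [h1, h2, h3, abs_mul, Real.sqrt_sq_eq_abs, Real.sqrt_sq_eq_abs]

theorem cen_abs {φ : ℝ → M' →ₘ[m'] ℝ} (hφ : Cen C φ) {s : ℝ} (hs : 0 < s) {f : M' →ₘ[m'] ℝ}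
    (hf : MemLp f 2 m') : I (φ s * |f|) ≤ √(I (φ s * f ^ 2)) := by
  have h := (I_gm_w (φ := φ s) (a := f ^ 2) (b := 1) (c := f) (hφ.nonneg s hs)
    (mem_mul_top (hφ.top s hs) (mem_sq hf)) (by rw [mul_one]; exact hφ.mem1 s hs)
    (sq_nonneg' f) zero_le_one ?_).2
  · rwa [mul_one, hφ.mass s hs, Real.sqrt_one, mul_one] at h
  · filter_upwards [sq_ae f, one_ae (M := M') (m := m')] with x h1 h2
    rw [h1, h2, Real.sqrt_one, mul_one, Real.sqrt_sq_eq_abs]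

end gen

section facts

variable {m : Measure M} {n : ℕ} {K A : ℝ} {o : M} {p : ℝ → M → M → ℝ}
  {R Q η ρ : ℝ} {u : Fin n → M →ₘ[m] ℝ} {uu : M → E n} {y : M}

/-- `b_{y,t}` is a test function -/
theorem bb_testI (e : Env m n K o A p) (y : M) {t : ℝ} (ht : 0 < t) : bb m y t ∈ (sob m).TestI := by
  have F := H924.facts e.hyp
  obtain ⟨θ, hN⟩ := F.nsp
  have hA := H924.wy_A hN y
  have := F.sf
  have hn := F.npos
  exact H715.P_testI_pos F.gam (N := n) (K := K) hn F.be ht (F.gam.memLp _ hA.1) hA.2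

/-- `Γ(b,u_v)` is in the algebra -/
theorem Γbu_A (e : Env m n K o A p) (hu : Cfg m n K o p R Q η ρ u uu) (y : M) {t : ℝ} (ht : 0 < t)
    (v : E n) : (sob m).Γ (bb m y t) (uc u v) ∈ (sob m).A := by
  have F := H924.facts e.hyp
  exact F.gam.Γ_mem (H744.be_abs e.hyp).2 (bb_testI e y ht).1 (H924.uc_testI e hu v).1

end facts

section vtx

variable {m : Measure M} {n : ℕ} {K A : ℝ} {o : M} {p : ℝ → M → M → ℝ}
  {R Q η ρ A₀ Λ T₁ r₀ α κ₁ β : ℝ} {u : Fin n → M →ₘ[m] ℝ} {uu : M → E n} {y : M}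

theorem xE_eq (t : ℝ) (y : M) (v : E n) : xE m K p u Q A₀ ρ t y v
    = xx (Dt m n K p Q A₀ ρ t y) (Nt m K p u Q A₀ ρ (3 / 8) t y v v) (Gm m p u t y v v) := rfl

/-- numerical conditions -/
structure NumC (n : ℕ) (K A Q A₀ Λ ρ η T₁ β : ℝ) : Prop where
  hη : 0 ≤ η
  hηA : √(2 * n) * η ≤ A₀
  hρ : 0 < ρ
  hρA : ρ ^ 2 ≤ A₀
  hA₀ : 0 < A₀
  hA₀1 : A₀ ≤ 1
  hT : 0 < T₁
  hT4 : 2 * T₁ ≤ ρ ^ 2
  hT2 : 2 * T₁ ≤ Q * ρ ^ 2
  hT3 : 8 * A ^ 2 * T₁ ≤ 1 / 2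
  hΛ : 16 ≤ Λ
  hβ : 1 ≤ β

theorem NumC.hT1 (N : NumC n K A Q A₀ Λ ρ η T₁ β) : T₁ ≤ ρ ^ 2 := by
  have := N.hT4
  have := N.hT
  linarith

variable (e : Env m n K o A p) (hu : Cfg m n K o p R Q η ρ u uu)
  (hy : y ∈ ball o (R * ρ)) (N : NumC n K A Q A₀ Λ ρ η T₁ β)
  (H : E4In m K A p u uu Q A₀ Λ ρ T₁ r₀ α κ₁ β y)

theorem dist_le (hu : Cfg m n K o p R Q η ρ u uu) (hy : y ∈ ball o (R * ρ)) : dist y o ≤ 1 :=
  (mem_ball.1 hy).le.trans hu.Rρ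

theorem Gm_nonneg' (e : Env m n K o A p) (hu : Cfg m n K o p R Q η ρ u uu) {s : ℝ} (hs : 0 < s)
    (c : E n) : 0 ≤ Gm m p u s y c c :=
  I_nonneg (mul_nonneg (ph_nonneg e.ker hs y) ((H924.facts e.hyp).gam.nonneg _
    ((H924.facts e.hyp).gam.test_A (H924.uc_testI e hu c).1).1))

include e N in
theorem dlow {t : ℝ} (ht : 0 < t) (htT : t ≤ T₁) :
    A₀ * (t / ρ ^ 2) ^ (1 / 8 : ℝ) ≤ Dt m n K p Q A₀ ρ t y :=
  H924.le_Dt e y ht (by have := N.hT2; linarith)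

include e N in
theorem D_nonneg {t : ℝ} (ht : 0 < t) (htT : t ≤ T₁) : 0 ≤ Dt m n K p Q A₀ ρ t y :=
  le_trans (mul_nonneg N.hA₀.le (Real.rpow_nonneg (div_nonneg ht.le (sq_nonneg _)) _))
    (dlow e N ht htT)

include N H in
theorem N_nonneg {t : ℝ} (ht : 0 < t) (htT : t ≤ T₁) (v : E n) :
    0 ≤ Nt m K p u Q A₀ ρ (3 / 8) t y v v :=
  le_trans (mul_nonneg (mul_nonneg N.hA₀.le (Real.rpow_nonneg (div_nonneg ht.le (sq_nonneg _)) _))
    (sq_nonneg _)) (H.nlow t ht (htT.trans N.hT1) v)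

include N in
theorem th_pos {t : ℝ} (ht : 0 < t) : 0 < t / ρ ^ 2 := by have := N.hρ; positivity

include N in
theorem th_le {t : ℝ} (htT : t ≤ T₁) : t / ρ ^ 2 ≤ 1 := by
  have := N.hρ
  rw [div_le_one (by positivity)]
  exact htT.trans N.hT1

include e N H hu in
/-- `A₀ θ^{1/4} |v| ≤ X` -/
theorem X_ge_A {t : ℝ} (ht : 0 < t) (htT : t ≤ T₁) (v : E n) :
    A₀ * (t / ρ ^ 2) ^ (1 / 4 : ℝ) * ‖v‖ ≤ xE m K p u Q A₀ ρ t y v := by
  rw [xE_eq]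
  exact xx_ge_A N.hA₀.le (th_pos N ht) (norm_nonneg v) (Gm_nonneg' e hu ht v) (dlow e N ht htT)
    (H.nlow t ht (htT.trans N.hT1) v)

include e N H hu in
/-- `D √G ≤ X` -/
theorem X_ge_D {t : ℝ} (ht : 0 < t) (htT : t ≤ T₁) (v : E n) :
    Dt m n K p Q A₀ ρ t y * √(Gm m p u t y v v) ≤ xE m K p u Q A₀ ρ t y v := by
  rw [xE_eq]
  exact xx_ge_D (D_nonneg e N ht htT) (N_nonneg N H ht htT v) (Gm_nonneg' e hu ht v)

include e N H hu in
/-- `√D √N ≤ X` -/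
theorem X_ge_N {t : ℝ} (ht : 0 < t) (htT : t ≤ T₁) (v : E n) :
    √(Dt m n K p Q A₀ ρ t y) * √(Nt m K p u Q A₀ ρ (3 / 8) t y v v)
      ≤ xE m K p u Q A₀ ρ t y v := by
  rw [xE_eq]
  exact xx_ge_sqrt (D_nonneg e N ht htT) (N_nonneg N H ht htT v) (Gm_nonneg' e hu ht v)

include e N in
theorem sqrt_n_η : √(n : ℝ) * η ≤ A₀ := by
  refine le_trans ?_ N.hηA
  refine mul_le_mul_of_nonneg_right (Real.sqrt_le_sqrt ?_) N.hη
  have : (0 : ℝ) ≤ n := by positivity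
  linarith

include N in
theorem sqrt_th {t : ℝ} (ht : 0 < t) : √t / ρ = √(t / ρ ^ 2) := by
  rw [Real.sqrt_div ht.le, Real.sqrt_sq N.hρ.le]

include e N H hu in
/-- small term of first order -/
theorem small1 {t : ℝ} (ht : 0 < t) (htT : t ≤ T₁) (v : E n) :
    √t * (√n * ‖v‖ * (η / ρ)) ≤ xE m K p u Q A₀ ρ t y v := by
  have hρ := N.hρ
  have h1 : √t * (√n * ‖v‖ * (η / ρ)) = (√n * η) * √(t / ρ ^ 2) * ‖v‖ := by
    rw [← sqrt_th N ht]; field_simp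
  rw [h1]
  refine le_trans ?_ (X_ge_A e hu N H ht htT v)
  refine mul_le_mul_of_nonneg_right ?_ (norm_nonneg v)
  exact mul_le_mul (sqrt_n_η e N) (sqrt_le_quarter (th_pos N ht) (th_le N htT))
    (Real.sqrt_nonneg _) N.hA₀.le

include e N H hu in
/-- small term of second order -/
theorem small2 {t : ℝ} (ht : 0 < t) (htT : t ≤ T₁) (v : E n) :
    t * (√n * ‖v‖ * (η / ρ ^ 2)) ≤ xE m K p u Q A₀ ρ t y v := by
  have hρ := N.hρ
  have h1 : t * (√n * ‖v‖ * (η / ρ ^ 2)) = (√n * η) * (t / ρ ^ 2) * ‖v‖ := by field_simp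
  rw [h1]
  refine le_trans ?_ (X_ge_A e hu N H ht htT v)
  refine mul_le_mul_of_nonneg_right ?_ (norm_nonneg v)
  exact mul_le_mul (sqrt_n_η e N) (self_le_quarter (th_pos N ht) (th_le N htT))
    (th_pos N ht).le N.hA₀.le

include e N H hu in
/-- small term from the curvature -/
theorem small3 {t : ℝ} (ht : 0 < t) (htT : t ≤ T₁) (v : E n) :
    t * √(Gm m p u t y v v) ≤ xE m K p u Q A₀ ρ t y v := by
  have hρ := N.hρ
  refine le_trans ?_ (X_ge_D e hu N H ht htT v)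
  refine mul_le_mul_of_nonneg_right ?_ (Real.sqrt_nonneg _)
  refine le_trans ?_ (dlow e N ht htT)
  calc t = ρ ^ 2 * (t / ρ ^ 2) := by field_simp
    _ ≤ A₀ * (t / ρ ^ 2) ^ (1 / 8 : ℝ) :=
      mul_le_mul N.hρA (self_le_eighth (th_pos N ht) (th_le N htT)) (th_pos N ht).le N.hA₀.le

include H N in
/-- `G_σ ≤ 2 G_t` for `σ ≤ 2 t` -/
theorem G_near {t σ : ℝ} (ht : 0 < t) (htT : t ≤ T₁) (hσ : 0 < σ)
    (hσt : σ ≤ 2 * t) (v : E n) : Gm m p u σ y v v ≤ 2 * Gm m p u t y v v := by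
  rcases le_total σ t with h | h
  · exact H.up σ t hσ h (htT.trans N.hT1) v
  · have h2 := N.hT4
    refine H.dn t σ ht h (hσt.trans (mul_le_mul_of_nonneg_right ?_ ht.le)) (by linarith) v
    have := N.hΛ
    nlinarith

/-- kernel constant of `I_grow` -/
noncomputable def cE4 (n : ℕ) (A Λ : ℝ) : ℝ := cG n A (8 * A ^ 2 * Λ ^ 2) 0 * Real.exp (2 * A)

theorem cE4_nonneg {A Λ : ℝ} (hA : 1 ≤ A) (hΛ : 0 < Λ) : 0 ≤ cE4 n A Λ := by
  have := (cG_pos (n := n) (A := A) (Γ := 8 * A ^ 2 * Λ ^ 2) (C₀ := 0) hA (by positivity)).le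
  unfold cE4
  positivity

include e N H hu hy in
/-- `I_grow` at the vertex -/
theorem grow_le {t σ : ℝ} (ht : 0 < t) (htT : t ≤ T₁) (hσ : t / Λ ^ 2 ≤ σ) (hσt : σ ≤ 2 * t)
    (v : E n) {X : M →ₘ[m] ℝ} (hX : X ∈ (sob m).W) :
    PP m p σ y |(sob m).Γ X (uc u v)| ≤ cE4 n A Λ * (β * √(Gm m p u t y v v)) *
      PP m p (8 * A ^ 2 * t) y ((sob m).gr X) := by
  have F := H924.facts e.hyp
  have hA := e.kb.one_le
  have hA0 := e.kb.pos
  have hΛ := N.hΛ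
  have hΛ0 : 0 < Λ := by linarith
  have hσ0 : 0 < σ := lt_of_lt_of_le (by positivity) hσ
  have hβ : 0 ≤ β := zero_le_one.trans N.hβ
  have hG0 := Gm_nonneg' (y := y) e hu ht v
  have hyo := dist_le hu hy
  have k := I_grow F.gam.toIsDir e.ker e.kb (y := y) (s := σ) (s' := 8 * A ^ 2 * t)
    (Γ₀ := 8 * A ^ 2 * Λ ^ 2) hσ0 (by nlinarith [sq_nonneg A]) ?_ ?_ hX
    (F.gam.test_A (H924.uc_testI e hu v).1).1 (c := 1 / (2 * A * t)) (G := β * √(Gm m p u t y v v))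
    (by positivity) ?_ (by positivity) ?_
  · refine k.trans ?_
    have hI : 0 ≤ PP m p (8 * A ^ 2 * t) y ((sob m).gr X) := by
      refine I_nonneg (mul_nonneg (ph_nonneg e.ker (by positivity) y) ?_)
      rw [nonneg_iff_ae]
      filter_upwards [(sob m).gr_ae X] with z hz
      rw [hz]
      exact Real.sqrt_nonneg _
    refine mul_le_mul_of_nonneg_right ?_ hI
    refine mul_le_mul_of_nonneg_right ?_ (by positivity)
    unfold cE4
    have := (cG_pos (n := n) (A := A) (Γ := 8 * A ^ 2 * Λ ^ 2) (C₀ := 0) hA (by positivity)).le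
    refine mul_le_mul_of_nonneg_left (Real.exp_le_exp.2 ?_) this
    have : 2 * A * dist y o ≤ 2 * A * 1 := mul_le_mul_of_nonneg_left hyo (by positivity)
    linarith
  · have h1 : t ≤ Λ ^ 2 * σ := by
      rw [div_le_iff₀ (by positivity)] at hσ
      linarith
    calc 8 * A ^ 2 * t ≤ 8 * A ^ 2 * (Λ ^ 2 * σ) := mul_le_mul_of_nonneg_left h1 (by positivity)
      _ = _ := by ring
  · have := N.hT3
    have h2 : 8 * A ^ 2 * t ≤ 8 * A ^ 2 * T₁ := mul_le_mul_of_nonneg_left htT (by positivity)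
    linarith
  · have h3 : 1 / (2 * A * t) * (A * σ) = σ / (2 * t) := by field_simp
    rw [h3, div_le_one (by positivity)]
    exact hσt
  · filter_upwards [H.p3g t ht htT v] with z hz
    refine hz.trans (le_of_eq ?_)
    rw [mul_pow, Real.sq_sqrt hG0]

/-- the constant of `src_voc` -/
noncomputable def bSrc (n : ℕ) (K A Λ β : ℝ) : ℝ :=
  2 * β + 2 * β + β + cE4 n A Λ * β ^ 2 + (3 * |K| + 1) * (√2 * β) + 1

include e N H hu hy in
/-- the source of `Γ(b,u_v) - u_v` -/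
theorem src_voc {t s τ : ℝ} (ht : 0 < t) (htT : t ≤ T₁) (hs : t / Λ ^ 2 ≤ s) (hst : s ≤ t)
    (hτ : 0 < τ) (hτt : τ ≤ t) (v : E n) :
    √t * PP m p s y |(sob m).lap ((sob m).P τ ((sob m).Γ (bb m y t) (uc u v) - uc u v))|
      ≤ bSrc n K A Λ β * xE m K p u Q A₀ ρ t y v := by
  have F := H924.facts e.hyp
  have hC := F.gam
  have hA := e.kb.one_le
  have hA0 := e.kb.pos
  have hΛ := N.hΛ
  have hΛ0 : 0 < Λ := by linarith
  have hβ : 0 ≤ β := zero_le_one.trans N.hβ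
  have hs0 : 0 < s := lt_of_lt_of_le (by positivity) hs
  have hn := F.npos
  have hn1 : (1 : ℝ) ≤ n := by
    have : 0 < n := by exact_mod_cast hn
    exact_mod_cast this
  have hcen := H924.cen hC e y
  have hbT := (bb_testI e y ht).1
  have huT := (H924.uc_testI e hu v).1
  have hst' : 0 < √t := Real.sqrt_pos.2 ht
  set σ := s + τ with hσ
  have hσ0 : 0 < σ := add_pos hs0 hτ
  have hσ1 : t / Λ ^ 2 ≤ σ := by linarith
  have hσ2 : σ ≤ 2 * t := by linarith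
  have hσQ : σ ≤ Q * ρ ^ 2 := by have := N.hT2; linarith
  have key := src_cen (K := -|K|) (n := (n : ℝ)) (K₁ := |K| + 1) hC hn (H744.be_abs e.hyp).1 hcen hs0
    hτ hbT huT
  rw [← hσ] at key
  set X := xE m K p u Q A₀ ρ t y v with hX
  set D := Dt m n K p Q A₀ ρ t y with hD
  set Nn := Nt m K p u Q A₀ ρ (3 / 8) t y v v with hNn
  set G := Gm m p u t y v v with hG
  have hD0 : 0 ≤ D := D_nonneg e N ht htT
  have hN0 : 0 ≤ Nn := N_nonneg N H ht htT v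
  have hG0 : 0 ≤ G := Gm_nonneg' e hu ht v
  have hX0 : 0 ≤ X := le_trans (mul_nonneg hD0 (Real.sqrt_nonneg _)) (X_ge_D e hu N H ht htT v)
  have hbW := (hC.test_A hbT).1
  have huW := (hC.test_A huT).1
  have hlb := (hC.test_isLap hbT).2.1
  have hlu := (hC.test_isLap huT).2.1
  have hl1 := H924.uc_lap1 e hu v hy hσ0 hσQ
  have hl2 := H924.uc_lap2 e hu v hy hσ0 hσQ
  have hη := N.hη
  have hρ := N.hρ
  have hs1 : √(PP m p σ y ((sob m).lap (uc u v) ^ 2)) ≤ √n * ‖v‖ * (η / ρ) :=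
    (Real.sqrt_le_sqrt hl1).trans (by rw [Real.sqrt_sq (by positivity)])
  have hs2 : √(PP m p σ y ((sob m).Γ ((sob m).lap (uc u v)) ((sob m).lap (uc u v))))
      ≤ √n * ‖v‖ * (η / ρ ^ 2) :=
    (Real.sqrt_le_sqrt hl2).trans (by rw [Real.sqrt_sq (by positivity)])
  -- T1
  have T1 : √t * (2 * (√(H363.QQ (sob m) (-|K|) n (bb m y t) (bb m y t) (ph m p σ y))
      * √((sob m).NN (-|K|) (uc u v) (uc u v) (ph m p σ y)))) ≤ 2 * β * X := by
    have a1 : √(H363.QQ (sob m) (-|K|) n (bb m y t) (bb m y t) (ph m p σ y)) ≤ √β * √D := by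
      rw [← Real.sqrt_mul hβ]
      exact Real.sqrt_le_sqrt (H.qq σ t ht htT hσ1 hσ2)
    have a2 : √t * √((sob m).NN (-|K|) (uc u v) (uc u v) (ph m p σ y)) ≤ √β * √Nn := by
      rw [← Real.sqrt_mul ht.le, ← Real.sqrt_mul hβ]
      exact Real.sqrt_le_sqrt (H.gam σ t ht htT hσ1 hσ2 v)
    have a3 := X_ge_N e hu N H ht htT v
    calc _ = 2 * (√(H363.QQ (sob m) (-|K|) n (bb m y t) (bb m y t) (ph m p σ y))
          * (√t * √((sob m).NN (-|K|) (uc u v) (uc u v) (ph m p σ y)))) := by ring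
      _ ≤ 2 * ((√β * √D) * (√β * √Nn)) := by
          refine mul_le_mul_of_nonneg_left ?_ (by norm_num)
          exact mul_le_mul a1 a2 (by positivity) (by positivity)
      _ = 2 * (√β * √β) * (√D * √Nn) := by ring
      _ = 2 * β * (√D * √Nn) := by rw [Real.mul_self_sqrt hβ]
      _ ≤ 2 * β * X := mul_le_mul_of_nonneg_left a3 (by positivity)
  -- T2
  have T2 : √t * (2 * |(n : ℝ)⁻¹| * I (ph m p σ y * |(sob m).lap (bb m y t) *
      (sob m).lap (uc u v)|)) ≤ 2 * β * X := by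
    have a1 := cen_cs hcen hσ0 hlb hlu
    have a2 : √(PP m p σ y ((sob m).lap (bb m y t) ^ 2)) ≤ β :=
      (Real.sqrt_le_sqrt (H.lapb σ t ht htT hσ1 hσ2)).trans (by rw [Real.sqrt_sq hβ])
    have a3 : |(n : ℝ)⁻¹| ≤ 1 := by
      rw [abs_of_pos (inv_pos.2 hn)]
      exact inv_le_one_of_one_le₀ hn1
    have a4 : I (ph m p σ y * |(sob m).lap (bb m y t) * (sob m).lap (uc u v)|)
        ≤ β * (√n * ‖v‖ * (η / ρ)) :=
      a1.trans (mul_le_mul a2 hs1 (Real.sqrt_nonneg _) hβ)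
    have a5 := small1 e hu N H ht htT v
    have a6 : 0 ≤ √n * ‖v‖ * (η / ρ) := by positivity
    calc _ = |(n : ℝ)⁻¹| * (2 * (√t * I (ph m p σ y * |(sob m).lap (bb m y t) *
          (sob m).lap (uc u v)|))) := by ring
      _ ≤ 1 * (2 * (√t * (β * (√n * ‖v‖ * (η / ρ))))) := by
          refine mul_le_mul a3 ?_ ?_ zero_le_one
          · exact mul_le_mul_of_nonneg_left (mul_le_mul_of_nonneg_left a4 hst'.le) (by norm_num)
          · have : 0 ≤ I (ph m p σ y * |(sob m).lap (bb m y t) * (sob m).lap (uc u v)|) :=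
              I_nonneg (mul_nonneg (hcen.nonneg σ hσ0) (abs_nonneg _))
            positivity
      _ = 2 * β * (√t * (√n * ‖v‖ * (η / ρ))) := by ring
      _ ≤ 2 * β * X := mul_le_mul_of_nonneg_left a5 (by positivity)
  -- T3
  have T3 : √t * I (ph m p σ y * |(sob m).Γ (bb m y t) ((sob m).lap (uc u v))|) ≤ β * X := by
    have a1 := hcen.av_Γ_abs hC.toIsDir hσ0 hbW (hC.test_lap_mem huT)
    have a2 : √(PP m p σ y ((sob m).Γ (bb m y t) (bb m y t))) ≤ β * √t := by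
      refine (Real.sqrt_le_sqrt (H.gb σ t ht htT hσ1 hσ2)).trans ?_
      rw [Real.sqrt_mul (sq_nonneg β), Real.sqrt_sq hβ]
    have a3 := small2 e hu N H ht htT v
    calc _ ≤ √t * ((β * √t) * (√n * ‖v‖ * (η / ρ ^ 2))) :=
          mul_le_mul_of_nonneg_left (a1.trans (mul_le_mul a2 hs2 (Real.sqrt_nonneg _)
            (by positivity))) hst'.le
      _ = β * ((√t * √t) * (√n * ‖v‖ * (η / ρ ^ 2))) := by ring
      _ = β * (t * (√n * ‖v‖ * (η / ρ ^ 2))) := by rw [Real.mul_self_sqrt ht.le]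
      _ ≤ β * X := mul_le_mul_of_nonneg_left a3 hβ
  -- T4
  have T4 : √t * I (ph m p σ y * |(sob m).Γ (uc u v) ((sob m).lap (bb m y t)
      - (|K| + 1) • bb m y t)|) ≤ cE4 n A Λ * β ^ 2 * X := by
    have hXW : (sob m).lap (bb m y t) - (|K| + 1) • bb m y t ∈ (sob m).W :=
      hC.toIsDir.sub_mem (hC.test_lap_mem hbT) (hC.smul_mem _ _ hbW)
    have a1 := grow_le e hu hy N H ht htT hσ1 hσ2 v hXW
    rw [← hC.symm _ huW _ hXW] at a1
    have a2 := H.gnu t ht htT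
    have a3 := X_ge_D e hu N H ht htT v
    have hc := cE4_nonneg (n := n) hA hΛ0
    calc _ ≤ √t * (cE4 n A Λ * (β * √G) * (β * (D / √t))) := by
          refine mul_le_mul_of_nonneg_left (a1.trans ?_) hst'.le
          exact mul_le_mul_of_nonneg_left a2 (by positivity)
      _ = cE4 n A Λ * β ^ 2 * (D * √G) := by field_simp
      _ ≤ cE4 n A Λ * β ^ 2 * X := mul_le_mul_of_nonneg_left a3 (by positivity)
  -- T5
  have T5 : √t * ((2 * abs (-|K|) + abs (|K| + 1)) * I (ph m p σ y * |(sob m).Γ (bb m y t) (uc u v)|))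
      ≤ (3 * |K| + 1) * (√2 * β) * X := by
    have a1 := hcen.av_Γ_abs hC.toIsDir hσ0 hbW huW
    have a2 : √(PP m p σ y ((sob m).Γ (bb m y t) (bb m y t))) ≤ β * √t := by
      refine (Real.sqrt_le_sqrt (H.gb σ t ht htT hσ1 hσ2)).trans ?_
      rw [Real.sqrt_mul (sq_nonneg β), Real.sqrt_sq hβ]
    have a3 : √(PP m p σ y ((sob m).Γ (uc u v) (uc u v))) ≤ √2 * √G := by
      rw [← Real.sqrt_mul (by norm_num : (0 : ℝ) ≤ 2)]
      exact Real.sqrt_le_sqrt (G_near N H ht htT hσ0 hσ2 v)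
    have a4 := small3 e hu N H ht htT v
    have a5 : 2 * abs (-|K|) + abs (|K| + 1) = 3 * |K| + 1 := by
      have h0 := abs_nonneg K
      rw [abs_neg, abs_abs, abs_of_nonneg (by linarith : 0 ≤ |K| + 1)]
      ring
    have h0 := abs_nonneg K
    rw [a5]
    calc _ ≤ √t * ((3 * |K| + 1) * ((β * √t) * (√2 * √G))) := by
          refine mul_le_mul_of_nonneg_left ?_ hst'.le
          refine mul_le_mul_of_nonneg_left ?_ (by linarith)
          exact a1.trans (mul_le_mul a2 a3 (Real.sqrt_nonneg _) (by positivity))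
      _ = (3 * |K| + 1) * (√2 * β) * ((√t * √t) * √G) := by ring
      _ = (3 * |K| + 1) * (√2 * β) * (t * √G) := by rw [Real.mul_self_sqrt ht.le]
      _ ≤ (3 * |K| + 1) * (√2 * β) * X := mul_le_mul_of_nonneg_left a4 (by positivity)
  -- T6
  have T6 : √t * I (ph m p σ y * |(sob m).lap (uc u v)|) ≤ 1 * X := by
    have a1 := cen_abs hcen hσ0 hlu
    have a5 := small1 e hu N H ht htT v
    rw [one_mul]
    exact (mul_le_mul_of_nonneg_left (a1.trans hs1) hst'.le).trans a5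
  have hfin := mul_le_mul_of_nonneg_left key hst'.le
  refine hfin.trans ?_
  unfold bSrc
  linarith

end vtx

end Vale.Agent.P242.H655
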