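import Vale.Agent.P242.H655.E4Voc

/-! P242, package A-E4 (helper655): the recursion data `E4H` from `E4In`. -/

set_option linter.all false

open MeasureTheory Filter Topology Set Metric
open scoped ENNReal NNReal InnerProductSpace

universe u

namespace Vale.Agent.P242.H655

open Vale.Agent.P233 Vale.Agent.P233.RA Vale.Agent.P242.H990 Vale.Agent.P242.H71
open Vale.Agent.P242.H520 (pt)

variable {M : Type u} [MetricSpace M] [CompleteSpace M] [SecondCountableTopology M]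
  [MeasurableSpace M] [BorelSpace M] {m : Measure M} {n : ℕ} {K A : ℝ} {o : M}
  {p : ℝ → M → M → ℝ}
  {R Q η ρ A₀ Λ T₁ r₀ α κ₁ β : ℝ} {u : Fin n → M →ₘ[m] ℝ} {uu : M → E n} {y : M}
  (e : Env m n K o A p) (hu : Cfg m n K o p R Q η ρ u uu)
  (hy : y ∈ ball o (R * ρ)) (N : NumC n K A Q A₀ Λ ρ η T₁ β)
  (H : E4In m K A p u uu Q A₀ Λ ρ T₁ r₀ α κ₁ β y)

include e N in
theorem η_le_A : η ≤ A₀ := by
  have hn := (H924.facts e.hyp).npos
  have hn1 : (1 : ℝ) ≤ n := by
    have : 0 < n := by exact_mod_cast hn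
    exact_mod_cast this
  refine le_trans ?_ N.hηA
  have : 1 ≤ √(2 * (n : ℝ)) := Real.one_le_sqrt.2 (by linarith)
  exact le_mul_of_one_le_left N.hη this

include e hu N in
theorem Kt_le {t : ℝ} (ht : 0 < t) (htρ : t ≤ ρ ^ 2) : |K| * t ≤ 1 := by
  have h1 := hu.Kρ
  have h2 := η_le_A e N
  have h3 := N.hA₀1
  have : |K| * t ≤ |K| * ρ ^ 2 := mul_le_mul_of_nonneg_left htρ (abs_nonneg K)
  linarith

/-- the Poincaré constant -/
noncomputable def cP4 : ℝ := 2 * Real.exp 2 * √2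

theorem cP4_pos : 0 < cP4 := by unfold cP4; positivity

include e hu N in
/-- (K7) for `u_c` -/
theorem poi_voc {t : ℝ} (ht : 0 < t) (htT : t ≤ T₁) (c : E n) :
    PP m p t y |uc u c - PP m p t y (uc u c) • (1 : M →ₘ[m] ℝ)|
      ≤ cP4 * √t * √(Gm m p u t y c c) := by
  have F := H924.facts e.hyp
  have hC := F.gam
  have hcen := H924.cen hC e y
  have hT := (H924.uc_testI e hu c).1
  have hW := (hC.test_A hT).1
  have hfin : ∀ (x : M) (r : ℝ), m (ball x r) < ∞ := by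
    obtain ⟨θ, hN⟩ := F.nsp
    exact hN.fin
  haveI := e.hyp.full
  haveI := F.sf
  have h := poinc hfin hC (H744.be_abs e.hyp).2 e.ker ht hW y
  have hK := Kt_le e hu N ht (htT.trans N.hT1)
  have e1 : pt m p t (uc u c) y = PP m p t y (uc u c) := (I_ph_mul e.ker ht y _).symm
  have e2 : PP m p t y |uc u c - PP m p t y (uc u c) • (1 : M →ₘ[m] ℝ)|
      = pt m p t (fun z => |uc u c z - PP m p t y (uc u c)|) y := by
    unfold PP
    rw [I_ph_mul e.ker ht y]
    refine pt_congr e.ker ?_ t y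
    filter_upwards [abs_ae' (uc u c - I (ph m p t y * uc u c) • (1 : M →ₘ[m] ℝ)),
      sub_ae (uc u c) (I (ph m p t y * uc u c) • (1 : M →ₘ[m] ℝ)),
      smul_ae (1 : M →ₘ[m] ℝ) (I (ph m p t y * uc u c)), one_ae (M := M) (m := m)]
      with z h1 h2 h3 h4
    rw [h1, h2, h3, h4, mul_one]
  have e3 : pt m p t (fun z => √((sob m).Γ (uc u c) (uc u c) z)) y
      = I (ph m p t y * (sob m).gr (uc u c)) := by
    rw [I_ph_mul e.ker ht y]
    refine pt_congr e.ker ?_ t y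
    filter_upwards [(sob m).gr_ae (uc u c)] with z hz
    exact hz.symm
  rw [e2]
  rw [e1, e3] at h
  have h5 : I (ph m p t y * (sob m).gr (uc u c)) ≤ √(Gm m p u t y c c) :=
    hcen.av_gr hC.toIsDir ht hW
  have h6 : Real.exp (2 * abs (-|K|) * t) ≤ Real.exp 2 := by
    refine Real.exp_le_exp.2 ?_
    rw [abs_neg, abs_abs]
    linarith
  have h7 : √(2 * t) = √2 * √t := Real.sqrt_mul (by norm_num) t
  calc _ ≤ _ := h
    _ ≤ 2 * Real.exp 2 * √(2 * t) * √(Gm m p u t y c c) := by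
      refine mul_le_mul ?_ h5 ?_ (by positivity)
      · exact mul_le_mul_of_nonneg_right (mul_le_mul_of_nonneg_left h6 (by norm_num))
          (Real.sqrt_nonneg _)
      · refine I_nonneg (mul_nonneg (hcen.nonneg t ht) ?_)
        rw [nonneg_iff_ae]
        filter_upwards [(sob m).gr_ae (uc u c)] with z hz
        rw [hz]
        exact Real.sqrt_nonneg _
    _ = _ := by rw [h7, cP4]; ring

include e N H hu hy in
/-- the source of `u_c` -/
theorem srcu_voc {t s τ : ℝ} (ht : 0 < t) (htT : t ≤ T₁) (hs : t / Λ ^ 2 ≤ s) (hst : s ≤ t)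
    (hτ : 0 < τ) (hτt : τ ≤ t) (c : E n) :
    √t * PP m p s y |(sob m).lap ((sob m).P τ (uc u c))|
      ≤ A₀ * (t / ρ ^ 2) ^ (1 / 8 : ℝ) * √(Gm m p u t y c c) := by
  have F := H924.facts e.hyp
  have hC := F.gam
  have hΛ := N.hΛ
  have hs0 : 0 < s := lt_of_lt_of_le (by positivity) hs
  have hcen := H924.cen hC e y
  have huT := (H924.uc_testI e hu c).1
  have hst' : 0 < √t := Real.sqrt_pos.2 ht
  have hσ0 : 0 < s + τ := add_pos hs0 hτ
  have hσQ : s + τ ≤ Q * ρ ^ 2 := by have := N.hT2; linarith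
  have hlu := (hC.test_isLap huT).2.1
  have hη := N.hη
  have hρ := N.hρ
  have hl1 := H924.uc_lap1 e hu c hy hσ0 hσQ
  have hs1 : √(PP m p (s + τ) y ((sob m).lap (uc u c) ^ 2)) ≤ √n * ‖c‖ * (η / ρ) :=
    (Real.sqrt_le_sqrt hl1).trans (by rw [Real.sqrt_sq (by positivity)])
  have h1 : PP m p s y |(sob m).lap ((sob m).P τ (uc u c))| ≤ √n * ‖c‖ * (η / ρ) :=
    (srcu_cen hC hcen hs0 hτ huT).trans ((cen_abs hcen hσ0 hlu).trans hs1)
  have h2 := sqrt_le_G (th_pos N ht) (th_le N htT) (norm_nonneg c)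
    (H.low t ht (htT.trans N.hT1) c)
  have h8 : 0 ≤ (t / ρ ^ 2) ^ (1 / 8 : ℝ) := Real.rpow_nonneg (th_pos N ht).le _
  calc _ ≤ √t * (√n * ‖c‖ * (η / ρ)) := mul_le_mul_of_nonneg_left h1 hst'.le
    _ = (√n * η) * (√(t / ρ ^ 2) * ‖c‖) := by rw [← sqrt_th N ht]; field_simp
    _ ≤ (√n * η) * (√2 * ((t / ρ ^ 2) ^ (1 / 8 : ℝ) * √(Gm m p u t y c c))) :=
        mul_le_mul_of_nonneg_left h2 (by positivity)
    _ = (√(2 * n) * η) * ((t / ρ ^ 2) ^ (1 / 8 : ℝ) * √(Gm m p u t y c c)) := by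
        rw [Real.sqrt_mul (by norm_num : (0 : ℝ) ≤ 2)]; ring
    _ ≤ A₀ * ((t / ρ ^ 2) ^ (1 / 8 : ℝ) * √(Gm m p u t y c c)) :=
        mul_le_mul_of_nonneg_right N.hηA (by positivity)
    _ = _ := by ring

include e N H hu in
theorem eX_voc {t : ℝ} (ht : 0 < t) (htT : t ≤ T₁) (v : E n) :
    A₀ * (t / ρ ^ 2) ^ (1 / 8 : ℝ) * √(Gm m p u t y v v) ≤ xE m K p u Q A₀ ρ t y v :=
  (mul_le_mul_of_nonneg_right (dlow e N ht htT) (Real.sqrt_nonneg _)).trans
    (X_ge_D e hu N H ht htT v)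

include e N H hu hy in
/-- scale change -/
theorem sc_voc {t : ℝ} (ht : 0 < t) (htT : t ≤ T₁) (v : E n) :
    PP m p (t / Λ ^ 2) y |(sob m).Γ (bb m y (t / Λ ^ 2)) (uc u v) - (sob m).Γ (bb m y t) (uc u v)|
      ≤ (Λ * cE4 n A Λ * β ^ 2) * xE m K p u Q A₀ ρ t y v * (√t / Λ) := by
  have F := H924.facts e.hyp
  have hC := F.gam
  have hD := hC.toIsDir
  have hA := e.kb.one_le
  have hA0 := e.kb.pos
  have hΛ := N.hΛ
  have hΛ0 : 0 < Λ := by linarith
  have hβ : 0 ≤ β := zero_le_one.trans N.hβ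
  have ht' : 0 < t / Λ ^ 2 := by positivity
  have h1W := (hC.test_A (bb_testI e y ht').1).1
  have h2W := (hC.test_A (bb_testI e y ht).1).1
  have huW := (hC.test_A (H924.uc_testI e hu v).1).1
  have hle : t / Λ ^ 2 ≤ 2 * t := by
    rw [div_le_iff₀ (by positivity)]
    have : 1 ≤ Λ ^ 2 := by nlinarith
    nlinarith
  rw [← hD.Γ_sub_left h1W h2W huW]
  refine (grow_le e hu hy N H ht htT le_rfl hle v (hD.sub_mem h1W h2W)).trans ?_
  have a2 := H.scb t ht htT
  have a3 := X_ge_D e hu N H ht htT v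
  have hc := cE4_nonneg (n := n) hA hΛ0
  have hG0 := Gm_nonneg' (y := y) e hu ht v
  calc _ ≤ cE4 n A Λ * (β * √(Gm m p u t y v v)) * (β * (√t * Dt m n K p Q A₀ ρ t y)) :=
        mul_le_mul_of_nonneg_left a2 (by positivity)
    _ = (Λ * cE4 n A Λ * β ^ 2) * (Dt m n K p Q A₀ ρ t y * √(Gm m p u t y v v)) * (√t / Λ) := by
        field_simp
    _ ≤ _ := by
        refine mul_le_mul_of_nonneg_right ?_ (by positivity)
        exact mul_le_mul_of_nonneg_left a3 (by positivity)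

include e N H hu in
/-- a priori bound -/
theorem ap_voc {t : ℝ} (hα : 0 ≤ α) (ht : 0 < t) (htT : t ≤ T₁) (v : E n) :
    ∃ a : ℝ, PP m p t y |(sob m).Γ (bb m y t) (uc u v) - uc u v - a • (1 : M →ₘ[m] ℝ)|
      ≤ (α + cP4) * √(Gm m p u t y v v) * √t := by
  have F := H924.facts e.hyp
  have hC := F.gam
  have hD := hC.toIsDir
  have hcen := H924.cen hC e y
  have hbT := (bb_testI e y ht).1
  have huT := (H924.uc_testI e hu v).1
  have hbW := (hC.test_A hbT).1
  have huW := (hC.test_A huT).1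
  have hΓA := Γbu_A e hu y ht v
  refine ⟨-PP m p t y (uc u v), ?_⟩
  have e1 : (sob m).Γ (bb m y t) (uc u v) - uc u v - (-PP m p t y (uc u v)) • (1 : M →ₘ[m] ℝ)
      = (sob m).Γ (bb m y t) (uc u v) - (uc u v - PP m p t y (uc u v) • (1 : M →ₘ[m] ℝ)) := by
    rw [neg_smul]; abel
  rw [e1]
  have m2 := hcen.mem2 t ht
  have b1 := H196.I_wabs_sub_le (hcen.nonneg t ht) (Adm.of_2 m2 (hC.memLp _ hΓA.1))
    ((Adm.of_2 m2 (hC.memLp _ huW)).sub (Adm.const (hcen.mem1 t ht) (PP m p t y (uc u v))))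
  have b2 := poi_voc (y := y) e hu N ht htT v
  have b3 := hcen.av_Γ_abs hD ht hbW huW
  have b4 : √(PP m p t y ((sob m).Γ (bb m y t) (bb m y t))) ≤ α * √t := by
    refine (Real.sqrt_le_sqrt (H.gb0 t ht htT)).trans ?_
    rw [Real.sqrt_mul (sq_nonneg α), Real.sqrt_sq hα]
  have b5 : I (ph m p t y * |(sob m).Γ (bb m y t) (uc u v)|)
      ≤ (α * √t) * √(Gm m p u t y v v) :=
    b3.trans (mul_le_mul_of_nonneg_right b4 (Real.sqrt_nonneg _))
  calc _ ≤ _ := b1
    _ ≤ (α * √t) * √(Gm m p u t y v v) + cP4 * √t * √(Gm m p u t y v v) := add_le_add b5 b2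
    _ = _ := by ring

/-- the exponent `σ` -/
noncomputable def sg4 (A : ℝ) : ℝ := 1 / (16 * A ^ 4)

include e in
theorem sg4_pos : 0 < sg4 A := by
  have := e.kb.pos
  unfold sg4; positivity

include e in
theorem sg4_le : sg4 A ≤ 1 := by
  have hA := e.kb.one_le
  unfold sg4
  rw [div_le_one (by positivity)]
  have : 1 ≤ A ^ 4 := one_le_pow₀ hA
  linarith

include e hu N in
theorem k1_voc {t : ℝ} (ht : 0 < t) (htT : t ≤ T₁) (hyo : dist y o ≤ 1) {g : M →ₘ[m] ℝ}
    (hg : MemLp g 2 m) (a : ℝ) :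
    I (ph m p (sg4 A * t) y * (sob m).Γ ((sob m).P (sg4 A * t) g) ((sob m).P (sg4 A * t) g))
      ≤ ck1 n A (16 * A ^ 4) * Real.exp (10 * A) *
        (I (ph m p t y * |g - a • (1 : M →ₘ[m] ℝ)|) / √t) ^ 2 := by
  have F := H924.facts e.hyp
  have hC := F.gam
  have hA := e.kb.one_le
  have hA0 := e.kb.pos
  have hfin : ∀ (x : M) (r : ℝ), m (ball x r) < ∞ := by
    obtain ⟨θ, hN⟩ := F.nsp
    exact hN.fin
  have hσ := sg4_pos e
  have e0 : 16 * A ^ 4 * (sg4 A * t) = t := by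
    unfold sg4; field_simp
  have ht1 : t ≤ 1 / 2 := by
    have h1 := N.hT3
    have h2 : T₁ ≤ 8 * A ^ 2 * T₁ := le_mul_of_one_le_left N.hT.le (by nlinarith)
    linarith
  have h := (k1 hC e.ker e.kb hfin (Γ := 16 * A ^ 4) y (mul_pos hσ ht) e0.le e0.ge ht1 hg a).2
  have e2 : pt m p t (fun w => |g w - a|) y = I (ph m p t y * |g - a • (1 : M →ₘ[m] ℝ)|) := by
    rw [I_ph_mul e.ker ht y]
    refine pt_congr e.ker ?_ t y
    filter_upwards [abs_ae' (g - a • (1 : M →ₘ[m] ℝ)), sub_ae g (a • (1 : M →ₘ[m] ℝ)),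
      smul_ae (1 : M →ₘ[m] ℝ) a, one_ae (M := M) (m := m)] with z h1 h2 h3 h4
    rw [h1, h2, h3, h4, mul_one]
  rw [e2] at h
  refine h.trans ?_
  refine mul_le_mul_of_nonneg_right ?_ (sq_nonneg _)
  have hck : 0 ≤ ck1 n A (16 * A ^ 4) := by
    unfold ck1
    have := cG_pos (n := n) (A := A) (Γ := 16 * A ^ 4) (C₀ := 0) hA (by positivity)
    positivity
  refine mul_le_mul_of_nonneg_left (Real.exp_le_exp.2 ?_) hck
  have : 10 * A * dist y o ≤ 10 * A * 1 := mul_le_mul_of_nonneg_left hyo (by positivity)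
  linarith

include e N H hu hy in
/-- coercivity of the pairing -/
theorem co_voc (hA16 : A₀ ≤ 1 / 16) (hΛA : 4 * A ^ 2 ≤ Λ) {t : ℝ} (ht : 0 < t) (htT : t ≤ T₁)
    (c : E n) :
    Gm m p u t y c c / 4 ≤ I (ph m p (sg4 A * t) y *
      (sob m).Γ ((sob m).P (sg4 A * t) (uc u c)) (uc u c)) := by
  have F := H924.facts e.hyp
  have hC := F.gam
  have hD := hC.toIsDir
  have hA := e.kb.one_le
  have hA0 := e.kb.pos
  have hcen := H924.cen hC e y
  have huT := (H924.uc_testI e hu c).1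
  have huW := (hC.test_A huT).1
  have hσ := sg4_pos e
  have hσ1 := sg4_le e
  have hη := N.hη
  have hρ := N.hρ
  set τ := sg4 A * t with hτ
  have hτ0 : 0 < τ := mul_pos hσ ht
  have hτt : τ ≤ t := mul_le_of_le_one_left ht.le hσ1
  have hfW := hC.test_lap_mem huT
  have htop := hcen.top τ hτ0
  have h0 := hcen.nonneg τ hτ0
  set a := √n * ‖c‖ * (η / ρ ^ 2) with ha
  have ha0 : 0 ≤ a := by positivity
  -- the gradient of the difference
  have hE := H196.I_Γ_P_sub_le hC htop h0 (hC.test_isLap huT) hfW hτ0.le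
    (B := Real.exp 1 * a) (by positivity) (by
      intro s hs
      have hs1 : s ≤ t := hs.2.le.trans hτt
      have h1 := IsGamma.P_gradW hC (H744.be_abs e.hyp).2 hs.1 hfW h0 (hcen.mem2 τ hτ0) htop
      have h2 : (sob m).P s (ph m p τ y) = ph m p (τ + s) y := hcen.semi τ s hτ0 hs.1
      rw [h2] at h1
      have hσ0 : 0 < τ + s := by linarith [hs.1]
      have hσQ : τ + s ≤ Q * ρ ^ 2 := by have := N.hT2; linarith
      have hl2 := H924.uc_lap2 e hu c hy hσ0 hσQ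
      have hK : |K| * s ≤ 1 := by
        have h5 := Kt_le e hu N ht (htT.trans N.hT1)
        have : |K| * s ≤ |K| * t := mul_le_mul_of_nonneg_left hs1 (abs_nonneg K)
        linarith
      have h6 : Real.exp (-(2 * (-|K|) * s)) ≤ Real.exp 2 := by
        refine Real.exp_le_exp.2 ?_
        nlinarith
      refine h1.trans ?_
      calc _ ≤ Real.exp 2 * a ^ 2 := by
            refine mul_le_mul h6 hl2 ?_ (Real.exp_pos _).le
            exact I_nonneg (mul_nonneg (hcen.nonneg _ hσ0) (hC.nonneg _ hfW))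
        _ = (Real.exp 1 * a) ^ 2 := by
            rw [mul_pow (Real.exp 1) a, ← Real.exp_nat_mul]; norm_num)
  set G := Gm m p u t y c c with hG
  set Gτ := Gm m p u τ y c c with hGτ
  have hG0 : 0 ≤ G := Gm_nonneg' e hu ht c
  have hGτ0 : 0 ≤ Gτ := Gm_nonneg' e hu hτ0 c
  have hup : Gτ ≤ 2 * G := H.up τ t hτ0 hτt (htT.trans N.hT1) c
  have hdn : G ≤ 2 * Gτ := by
    refine H.dn τ t hτ0 hτt ?_ (htT.trans N.hT1) c
    have e0 : 16 * A ^ 4 * τ = t := by
      rw [hτ]; unfold sg4; field_simp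
    have h1 : 16 * A ^ 4 ≤ Λ ^ 2 := by
      calc 16 * A ^ 4 = (4 * A ^ 2) ^ 2 := by ring
        _ ≤ Λ ^ 2 := pow_le_pow_left₀ (by positivity) hΛA 2
    calc t = 16 * A ^ 4 * τ := e0.symm
      _ ≤ Λ ^ 2 * τ := mul_le_mul_of_nonneg_right h1 hτ0.le
  -- smallness
  have hsm : τ * (Real.exp 1 * a) ≤ Real.exp 1 * A₀ * √G := by
    have h2 := sqrt_le_G (th_pos N ht) (th_le N htT) (norm_nonneg c)
      (H.low t ht (htT.trans N.hT1) c)
    have h8 : (t / ρ ^ 2) ^ (1 / 8 : ℝ) ≤ 1 :=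
      Real.rpow_le_one (th_pos N ht).le (th_le N htT) (by norm_num)
    have h9 : t / ρ ^ 2 ≤ √(t / ρ ^ 2) := by
      have := Real.le_sqrt_of_sq_le (x := t / ρ ^ 2) (y := t / ρ ^ 2) (by
        have h3 := th_pos N ht
        have h4 := th_le N htT
        nlinarith)
      exact this
    have h10 : t * a ≤ A₀ * √G := by
      calc t * a = (√n * η) * ((t / ρ ^ 2) * ‖c‖) := by rw [ha]; field_simp
        _ ≤ (√n * η) * (√(t / ρ ^ 2) * ‖c‖) := by
            refine mul_le_mul_of_nonneg_left ?_ (by positivity)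
            exact mul_le_mul_of_nonneg_right h9 (norm_nonneg c)
        _ ≤ (√n * η) * (√2 * ((t / ρ ^ 2) ^ (1 / 8 : ℝ) * √G)) :=
            mul_le_mul_of_nonneg_left h2 (by positivity)
        _ ≤ (√n * η) * (√2 * (1 * √G)) := by
            refine mul_le_mul_of_nonneg_left ?_ (by positivity)
            refine mul_le_mul_of_nonneg_left ?_ (Real.sqrt_nonneg _)
            exact mul_le_mul_of_nonneg_right h8 (Real.sqrt_nonneg _)
        _ = (√(2 * n) * η) * √G := by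
            rw [Real.sqrt_mul (by norm_num : (0 : ℝ) ≤ 2)]; ring
        _ ≤ A₀ * √G := mul_le_mul_of_nonneg_right N.hηA (Real.sqrt_nonneg _)
    calc τ * (Real.exp 1 * a) = Real.exp 1 * (τ * a) := by ring
      _ ≤ Real.exp 1 * (t * a) := by
          refine mul_le_mul_of_nonneg_left ?_ (Real.exp_pos _).le
          exact mul_le_mul_of_nonneg_right hτt ha0
      _ ≤ Real.exp 1 * (A₀ * √G) := mul_le_mul_of_nonneg_left h10 (Real.exp_pos _).le
      _ = _ := by ring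
  -- the difference
  set Δu := (sob m).P τ (uc u c) - uc u c with hΔu
  have hPW := hD.P_memW τ huW
  have hΔW : Δu ∈ (sob m).W := hD.sub_mem hPW huW
  have hcs := H196.I_Γ_abs hC htop h0 hΔW huW
  have hE' : √(I (ph m p τ y * (sob m).Γ Δu Δu)) ≤ τ * (Real.exp 1 * a) := by
    refine (Real.sqrt_le_sqrt hE).trans (by rw [Real.sqrt_sq (by positivity)])
  have e1 : I (ph m p τ y * (sob m).Γ ((sob m).P τ (uc u c)) (uc u c))
      = Gτ + I (ph m p τ y * (sob m).Γ Δu (uc u c)) := by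
    have e2 : (sob m).P τ (uc u c) = uc u c + Δu := by rw [hΔu]; abel
    have e3 : (sob m).Γ ((sob m).P τ (uc u c)) (uc u c)
        = (sob m).Γ (uc u c) (uc u c) + (sob m).Γ Δu (uc u c) := by
      rw [e2, hC.add_left _ huW _ hΔW _ huW]
    rw [e3, mul_add, I_add (mem_mul_top htop (hC.Γ_mem1 huW huW))
      (mem_mul_top htop (hC.Γ_mem1 hΔW huW))]
    rfl
  rw [e1]
  have h11 : |I (ph m p τ y * (sob m).Γ Δu (uc u c))| ≤ (Real.exp 1 * A₀ * √G) * (√2 * √G) := by
    refine hcs.trans ?_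
    refine mul_le_mul (hE'.trans hsm) ?_ (Real.sqrt_nonneg _) ?_
    · rw [← Real.sqrt_mul (by norm_num : (0 : ℝ) ≤ 2)]
      exact Real.sqrt_le_sqrt hup
    · have := N.hA₀.le
      positivity
  have h12 : (Real.exp 1 * A₀ * √G) * (√2 * √G) ≤ G / 4 := by
    have h13 : √G * √G = G := Real.mul_self_sqrt hG0
    have h14 : Real.exp 1 * √2 ≤ 4 := by
      have h15 : Real.exp 1 ≤ 2.7182818286 := Real.exp_one_lt_d9.le
      have h16 : √2 ≤ 1.4143 := by
        rw [Real.sqrt_le_left (by norm_num)]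
        norm_num
      nlinarith [Real.sqrt_nonneg 2, Real.exp_pos 1]
    calc (Real.exp 1 * A₀ * √G) * (√2 * √G) = (Real.exp 1 * √2) * A₀ * (√G * √G) := by ring
      _ = (Real.exp 1 * √2) * A₀ * G := by rw [h13]
      _ ≤ 4 * (1 / 16) * G := by
          refine mul_le_mul_of_nonneg_right ?_ hG0
          exact mul_le_mul h14 hA16 N.hA₀.le (by norm_num)
      _ = G / 4 := by ring
  have h17 := (abs_le.1 (h11.trans h12)).1
  linarith

end Vale.Agent.P242.H655
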