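import Vale.Agent.P242.H655.E4VocB
import Vale.Agent.P242.H155.Inv

/-! P242, package A-E4 (helper655): `E4In` implies `E4Out`. -/

set_option linter.all false

open MeasureTheory Filter Topology Set Metric
open scoped ENNReal NNReal InnerProductSpace

universe u

namespace Vale.Agent.P242.H655

open Vale.Agent.P233 Vale.Agent.P233.RA Vale.Agent.P242.H990 Vale.Agent.P242.H71

variable {M : Type u} [MetricSpace M] [CompleteSpace M] [SecondCountableTopology M]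
  [MeasurableSpace M] [BorelSpace M] {m : Measure M} {n : ℕ} {K A : ℝ} {o : M}
  {p : ℝ → M → M → ℝ}
  {R Q η ρ A₀ Λ T₁ r₀ α κ₁ β : ℝ} {u : Fin n → M →ₘ[m] ℝ} {uu : M → E n} {y : M}

theorem rr_succ (r₀ Λ : ℝ) (k : ℕ) : rr r₀ Λ (k + 1) = rr r₀ Λ k / Λ := by
  unfold rr
  rw [pow_succ, div_div]

theorem rr_pos' {r₀ Λ : ℝ} (h : 0 < r₀) (hΛ : 0 < Λ) (k : ℕ) : 0 < rr r₀ Λ k := by
  unfold rr; positivity

theorem rr_le' {r₀ Λ : ℝ} (h : 0 < r₀) (hΛ : 1 ≤ Λ) (k : ℕ) : rr r₀ Λ k ≤ r₀ := by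
  unfold rr
  exact div_le_self h.le (one_le_pow₀ hΛ)

/-- kernel constant of the recursion -/
noncomputable def aE (n : ℕ) (A α : ℝ) : ℝ :=
  4 + ck1 n A (16 * A ^ 4) * Real.exp (10 * A) + cP4 + α

/-- constant of the recursion (depends on `Λ`) -/
noncomputable def bE (n : ℕ) (K A Λ β : ℝ) : ℝ :=
  bSrc n K A Λ β + Λ * cE4 n A Λ * β ^ 2 + β + 1

theorem ck1_nonneg {A : ℝ} (hA : 1 ≤ A) : 0 ≤ ck1 n A (16 * A ^ 4) := by
  unfold ck1
  have := cG_pos (n := n) (A := A) (Γ := 16 * A ^ 4) (C₀ := 0) hA (by positivity)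
  positivity

theorem psd_GF (e : Env m n K o A p) (hu : Cfg m n K o p R Q η ρ u uu) {t : ℝ} (ht : 0 < t) :
    H155.PSD (H751.GF (H924.facts e.hyp).gam e.ker hu ht y) where
  symm c d := H751.Gm_symm (H924.facts e.hyp).gam hu c d
  nonneg c := Gm_nonneg' e hu ht c

/-- **`E4H` in the frozen vocabulary.** -/
theorem e4H_voc (e : Env m n K o A p) (hu : Cfg m n K o p R Q η ρ u uu)
    (hy : y ∈ ball o (R * ρ)) (N : NumC n K A Q A₀ Λ ρ η T₁ β)
    (H : E4In m K A p u uu Q A₀ Λ ρ T₁ r₀ α κ₁ β y) (hα : 0 ≤ α) (hκ : 0 ≤ κ₁)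
    (hA16 : A₀ ≤ 1 / 16) (hΛA : 4 * A ^ 2 ≤ Λ) (hr₀ : 0 < r₀) (hr : r₀ ^ 2 ≤ T₁) :
    ∃ Ns : ℕ → Seminorm ℝ (E n), (∀ k c, Ns k c = nG m p u (rr r₀ Λ k ^ 2) y c) ∧
      E4H (sob m) (fun s => ph m p s y) (ul u) (fun k => bb m y (rr r₀ Λ k ^ 2)) Ns
        (fun k v => xE m K p u Q A₀ ρ (rr r₀ Λ k ^ 2) y v) (fun k => rr r₀ Λ k)
        (fun k => A₀ * (rr r₀ Λ k ^ 2 / ρ ^ 2) ^ (1 / 8 : ℝ)) (sg4 A) (aE n A α) κ₁
        (bE n K A Λ β) (2 * √Λ) := by
  have F := H924.facts e.hyp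
  have hC := F.gam
  have hD := hC.toIsDir
  have hA := e.kb.one_le
  have hΛ := N.hΛ
  have hΛ0 : 0 < Λ := by linarith
  have hΛ1 : 1 ≤ Λ := by linarith
  have hβ1 := N.hβ
  have hβ : 0 ≤ β := zero_le_one.trans hβ1
  have hcen := H924.cen hC e y
  have hyo := dist_le hu hy
  have rp : ∀ k, 0 < rr r₀ Λ k := rr_pos' hr₀ hΛ0
  have tp : ∀ k, 0 < rr r₀ Λ k ^ 2 := fun k => pow_pos (rp k) 2
  have tT : ∀ k, rr r₀ Λ k ^ 2 ≤ T₁ := fun k =>
    (pow_le_pow_left₀ (rp k).le (rr_le' hr₀ hΛ1 k) 2).trans hr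
  have ts : ∀ k, rr r₀ Λ (k + 1) ^ 2 = rr r₀ Λ k ^ 2 / Λ ^ 2 := fun k => by
    rw [rr_succ, div_pow]
  have sq : ∀ k, √(rr r₀ Λ k ^ 2) = rr r₀ Λ k := fun k => Real.sqrt_sq (rp k).le
  have hck := ck1_nonneg (n := n) hA
  have hcP := cP4_pos
  have hc4 := cE4_nonneg (n := n) hA hΛ0
  have hexp : 0 ≤ ck1 n A (16 * A ^ 4) * Real.exp (10 * A) := by positivity
  have haE : 4 ≤ aE n A α := by unfold aE; linarith
  have haE0 : 0 < aE n A α := by linarith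
  have hsrc : 0 ≤ bSrc n K A Λ β := by
    have := abs_nonneg K
    unfold bSrc
    positivity
  have hbE1 : bSrc n K A Λ β ≤ bE n K A Λ β := by
    have : 0 ≤ Λ * cE4 n A Λ * β ^ 2 := by positivity
    unfold bE; linarith
  have hbE2 : Λ * cE4 n A Λ * β ^ 2 ≤ bE n K A Λ β := by unfold bE; linarith
  have hbE3 : β ≤ bE n K A Λ β := by
    have : 0 ≤ Λ * cE4 n A Λ * β ^ 2 := by positivity
    unfold bE; linarith
  have hbE4 : 1 ≤ bE n K A Λ β := hβ1.trans hbE3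
  have hbE0 : 0 ≤ bE n K A Λ β := by linarith
  have Gn : ∀ k (c : E n), 0 ≤ Gm m p u (rr r₀ Λ k ^ 2) y c c := fun k c =>
    Gm_nonneg' e hu (tp k) c
  have hN : ∀ k (c : E n), H155.fsem (H751.GF hC e.ker hu (tp k) y) c
      = √(Gm m p u (rr r₀ Λ k ^ 2) y c c) := fun k c => (psd_GF e hu (tp k)).fsem_apply c
  have hX0 : ∀ k (v : E n), 0 ≤ xE m K p u Q A₀ ρ (rr r₀ Λ k ^ 2) y v := fun k v =>
    xx_nonneg _ _ _
  refine ⟨fun k => H155.fsem (H751.GF hC e.ker hu (tp k) y), hN, ?_⟩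
  have hup : ∀ k (c : E n), Gm m p u (rr r₀ Λ (k + 1) ^ 2) y c c
      ≤ 2 * Gm m p u (rr r₀ Λ k ^ 2) y c c := fun k c => by
    refine H.up _ _ (tp (k + 1)) ?_ ((tT k).trans N.hT1) c
    rw [ts]
    exact div_le_self (tp k).le (one_le_pow₀ hΛ1)
  have hdn : ∀ k (c : E n), Gm m p u (rr r₀ Λ k ^ 2) y c c
      ≤ 2 * Gm m p u (rr r₀ Λ (k + 1) ^ 2) y c c := fun k c => by
    refine H.dn _ _ (tp (k + 1)) ?_ ?_ ((tT k).trans N.hT1) c
    · rw [ts]
      exact div_le_self (tp k).le (one_le_pow₀ hΛ1)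
    · rw [ts]
      exact le_of_eq (by field_simp)
  have lvl : ∀ k, Lvl (sob m) (fun s => ph m p s y) (ul u)
      (H155.fsem (H751.GF hC e.ker hu (tp k) y)) (rr r₀ Λ k) (sg4 A) (aE n A α) := by
    intro k
    refine ⟨rp k, sg4_pos e, by linarith, ?_, ?_, ?_, ?_, ?_⟩
    · intro c hc
      rw [hN]
      refine Real.sqrt_pos.2 ?_
      have h1 := H.low _ (tp k) ((tT k).trans N.hT1) c
      have h2 : 0 < ‖c‖ := norm_pos_iff.2 hc
      have h3 : 0 < (rr r₀ Λ k ^ 2 / ρ ^ 2) ^ (1 / 8 : ℝ) :=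
        Real.rpow_pos_of_pos (th_pos N (tp k)) _
      have h4 : 0 < (rr r₀ Λ k ^ 2 / ρ ^ 2) ^ (1 / 8 : ℝ) * ‖c‖ ^ 2 := by positivity
      linarith
    · intro c
      rw [hN, Real.sq_sqrt (Gn k c)]
      refine le_trans ?_ (co_voc e hu hy N H hA16 hΛA (tp k) (tT k) c)
      have h1 : (aE n A α)⁻¹ ≤ 4⁻¹ := inv_anti₀ (by norm_num) haE
      calc (aE n A α)⁻¹ * Gm m p u (rr r₀ Λ k ^ 2) y c c
          ≤ 4⁻¹ * Gm m p u (rr r₀ Λ k ^ 2) y c c := mul_le_mul_of_nonneg_right h1 (Gn k c)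
        _ = _ := by ring
    · intro c
      rw [hN, Real.sq_sqrt (Gn k c)]
      have h1 : Gm m p u (sg4 A * rr r₀ Λ k ^ 2) y c c ≤ 2 * Gm m p u (rr r₀ Λ k ^ 2) y c c :=
        H.up _ _ (mul_pos (sg4_pos e) (tp k)) (mul_le_of_le_one_left (tp k).le (sg4_le e))
          ((tT k).trans N.hT1) c
      refine le_trans (le_of_eq rfl) (h1.trans ?_)
      exact mul_le_mul_of_nonneg_right (by linarith) (Gn k c)
    · intro g hg a
      have h1 := k1_voc (y := y) e hu N (tp k) (tT k) hyo hg a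
      rw [sq] at h1
      refine h1.trans ?_
      refine mul_le_mul_of_nonneg_right ?_ (sq_nonneg _)
      unfold aE
      linarith
    · intro c
      rw [hN]
      have h1 := poi_voc (y := y) e hu N (tp k) (tT k) c
      rw [sq] at h1
      refine le_trans (le_of_eq rfl) (h1.trans ?_)
      refine mul_le_mul_of_nonneg_right ?_ (Real.sqrt_nonneg _)
      refine mul_le_mul_of_nonneg_right ?_ (rp k).le
      unfold aE
      linarith
  refine ⟨hcen, lvl, ?_, ?_, ?_, hκ, hbE0, by positivity, ?_, hX0, ?_, ?_, ?_, ?_, ?_, ?_, ?_,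
    ?_, ?_⟩
  · exact fun c => hC.test_A (H924.uc_testI e hu c).1
  · exact fun k => (hC.test_A (bb_testI e y (tp k)).1).1
  · exact fun k v => Γbu_A e hu y (tp k) v
  · -- N2
    intro k c
    rw [hN, hN]
    have h1 : √(Gm m p u (rr r₀ Λ (k + 1) ^ 2) y c c) ≤ √(2 ^ 2 * Gm m p u (rr r₀ Λ k ^ 2) y c c) := by
      refine Real.sqrt_le_sqrt ((hup k c).trans ?_)
      have := Gn k c
      linarith
    rwa [Real.sqrt_mul (by norm_num), Real.sqrt_sq (by norm_num)] at h1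
  · -- XQ
    intro k v
    have h1 := H.dstep _ (tp k) (tT k)
    have h2 := H.nstep _ (tp k) (tT k) v
    rw [← ts] at h1 h2
    exact xx_step hΛ1 (D_nonneg e N (tp k) (tT k)) (D_nonneg e N (tp (k + 1)) (tT (k + 1)))
      (N_nonneg N H (tp (k + 1)) (tT (k + 1)) v) (Gn k v) (Gn (k + 1) v) h1 h2 (hdn k v)
  · -- dl
    intro k g hg a S hS
    set t := rr r₀ Λ k ^ 2 with ht
    have hrk := rp k
    have htk := tp k
    have hS0 : 0 ≤ S := by
      have h1 := hS t t (by rw [ts]; exact div_le_self htk.le (one_le_pow₀ hΛ1)) le_rfl htk le_rfl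
      refine le_trans ?_ h1
      exact mul_nonneg hrk.le (I_nonneg (mul_nonneg (hcen.nonneg t htk) (abs_nonneg _)))
    obtain ⟨c₁, c, h1, h2⟩ := H.dl t htk (tT k) g (hC.memLp _ hg.1) hg.2 a (S / rr r₀ Λ k)
      (by positivity) (fun s τ a1 a2 a3 a4 => by
        rw [le_div_iff₀ hrk, mul_comm]
        exact hS s τ (by rw [ts]; exact a1) a2 a3 a4)
    refine ⟨c, c₁, ?_, ?_⟩
    · rw [hN]
      rw [sq k] at h2
      refine h2.trans ?_
      rw [mul_div_assoc]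
      refine mul_le_mul_of_nonneg_right ?_ (div_nonneg (I_nonneg (mul_nonneg (hcen.nonneg t htk)
        (abs_nonneg _))) hrk.le)
      unfold aE; linarith
    · have e1 : g - ul u c - c₁ • (1 : M →ₘ[m] ℝ) = g - c₁ • (1 : M →ₘ[m] ℝ) - uc u c := by
        rw [ul_apply]; abel
      rw [e1, rr_succ, div_pow, ← ht]
      have hr' : 0 < rr r₀ Λ k / Λ := by positivity
      rw [div_le_iff₀ hr']
      refine h1.trans (le_trans (le_of_eq ?_) (mul_le_mul_of_nonneg_right (add_le_add le_rfl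
        (mul_le_mul_of_nonneg_right hbE3 hS0)) hr'.le))
      rw [ht]
      change Λ⁻¹ * (κ₁ * I (ph m p (rr r₀ Λ k ^ 2) y * |g - a • (1 : M →ₘ[m] ℝ)|)
        + β * rr r₀ Λ k ^ 2 * (S / rr r₀ Λ k)) = _
      field_simp
  · -- src
    intro k v s τ a1 a2 a3 a4
    have h1 := src_voc e hu hy N H (tp k) (tT k) (by rw [← ts]; exact a1) a2 a3 a4 v
    rw [sq k] at h1
    refine le_trans (le_of_eq rfl) (h1.trans ?_)
    exact mul_le_mul_of_nonneg_right hbE1 (hX0 k v)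
  · -- srcu
    intro k c s τ a1 a2 a3 a4
    have h1 := srcu_voc e hu hy N H (tp k) (tT k) (by rw [← ts]; exact a1) a2 a3 a4 c
    rw [sq k] at h1
    rw [hN]
    exact h1
  · intro k
    exact mul_nonneg N.hA₀.le (Real.rpow_nonneg (th_pos N (tp k)).le _)
  · -- eX
    intro k v
    rw [hN]
    exact eX_voc e hu N H (tp k) (tT k) v
  · -- sc
    intro k v
    have h1 := sc_voc e hu hy N H (tp k) (tT k) v
    rw [sq k, ← ts, ← rr_succ] at h1
    rw [div_le_iff₀ (rp (k + 1))]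
    refine le_trans (le_of_eq rfl) (h1.trans ?_)
    refine mul_le_mul_of_nonneg_right ?_ (rp (k + 1)).le
    exact mul_le_mul_of_nonneg_right hbE2 (hX0 k v)
  · -- ap
    intro k v
    obtain ⟨a, ha⟩ := ap_voc (y := y) e hu N H hα (tp k) (tT k) v
    refine ⟨a, ?_⟩
    rw [sq k] at ha
    rw [hN, div_le_iff₀ (rp k)]
    refine le_trans (le_of_eq rfl) (ha.trans ?_)
    refine mul_le_mul_of_nonneg_right ?_ (rp k).le
    refine mul_le_mul_of_nonneg_right ?_ (Real.sqrt_nonneg _)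
    unfold aE
    linarith
  · -- start
    intro v
    obtain ⟨a, ha⟩ := H.start v
    refine ⟨0, a, ?_⟩
    have e0 : rr r₀ Λ 0 = r₀ := by unfold rr; simp
    rw [map_zero, sub_zero]
    simp only [e0]
    rw [div_le_iff₀ hr₀]
    refine le_trans (le_of_eq rfl) (ha.trans ?_)
    have h1 := X_ge_A (y := y) e hu N H (tp 0) (tT 0) v
    rw [e0] at h1
    have h2 : r₀ * (A₀ * (r₀ ^ 2 / ρ ^ 2) * ‖v‖) ≤ r₀ * xE m K p u Q A₀ ρ (r₀ ^ 2) y v := by
      refine mul_le_mul_of_nonneg_left (le_trans ?_ h1) hr₀.le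
      refine mul_le_mul_of_nonneg_right ?_ (norm_nonneg v)
      refine mul_le_mul_of_nonneg_left ?_ N.hA₀.le
      have t0 : 0 < r₀ ^ 2 := by positivity
      exact self_le_quarter (th_pos N t0) (th_le N hr)
    have hX00 := hX0 0 v
    rw [e0] at hX00
    calc _ ≤ _ := h2
      _ = 1 * xE m K p u Q A₀ ρ (r₀ ^ 2) y v * r₀ := by ring
      _ ≤ bE n K A Λ β * xE m K p u Q A₀ ρ (r₀ ^ 2) y v * r₀ := by
        refine mul_le_mul_of_nonneg_right ?_ hr₀.le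
        exact mul_le_mul_of_nonneg_right hbE4 hX00

end Vale.Agent.P242.H655
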