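import Vale.Agent.P242.H655.E4End
import Vale.Agent.P242.H771.Sub
import Vale.Agent.P242.H520.St8

/-! P242, package A-E4 (helper655): `SB_E4` from the decay lemma. -/

set_option linter.all false

open MeasureTheory Filter Topology Set Metric
open scoped ENNReal NNReal InnerProductSpace

universe u

namespace Vale.Agent.P242.H655

open Vale.Agent.P233 Vale.Agent.P233.RA Vale.Agent.P242.H990 Vale.Agent.P242.H71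

section num

theorem exists_le_list (l : List ℝ) (h : ∀ x ∈ l, 0 < x) : ∃ y, 0 < y ∧ ∀ x ∈ l, y ≤ x := by
  induction l with
  | nil => exact ⟨1, one_pos, by simp⟩
  | cons a l ih =>
    obtain ⟨y, hy, hl⟩ := ih fun x hx => h x (List.mem_cons_of_mem _ hx)
    refine ⟨min a y, lt_min (h a (by simp)) hy, ?_⟩
    intro x hx
    rcases List.mem_cons.1 hx with rfl | hx
    · exact min_le_left _ _
    · exact (min_le_right _ _).trans (hl x hx)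

theorem exists_ge_list (l : List ℝ) : ∃ y, 1 ≤ y ∧ ∀ x ∈ l, x ≤ y := by
  induction l with
  | nil => exact ⟨1, le_rfl, by simp⟩
  | cons a l ih =>
    obtain ⟨y, hy, hl⟩ := ih
    refine ⟨max a y, hy.trans (le_max_right _ _), ?_⟩
    intro x hx
    rcases List.mem_cons.1 hx with rfl | hx
    · exact le_max_left _ _
    · exact (hl x hx).trans (le_max_right _ _)

/-- an exponent -/
theorem exists_exp {X : ℝ} (hX : 1 ≤ X) : ∃ a : ℝ, 0 < a ∧ ∀ b, b ≤ a → X ^ b ≤ 2 := by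
  have hX0 : 0 < X := by linarith
  have hc : Continuous fun b : ℝ => X ^ b := Real.continuous_const_rpow hX0.ne'
  have h1 : Tendsto (fun b : ℝ => X ^ b) (𝓝 0) (𝓝 1) := by
    have := hc.tendsto 0
    rwa [Real.rpow_zero] at this
  have h2 : ∀ᶠ b in 𝓝 (0 : ℝ), X ^ b < 2 := h1.eventually (gt_mem_nhds (by norm_num))
  obtain ⟨δ, hδ, h3⟩ := Metric.eventually_nhds_iff.1 h2
  refine ⟨δ / 2, by positivity, fun b hb => ?_⟩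
  have h4 : X ^ (δ / 2) < 2 := h3 (by rw [dist_zero_right, Real.norm_eq_abs, abs_of_pos (by positivity)]; linarith)
  exact (Real.rpow_le_rpow_of_exponent_le hX hb).trans h4.le

end num

variable {M : Type u} [MetricSpace M] [CompleteSpace M] [SecondCountableTopology M]
  [MeasurableSpace M] [BorelSpace M] {m : Measure M} {n : ℕ} {K A : ℝ} {o : M}
  {p : ℝ → M → M → ℝ}

/-- The decay lemma of helper542 in the form used here (weaker than `H542.Blk_DLX`). -/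
def DLb (m : Measure M) (n : ℕ) (K : ℝ) (o : M) (p : ℝ → M → M → ℝ) : Prop :=
  ∃ C : ℝ, 1 ≤ C ∧ ∀ Λ : ℝ, C ≤ Λ → ∃ CL : ℝ, 1 ≤ CL ∧
  ∃ Q₀, 1 ≤ Q₀ ∧ ∀ Q, Q₀ ≤ Q → ∃ R₀, 1 ≤ R₀ ∧ ∀ R, R₀ ≤ R → ∀ e, 0 < e → ∃ ε₁, 0 < ε₁ ∧
    ∀ ε' η ρ, 0 < ε' → ε' ≤ ε₁ → 0 < η → η ≤ ε₁ → ρ ≤ ε₁ →
      ∀ (u : Fin n → M →ₘ[m] ℝ) (uu : M → E n), Cfg m n K o p R Q η ρ u uu →
        ∀ x ∈ ball o (R / 2 * ρ), ∀ t, 0 < t → t ≤ ρ ^ 2 → H155.TTx m K p Q ε' ρ u x (t / Λ ^ 2) →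
          ∀ F : M →ₘ[m] ℝ, MemLp F 2 m → MemLp F ∞ m → ∀ c₀ S : ℝ, 0 ≤ S →
            (∀ s τ, t / Λ ^ 2 ≤ s → s ≤ t → 0 < τ → τ ≤ t →
              PP m p s x |(sob m).lap ((sob m).P τ F)| ≤ S) →
            ∃ (c₁ : ℝ) (c : E n), PP m p (t / Λ ^ 2) x |F - c₁ • (1 : M →ₘ[m] ℝ) - uc u c|
                ≤ Λ⁻¹ * ((C / Λ + e) * PP m p t x |F - c₀ • (1 : M →ₘ[m] ℝ)| + CL * t * S) ∧
              √(Gm m p u t x c c) ≤ C * PP m p t x |F - c₀ • (1 : M →ₘ[m] ℝ)| / √t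

theorem cfg_monoQ {R Q Q' η ρ : ℝ} {u : Fin n → M →ₘ[m] ℝ} {uu : M → E n} (hQ' : 0 < Q')
    (hQ : Q' ≤ Q) (hu : Cfg m n K o p R Q η ρ u uu) : Cfg m n K o p R Q' η ρ u uu := by
  have hρ := hu.ρ_pos
  have hρ2 : 0 < ρ ^ 2 := by positivity
  have h1 : Q' * ρ ^ 2 ≤ Q * ρ ^ 2 := mul_le_mul_of_nonneg_right hQ hρ2.le
  have h2 : ρ ^ 2 / Q ≤ ρ ^ 2 / Q' := div_le_div_of_nonneg_left hρ2.le hQ' hQ
  exact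
    { ρ_pos := hρ
      Rρ := hu.Rρ
      Qρ := h1.trans hu.Qρ
      Kρ := hu.Kρ
      test := hu.test
      cont := hu.cont
      rep := hu.rep
      grad := hu.grad
      lap1 := fun x hx s hs hs2 i => hu.lap1 x hx s hs (hs2.trans h1) i
      lap2 := fun x hx s hs hs2 i => hu.lap2 x hx s hs (hs2.trans h1) i
      gram := fun x hx s hs1 hs2 c c' => hu.gram x hx s (h2.trans hs1) (hs2.trans h1) c c'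
      gram1 := fun x hx s hs1 hs2 c c' => hu.gram1 x hx s (h2.trans hs1) (hs2.trans h1) c c'
      gam := fun x hx s hs1 hs2 c => hu.gam x hx s (h2.trans hs1) (hs2.trans h1) c
      iso := hu.iso
      dens := hu.dens }

/-- the decay lemma at all `t ≤ ρ²/M₁` -/
def DLp (m : Measure M) (n : ℕ) (K : ℝ) (o : M) (p : ℝ → M → M → ℝ) (Λ C CL κ R Q M₁ ε₁ : ℝ) :
    Prop :=
  ∀ ε' η ρ, 0 < ε' → ε' ≤ ε₁ → 0 < η → η ≤ ε₁ → ρ ≤ ε₁ →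
    ∀ (u : Fin n → M →ₘ[m] ℝ) (uu : M → E n), Cfg m n K o p R Q η ρ u uu →
      TT m K o p (R / 2) Q ε' ρ u → ∀ y ∈ ball o (R / 4 * ρ), ∀ t, 0 < t → t ≤ ρ ^ 2 / M₁ →
        ∀ F : M →ₘ[m] ℝ, MemLp F 2 m → MemLp F ∞ m → ∀ c₀ S : ℝ, 0 ≤ S →
          (∀ s τ, t / Λ ^ 2 ≤ s → s ≤ t → 0 < τ → τ ≤ t →
            PP m p s y |(sob m).lap ((sob m).P τ F)| ≤ S) →
          ∃ (c₁ : ℝ) (c : E n), PP m p (t / Λ ^ 2) y |F - c₁ • (1 : M →ₘ[m] ℝ) - uc u c|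
              ≤ Λ⁻¹ * (κ * PP m p t y |F - c₀ • (1 : M →ₘ[m] ℝ)| + CL * t * S) ∧
            √(Gm m p u t y c c) ≤ C * PP m p t y |F - c₀ • (1 : M →ₘ[m] ℝ)| / √t

theorem dl_resc (e : Env m n K o A p) (hDL : DLb m n K o p) : ∃ C : ℝ, 1 ≤ C ∧ ∀ Λ : ℝ, C ≤ Λ →
    ∃ CL : ℝ, 1 ≤ CL ∧ ∀ Q, 1 ≤ Q → 4 * A ^ 2 ≤ Q → 2 * A ≤ Q → ∀ R, 4 ≤ R →
      ∃ M₁, 1 ≤ M₁ ∧ ∃ ε₁, 0 < ε₁ ∧ DLp m n K o p Λ C CL ((C + 1) / Λ) R Q M₁ ε₁ := by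
  obtain ⟨C, hC, hDL⟩ := hDL
  refine ⟨C, hC, fun Λ hΛ => ?_⟩
  obtain ⟨CL, hCL, Q', hQ', hDL⟩ := hDL Λ hΛ
  refine ⟨CL, hCL, fun Q hQ1 hQ2 hQ3 R hR => ?_⟩
  have hΛ0 : 0 < Λ := by linarith
  obtain ⟨R', hR', hDL⟩ := hDL Q' le_rfl
  set M₁ : ℝ := Q' + (2 * R') ^ 2 with hM₁
  have hM : 1 ≤ M₁ := by
    have : 0 ≤ (2 * R') ^ 2 := sq_nonneg _
    linarith
  have hM0 : 0 < M₁ := by linarith
  have hsM0 : 0 < √M₁ := Real.sqrt_pos.2 hM0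
  have hsM2 : √M₁ ^ 2 = M₁ := Real.sq_sqrt hM0.le
  have hsM : 2 * R' ≤ √M₁ := by
    refine Real.le_sqrt_of_sq_le ?_
    linarith
  have hR'' : R' ≤ √M₁ * R / 2 := by
    have : √M₁ * 4 ≤ √M₁ * R := mul_le_mul_of_nonneg_left hR hsM0.le
    linarith
  obtain ⟨Cr, hCr, hresc⟩ := cfg_resc e hQ1 hQ2 hQ3 hR hM
  have hCr0 : 0 < Cr := by linarith
  obtain ⟨ε₁, hε₁, hDL⟩ := hDL (√M₁ * R / 2) hR'' (1 / Λ) (by positivity)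
  refine ⟨M₁, hM, min ε₁ (min (ε₁ / Cr) (1 / Cr)), by positivity, ?_⟩
  intro ε' η ρ h1 h2 h3 h4 h5 u uu hu hTT y hy t ht htρ F hF hF' c₀ S hS hl
  have k1 : ε' ≤ ε₁ := h2.trans (min_le_left _ _)
  have k2 : Cr * η ≤ ε₁ := by
    have := h4.trans ((min_le_right _ _).trans (min_le_left _ _))
    rw [le_div_iff₀ hCr0] at this
    linarith
  have k3 : Cr * η ≤ 1 := by
    have := h4.trans ((min_le_right _ _).trans (min_le_right _ _))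
    rw [le_div_iff₀ hCr0] at this
    linarith
  have k4 : ρ ≤ ε₁ := h5.trans (min_le_left _ _)
  have hρ := hu.ρ_pos
  have hρ2 : 0 < ρ ^ 2 := by positivity
  have hsM1 : 1 ≤ √M₁ := Real.one_le_sqrt.2 hM
  have hρ'2 : (ρ / √M₁) ^ 2 = ρ ^ 2 / M₁ := by rw [div_pow, hsM2]
  have hu' := hresc η ρ u uu h3 k3 hu
  have hQM : Q' ≤ M₁ * Q := by
    have : M₁ ≤ M₁ * Q := le_mul_of_one_le_right hM0.le hQ1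
    have : 0 ≤ (2 * R') ^ 2 := sq_nonneg _
    linarith
  have hu'' := cfg_monoQ (by linarith) hQM hu'
  have hball : √M₁ * R / 2 / 2 * (ρ / √M₁) = R / 4 * ρ := by field_simp; ring
  have hyR : y ∈ ball o (R / 2 * ρ) := ball_subset_ball (by nlinarith) hy
  have htx : H155.TTx m K p Q' ε' (ρ / √M₁) u y (t / Λ ^ 2) := by
    intro s hs1 hs2 c
    have hs : 0 < s := lt_of_lt_of_le (by positivity) hs1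
    refine hTT y hyR s hs ?_ c
    rw [hρ'2] at hs2
    refine hs2.trans ?_
    calc Q' * (ρ ^ 2 / M₁) ≤ (M₁ * Q) * (ρ ^ 2 / M₁) :=
          mul_le_mul_of_nonneg_right hQM (by positivity)
      _ = Q * ρ ^ 2 := by field_simp
  obtain ⟨c₁, c, g1, g2⟩ := hDL ε' (Cr * η) (ρ / √M₁) h1 k1 (by positivity) k2
    ((div_le_self hρ.le hsM1).trans k4) u uu hu'' y (by rw [hball]; exact hy) t ht
    (by rw [hρ'2]; exact htρ) htx F hF hF' c₀ S hS hl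
  refine ⟨c₁, c, ?_, g2⟩
  have e1 : C / Λ + 1 / Λ = (C + 1) / Λ := by ring
  rwa [e1] at g1

/-- (E1) at the vertex -/
def E1p (m : Measure M) (n : ℕ) (K : ℝ) (o : M) (p : ℝ → M → M → ℝ) (L B Γ : ℝ) : Prop :=
  ∀ Q A₀ ρ t s : ℝ, ∀ y : M, 0 < ρ → 1 ≤ Q → Q * ρ ^ 2 ≤ A₀ → dist y o ≤ 1 → 0 < t →
    t / L ≤ s → s ≤ L * t → Γ * t ≤ Q * ρ ^ 2 → Γ * t ≤ 1 / 2 →
      H254.E1X m n K p B (Dt m n K p Q A₀ ρ t y) t s y y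

theorem e1p_of (e : Env m n K o A p) {L : ℝ} (hL : 1 ≤ L) :
    ∃ B, 1 ≤ B ∧ ∃ Γ, 1 ≤ Γ ∧ E1p m n K o p L B Γ := by
  obtain ⟨B, hB, Γ, hΓ, h⟩ := H254.E1_env e 1 0 L le_rfl hL
  exact ⟨B, hB, Γ, hΓ, fun Q A₀ ρ t s y h1 h2 h3 h4 h5 h6 h7 h8 h9 =>
    (h Q A₀ ρ t t s y y h1 h2 h3 h4 h5 (by rw [dist_self, zero_mul]) le_rfl
      (le_mul_of_one_le_left h5.le hL) h6 h7 h8 h9).2⟩

/-- the gradient of `ν` at the vertex -/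
def GNp (m : Measure M) (n : ℕ) (K : ℝ) (o : M) (p : ℝ → M → M → ℝ) (L B Γ : ℝ) : Prop :=
  ∀ Q A₀ ρ t s : ℝ, ∀ y : M, 0 < ρ → 1 ≤ Q → 0 ≤ A₀ →
      dist y o ≤ 1 → 0 < t → t / L ≤ s → s ≤ L * t → Γ * t ≤ Q * ρ ^ 2 → Γ * t ≤ 1 / 2 →
      PP m p s y ((sob m).gr ((sob m).lap (bb m y t) - (|K| + 1) • bb m y t))
        ≤ B * (Dt m n K p Q A₀ ρ t y / √t)

/-- growth of the gradients -/
def P3p (m : Measure M) (n : ℕ) (K A : ℝ) (o : M) (p : ℝ → M → M → ℝ) (ε₁ : ℝ) : Prop :=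
  ∀ (R Q ε' η ρ : ℝ)
    (u : Fin n → M →ₘ[m] ℝ) (uu : M → E n), 4 * A ^ 2 * (24 * A ^ 2 * 4) ≤ Q →
    32 * A * 4 ≤ R → 0 ≤ ε' → ε' ≤ ε₁ → 0 ≤ η → η ≤ ε₁ →
    Cfg m n K o p R Q η ρ u uu → ∀ x ∈ ball o (R / 2 * ρ), ∀ t, 0 < t → t ≤ ρ ^ 2 →
    H155.TTx m K p Q ε' ρ u x t → ∀ c : E n,
      ∀ᵐ z ∂m, (sob m).Γ (uc u c) (uc u c) z ≤
        H751.cP n A * Real.exp (dist x z ^ 2 / (8 * A * (t / 4))) * Gm m p u t x c c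

theorem p3p_of (e : Env m n K o A p) : ∃ ε₁, 0 < ε₁ ∧ P3p m n K A o p ε₁ := by
  obtain ⟨ε₁, hε₁, h⟩ := H751.p3gX e (L := 4) (by norm_num)
  refine ⟨ε₁, hε₁, fun R Q ε' η ρ u uu h1 h2 h3 h4 h5 h6 h7 x hx t ht htρ hT c => ?_⟩
  exact h R Q ε' η ρ u uu h1 h2 h3 h4 h5 h6 h7 x hx t ht htρ hT (t / 4) le_rfl (by linarith) c

variable {R Q η ρ A₀ Λ ε' δ : ℝ} {u : Fin n → M →ₘ[m] ℝ} {uu : M → E n} {y : M}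

/-- the input `E4In` at one vertex of one configuration -/
theorem e4In_pt (e : Env m n K o A p) (hu : Cfg m n K o p R Q η ρ u uu)
    (hDr : DropS m n K o p R Q δ ρ) (hTT : TT m K o p (R / 2) Q ε' ρ u)
    (hy : y ∈ ball o (R / 4 * ρ))
    {B₀ Γ₀ B₂ Γ₂ B₃ Γ₃ C CL κ M₁ M' r₀ ε₁ ε₃ α β : ℝ}
    (E₀ : E1p m n K o p 1 B₀ Γ₀) (E₂ : E1p m n K o p (Λ ^ 2 + 8 * A ^ 2) B₂ Γ₂)
    (G₃ : GNp m n K o p (Λ ^ 2 + 8 * A ^ 2) B₃ Γ₃) (P₃ : P3p m n K A o p ε₃)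
    (D : DLp m n K o p Λ C CL κ R Q M₁ ε₁)
    (N : NumC n K A Q A₀ Λ ρ η (ρ ^ 2 / M') β)
    (hη0 : 0 < η) (hε0 : 0 < ε') (hQ1 : 1 ≤ Q) (hR0 : 0 < R)
    (q1 : 4 * A ^ 2 * (24 * A ^ 2 * 4) ≤ Q) (q2 : 8 * A ^ 2 ≤ Q) (r1 : 32 * A * 4 ≤ R)
    (hε : ε' ≤ 1 / 16) (hε1 : ε' ≤ ε₁) (hε3 : ε' ≤ ε₃) (hη1 : η ≤ ε₁) (hη3 : η ≤ ε₃) (hρ1 : ρ ≤ ε₁)
    (n1 : 12 * n * H703.cH n A 1 * η ≤ 1 / 8) (n2 : Q * (12 * n * H703.cH n A 1 * η) ≤ A₀)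
    (n3 : (1 + 24 * n) * η ≤ 1 / 2) (hA8 : A₀ ≤ 1 / 8)
    (hp : (Λ ^ 2) ^ (2 * ε' + 5 * n * Q * η) ≤ 2) (hQρ : Q * ρ ^ 2 ≤ A₀) (hδ : δ + A₀ ≤ 1)
    (hM' : 1 ≤ M') (hMΓ₀ : Γ₀ ≤ M') (hMΓ₂ : Γ₂ ≤ M') (hMΓ₃ : Γ₃ ≤ M') (hMM : M₁ ≤ M')
    (hM₁ : 1 ≤ M₁) (hB₀ : B₀ ≤ α ^ 2) (hCα : C ≤ α) (hCLβ : CL ≤ β)
    (hB₂ : B₂ ≤ β) (hB₂0 : 0 ≤ B₂) (hB₂n : 2 * B₂ + 2 * (n : ℝ) ^ 2 ≤ β ^ 2) (hB₃ : B₃ ≤ β)
    (hcP : H751.cP n A ≤ β ^ 2) (hbG : bGam n A Λ ≤ β)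
    (hst : ∀ v : E n, PP m p (r₀ ^ 2) y |(sob m).Γ (H71.bb m y (r₀ ^ 2)) (uc u v) - uc u v
            + ⟪v, uu y⟫_ℝ • (1 : M →ₘ[m] ℝ)| ≤ A₀ * (r₀ ^ 2 / ρ ^ 2) * √(r₀ ^ 2) * ‖v‖)
    (hr₀ : 0 < r₀) :
    E4In m K A p u uu Q A₀ Λ ρ (ρ ^ 2 / M') r₀ α κ β y := by
  have hρ := hu.ρ_pos
  have hρ2 : 0 < ρ ^ 2 := by positivity
  have hA := e.kb.one_le
  have hΛ := N.hΛ
  have hΛ1 : 1 ≤ Λ := by linarith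
  have hyR2 : y ∈ ball o (R / 2 * ρ) := ball_subset_ball (by nlinarith) hy
  have hyR : y ∈ ball o (R * ρ) := ball_subset_ball (by nlinarith) hy
  have hyo : dist y o ≤ 1 := dist_le hu hyR
  have hρQ : ρ ^ 2 ≤ Q * ρ ^ 2 := le_mul_of_one_le_left hρ2.le hQ1
  have hM0 : 0 < M' := by linarith
  have hTw : ∀ {Γ t : ℝ}, Γ ≤ M' → 0 < t → t ≤ ρ ^ 2 / M' → Γ * t ≤ Q * ρ ^ 2 ∧ Γ * t ≤ 1 / 2 := by
    intro Γ t h1 h2 h3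
    have h4 : Γ * t ≤ M' * (ρ ^ 2 / M') := mul_le_mul h1 h3 h2.le hM0.le
    have h5 : M' * (ρ ^ 2 / M') = ρ ^ 2 := by field_simp
    rw [h5] at h4
    exact ⟨h4.trans hρQ, (h4.trans hρQ).trans hu.Qρ⟩
  have hTρ : ρ ^ 2 / M' ≤ ρ ^ 2 := div_le_self hρ2.le hM'
  have hF := formF_of e hu hη0.le q2 hTT hR0 hyR2 hε0.le hε n1 n2 n3 hA8 hΛ1 hp
  refine e4In_core e hu (β₀ := bGam n A Λ) (B₀ := B₀) (B₂ := B₂) (B₃ := B₃) N hF hbG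
    ?_ hB₂ hB₂0 hB₂n ?_ hB₀ ?_ hB₃ ?_ hcP ?_ ?_ ?_
  · intro t ht htT s h1 h2
    exact E₂ Q A₀ ρ t s y hρ hQ1 hQρ hyo ht h1 h2 (hTw hMΓ₂ ht htT).1 (hTw hMΓ₂ ht htT).2
  · intro t ht htT
    exact E₀ Q A₀ ρ t t y hρ hQ1 hQρ hyo ht (by rw [div_one]) (by rw [one_mul])
      (hTw hMΓ₀ ht htT).1 (hTw hMΓ₀ ht htT).2
  · intro t ht htT s h1 h2
    exact G₃ Q A₀ ρ t s y hρ hQ1 N.hA₀.le hyo ht h1 h2 (hTw hMΓ₃ ht htT).1 (hTw hMΓ₃ ht htT).2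
  · intro t ht htT c
    refine P₃ R Q ε' η ρ u uu q1 r1 hε0.le hε3 hη0.le hη3 hu y hyR2 t ht (htT.trans hTρ) ?_ c
    exact H155.TTx_of_TT hTT hyR2 ht
  · intro t ht htT
    exact (H744.dt_le e hQ1 hρ N.hA₀.le hDr hyR ht (htT.trans hTρ)).trans hδ
  · intro t ht htT F hF1 hF2 c₀ S hS hl
    have htM : t ≤ ρ ^ 2 / M₁ :=
      htT.trans (div_le_div_of_nonneg_left hρ2.le (by linarith) hMM)
    obtain ⟨c₁, c, g1, g2⟩ := D ε' η ρ hε0 hε1 hη0 hη1 hρ1 u uu hu hTT y hy t ht htM F hF1 hF2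
      c₀ S hS hl
    have hPP : 0 ≤ PP m p t y |F - c₀ • (1 : M →ₘ[m] ℝ)| := by
      unfold PP
      exact I_nonneg (mul_nonneg (ph_nonneg e.ker ht y) (abs_nonneg _))
    refine ⟨c₁, c, g1.trans ?_, g2.trans ?_⟩
    · refine mul_le_mul_of_nonneg_left ?_ (by positivity)
      have h1 : CL * t * S ≤ β * t * S :=
        mul_le_mul_of_nonneg_right (mul_le_mul_of_nonneg_right hCLβ ht.le) hS
      linarith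
    · exact div_le_div_of_nonneg_right (mul_le_mul_of_nonneg_right hCα hPP) (Real.sqrt_nonneg _)
  · intro v
    refine ⟨-⟪v, uu y⟫_ℝ, ?_⟩
    have h1 := hst v
    rw [Real.sqrt_sq hr₀.le] at h1
    rw [neg_smul, sub_neg_eq_add]
    refine h1.trans (le_of_eq ?_)
    ring

theorem e4Out_mono {B B' r₀ : ℝ} {𝒜 : ℕ → E n →ₗ[ℝ] E n} {cc : ℕ → E n → ℝ}
    (hr : 0 < r₀) (hΛ : 0 < Λ) (hB : B ≤ B') (h : E4Out m K p u uu Q A₀ Λ B ρ r₀ y 𝒜 cc) :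
    E4Out m K p u uu Q A₀ Λ B' ρ r₀ y 𝒜 cc := by
  have hrr : ∀ k, 0 ≤ rr r₀ Λ k := fun k => by unfold rr; positivity
  refine ⟨fun k v => (h.err k v).trans ?_, fun k v => (h.step k v).trans ?_,
    fun k v => (h.bd k v).trans ?_, fun k v => (h.const k v).trans ?_⟩
  · have h1 : 0 ≤ xE m K p u Q A₀ ρ (rr r₀ Λ k ^ 2) y v :=
      mul_nonneg (Real.sqrt_nonneg _) (Real.sqrt_nonneg _)
    exact mul_le_mul_of_nonneg_right (mul_le_mul_of_nonneg_right hB (hrr k)) h1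
  · exact mul_le_mul_of_nonneg_right hB (mul_nonneg (Real.sqrt_nonneg _) (Real.sqrt_nonneg _))
  · exact mul_le_mul_of_nonneg_right hB (Real.sqrt_nonneg _)
  · refine mul_le_mul_of_nonneg_right (mul_le_mul_of_nonneg_right
      (mul_le_mul_of_nonneg_right hB (hrr k)) (Real.sqrt_nonneg _)) (Real.sqrt_nonneg _)

/-- the smallness conditions on `η`, `δ`, `ρ` -/
structure EtC (n : ℕ) (K A Q A₀ εD ε₃ a ηs η₁ : ℝ) : Prop where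
  st : η₁ ≤ ηs
  d : η₁ ≤ εD
  p3 : η₁ ≤ ε₃
  one : η₁ ≤ 1
  half : η₁ ≤ 1 / 2
  s2 : η₁ ≤ A₀ / √(2 * n)
  c1 : η₁ ≤ 1 / (96 * n * H703.cH n A 1)
  c2 : η₁ ≤ A₀ / (Q * (12 * n * H703.cH n A 1))
  c3 : η₁ ≤ 1 / (2 * (1 + 24 * n))
  ex : η₁ ≤ a / (10 * n * Q)
  rA : η₁ ≤ A₀ / Q
  rE : η₁ ≤ A₀ / (28 * Real.exp 3 * n * (|K| + 1))
  rK : η₁ ≤ 1 / (2 * (|K| + 1))

theorem etC_exists {Q A₀ εD ε₃ a ηs : ℝ} (hn : (1 : ℝ) ≤ n) (hA : 1 ≤ A) (hQ : 1 ≤ Q)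
    (hA₀ : 0 < A₀) (h1 : 0 < εD) (h2 : 0 < ε₃) (h3 : 0 < a) (h4 : 0 < ηs) :
    ∃ η₁, 0 < η₁ ∧ EtC n K A Q A₀ εD ε₃ a ηs η₁ := by
  have hcH : 0 < H703.cH n A 1 := lt_of_lt_of_le one_pos (H703.one_le_cH hA (by norm_num))
  have hn0 : (0 : ℝ) < n := by linarith
  have hQ0 : 0 < Q := by linarith
  have hK : 0 < |K| + 1 := by positivity
  obtain ⟨η₁, hη₁, H⟩ := exists_le_list [ηs, εD, ε₃, 1, 1 / 2, A₀ / √(2 * n),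
    1 / (96 * n * H703.cH n A 1), A₀ / (Q * (12 * n * H703.cH n A 1)), 1 / (2 * (1 + 24 * n)),
    a / (10 * n * Q), A₀ / Q, A₀ / (28 * Real.exp 3 * n * (|K| + 1)), 1 / (2 * (|K| + 1))] (by
      intro x hx
      simp only [List.mem_cons, List.not_mem_nil, or_false] at hx
      rcases hx with rfl | rfl | rfl | rfl | rfl | rfl | rfl | rfl | rfl | rfl | rfl | rfl | rfl
        <;> positivity)
  exact ⟨η₁, hη₁,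
    { st := H _ (by simp)
      d := H _ (by simp)
      p3 := H _ (by simp)
      one := H _ (by simp)
      half := H _ (by simp)
      s2 := H _ (by simp)
      c1 := H _ (by simp)
      c2 := H _ (by simp)
      c3 := H _ (by simp)
      ex := H _ (by simp)
      rA := H _ (by simp)
      rE := H _ (by simp)
      rK := H _ (by simp) }⟩

/-- the consequences -/
theorem etC_use {Q A₀ εD ε₃ a ηs η₁ η δ ρ ε' : ℝ} (hn : (1 : ℝ) ≤ n) (hA : 1 ≤ A) (hQ : 1 ≤ Q)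
    (hA₀ : 0 < A₀) (hA₀1 : A₀ ≤ 1 / 16)
    (hη : 0 < η) (hη₁ : η ≤ η₁) (hδ : δ ≤ η₁) (hρ0 : 0 < ρ) (hρ : ρ ≤ η₁) (hε : ε' ≤ a / 4)
    (H : EtC n K A Q A₀ εD ε₃ a ηs η₁) :
    (√(2 * n) * η ≤ A₀ ∧ 12 * n * H703.cH n A 1 * η ≤ 1 / 8 ∧
      Q * (12 * n * H703.cH n A 1 * η) ≤ A₀ ∧ (1 + 24 * n) * η ≤ 1 / 2 ∧
      2 * ε' + 5 * n * Q * η ≤ a) ∧
    (δ + A₀ ≤ 1 ∧ Q * ρ ^ 2 ≤ A₀ ∧ 28 * Real.exp 3 * n * (|K| + 1) * ρ ^ 2 ≤ A₀ ∧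
      (|K| + 1) * (2 * ρ ^ 2) ≤ 1) := by
  have hcH : 0 < H703.cH n A 1 := lt_of_lt_of_le one_pos (H703.one_le_cH hA (by norm_num))
  have hn0 : (0 : ℝ) < n := by linarith
  have hQ0 : 0 < Q := by linarith
  have hK : 0 < |K| + 1 := by positivity
  have hs2 : 0 < √(2 * n) := Real.sqrt_pos.2 (by positivity)
  have hρ2 : ρ ^ 2 ≤ ρ := by
    have : ρ ≤ 1 := hρ.trans H.one
    nlinarith
  refine ⟨⟨?_, ?_, ?_, ?_, ?_⟩, ?_, ?_, ?_, ?_⟩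
  · have h := (le_div_iff₀ hs2).1 (hη₁.trans H.s2)
    linarith
  · have h := (le_div_iff₀ (by positivity)).1 (hη₁.trans H.c1)
    linarith
  · have h := (le_div_iff₀ (by positivity)).1 (hη₁.trans H.c2)
    linarith
  · have h := (le_div_iff₀ (by positivity)).1 (hη₁.trans H.c3)
    linarith
  · have h := (le_div_iff₀ (by positivity)).1 (hη₁.trans H.ex)
    linarith
  · have h := hδ.trans H.half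
    linarith
  · have h := (le_div_iff₀ hQ0).1 (hρ.trans H.rA)
    nlinarith
  · have h := (le_div_iff₀ (by positivity)).1 (hρ.trans H.rE)
    have h1 : 0 ≤ 28 * Real.exp 3 * n * (|K| + 1) := by positivity
    have h2 := mul_le_mul_of_nonneg_left hρ2 h1
    linarith
  · have h := (le_div_iff₀ (by positivity)).1 (hρ.trans H.rK)
    have h2 := mul_le_mul_of_nonneg_left hρ2 hK.le
    linarith

/-- `(2 + a³) ((C+1)/Λ) (2√Λ) ≤ 1/2` -/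
theorem kap_le {aa C Λ : ℝ} (haa : 0 ≤ aa) (hC : 1 ≤ C) (hΛ : 0 < Λ)
    (h : (4 * ((2 + aa ^ 3) * (C + 1))) ^ 2 ≤ Λ) :
    (2 + aa ^ 3) * ((C + 1) / Λ) * (2 * √Λ) ≤ 1 / 2 := by
  have hs : 0 < √Λ := Real.sqrt_pos.2 hΛ
  have h1 : 4 * ((2 + aa ^ 3) * (C + 1)) ≤ √Λ := Real.le_sqrt_of_sq_le h
  have h2 : Λ = √Λ * √Λ := (Real.mul_self_sqrt hΛ.le).symm
  have e1 : (2 + aa ^ 3) * ((C + 1) / Λ) * (2 * √Λ) = 2 * ((2 + aa ^ 3) * (C + 1)) / √Λ := by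
    have h3 : (C + 1) / Λ = (C + 1) / (√Λ * √Λ) := by rw [← h2]
    rw [h3]
    field_simp
  rw [e1, div_le_iff₀ hs]
  linarith

/-- `ν_{2t}(y) ≤ B D_t(y)` -/
def NUp (m : Measure M) (n : ℕ) (K : ℝ) (o : M) (p : ℝ → M → M → ℝ) (Bν Λν : ℝ) : Prop :=
  ∀ (y : M) (t Q A₀ ρ : ℝ), dist y o ≤ 1 → 0 < t → Λν * t ≤ Q * ρ ^ 2 → Q * ρ ^ 2 ≤ 1 / 2 →
    0 ≤ A₀ → nu m n K p y (2 * t) y ≤ Bν * Dt m n K p Q A₀ ρ t y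

theorem nup_of (e : Env m n K o A p) : ∃ Bν Λν : ℝ, 1 ≤ Bν ∧ 1 ≤ Λν ∧ NUp m n K o p Bν Λν := by
  obtain ⟨Bν, Λν, hBν, hΛν, Eν⟩ := H744.nu_le_dt e (C₀ := 0) (c₁ := 1) (C₁ := 2) le_rfl one_pos
    (by norm_num)
  refine ⟨Bν, Λν, hBν, hΛν, fun y t Q A₀ ρ h1 h2 h3 h4 h5 => ?_⟩
  exact (Eν y y t (2 * t) Q A₀ ρ h1 h2 (by linarith) le_rfl h3 h4 h5
        (by rw [dist_self, zero_mul])).2

/-- the start, for fixed `Q, R` -/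
def STp (m : Measure M) (n : ℕ) (K : ℝ) (o : M) (p : ℝ → M → M → ℝ) (Q R A₀ M' ηs : ℝ) : Prop :=
  ∀ η δ ρ, 0 < η → η ≤ ηs → δ ≤ ηs → ρ ≤ ηs →
      ∀ (u : Fin n → M →ₘ[m] ℝ) (uu : M → E n),
      Cfg m n K o p R Q η ρ u uu → DropS m n K o p R Q δ ρ →
        ∀ y ∈ ball o (R / 2 * ρ), ∀ t, ρ ^ 2 / M' ^ 2 ≤ t → t ≤ ρ ^ 2 / M' → ∀ v : E n,
          PP m p t y |(sob m).Γ (H71.bb m y t) (uc u v) - uc u v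
            + ⟪v, uu y⟫_ℝ • (1 : M →ₘ[m] ℝ)| ≤ A₀ * (t / ρ ^ 2) * √t * ‖v‖

/-- all constants before `A₀` -/
structure Pk (m : Measure M) (n : ℕ) (K A : ℝ) (o : M) (p : ℝ → M → M → ℝ) (Q R Λ : ℝ)
    (C CL B₀ Γ₀ B₂ Γ₂ B₃ Γ₃ Bν Λν M₁ εD ε₃ a α β : ℝ) : Prop where
  E₀ : E1p m n K o p 1 B₀ Γ₀
  E₂ : E1p m n K o p (Λ ^ 2 + 8 * A ^ 2) B₂ Γ₂
  G₃ : GNp m n K o p (Λ ^ 2 + 8 * A ^ 2) B₃ Γ₃
  P₃ : P3p m n K A o p ε₃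
  D : DLp m n K o p Λ C CL ((C + 1) / Λ) R Q M₁ εD
  ν : NUp m n K o p Bν Λν
  hQ1 : 1 ≤ Q
  hR0 : 4 ≤ R
  q1 : 4 * A ^ 2 * (24 * A ^ 2 * 4) ≤ Q
  q2 : 8 * A ^ 2 ≤ Q
  r1 : 32 * A * 4 ≤ R
  l1 : 16 ≤ Λ
  l2 : 4 * A ^ 2 ≤ Λ
  hM₁ : 1 ≤ M₁
  hB₀ : B₀ ≤ α ^ 2
  hCα : C ≤ α
  hC : 1 ≤ C
  hα : 0 ≤ α
  hCLβ : CL ≤ β
  hB₂ : B₂ ≤ β
  hB₂0 : 0 ≤ B₂
  hB₂n : 2 * B₂ + 2 * (n : ℝ) ^ 2 ≤ β ^ 2
  hB₃ : B₃ ≤ β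
  hcP : H751.cP n A ≤ β ^ 2
  hbG : bGam n A Λ ≤ β
  hβ : 1 ≤ β
  hBν : 0 ≤ Bν
  ha : ∀ b, b ≤ a → (Λ ^ 2) ^ b ≤ 2
  ha0 : 0 < a
  hεD : 0 < εD
  hε₃ : 0 < ε₃
  hκ : (2 + aE n A α ^ 3) * ((C + 1) / Λ) * (2 * √Λ) ≤ 1 / 2

/-- **one configuration, one vertex** -/
theorem e4_pt (e : Env m n K o A p)
    {C CL B₀ Γ₀ B₂ Γ₂ B₃ Γ₃ Bν Λν M₁ εD ε₃ a α β M' ε₁ ηs η₁ r₀ : ℝ}
    (P : Pk m n K A o p Q R Λ C CL B₀ Γ₀ B₂ Γ₂ B₃ Γ₃ Bν Λν M₁ εD ε₃ a α β)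
    (s1 : ε₁ ≤ εD) (s2 : ε₁ ≤ ε₃) (s3 : ε₁ ≤ 1 / 16) (s4 : ε₁ ≤ a / 4) (hA₀ : 0 < A₀)
    (hA₀1 : A₀ ≤ ε₁) (m2 : Γ₀ ≤ M') (m3 : Γ₂ ≤ M') (m4 : Γ₃ ≤ M') (m5 : Λν ≤ M') (m6 : 2 ≤ M')
    (m7 : 8 * A ^ 2 ≤ M') (m8 : M₁ ≤ M') (ST : STp m n K o p Q R A₀ M' ηs)
    (HE : EtC n K A Q A₀ εD ε₃ a ηs η₁)
    (t1 : 0 < ε') (t2 : ε' ≤ ε₁) (t3 : 0 < η) (t4 : η ≤ η₁) (t5 : δ ≤ η₁) (t6 : ρ ≤ η₁)
    (hu : Cfg m n K o p R Q η ρ u uu)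
    (hDr : DropS m n K o p R Q δ ρ) (hTT : TT m K o p (R / 2) Q ε' ρ u)
    (hy : y ∈ ball o (R / 4 * ρ)) (hr1 : ρ / M' ≤ r₀) (hr2 : r₀ ≤ ρ / √M') :
    ∃ (𝒜 : ℕ → E n →ₗ[ℝ] E n) (cc : ℕ → E n → ℝ),
      E4Out m K p u uu Q A₀ Λ (bO (aE n A α) (bE n K A Λ β) ((C + 1) / Λ) (2 * √Λ)
        (H924.cF n Bν + √2 * √n)) ρ r₀ y 𝒜 cc := by
  have hA := e.kb.one_le
  have hn1 : (1 : ℝ) ≤ n := by
    have := e.hyp.two_le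
    exact_mod_cast (by omega : 1 ≤ n)
  have hM0 : 0 < M' := by linarith
  have hQ1 := P.hQ1
  have hR0 := P.hR0
  have hρ := hu.ρ_pos
  have hρ2 : 0 < ρ ^ 2 := by positivity
  have hρQ : ρ ^ 2 ≤ Q * ρ ^ 2 := le_mul_of_one_le_left hρ2.le hQ1
  obtain ⟨⟨u1, u2, u3, u4, u5⟩, v1, v2, v3, v4⟩ := etC_use hn1 hA hQ1 hA₀ (hA₀1.trans s3) t3 t4 t5
    hρ t6 (t2.trans s4) HE
  have hyR : y ∈ ball o (R * ρ) := ball_subset_ball (by nlinarith) hy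
  have hyR2 : y ∈ ball o (R / 2 * ρ) := ball_subset_ball (by nlinarith) hy
  have hr₀ : 0 < r₀ := lt_of_lt_of_le (by positivity) hr1
  have hrT : r₀ ^ 2 ≤ ρ ^ 2 / M' := by
    calc r₀ ^ 2 ≤ (ρ / √M') ^ 2 := pow_le_pow_left₀ hr₀.le hr2 2
      _ = _ := by rw [div_pow, Real.sq_sqrt hM0.le]
  have hrT' : ρ ^ 2 / M' ^ 2 ≤ r₀ ^ 2 := by
    calc ρ ^ 2 / M' ^ 2 = (ρ / M') ^ 2 := by rw [div_pow]
      _ ≤ _ := pow_le_pow_left₀ (by positivity) hr1 2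
  have hMρ : M' * (ρ ^ 2 / M') = ρ ^ 2 := by field_simp
  have hT0 : 0 ≤ ρ ^ 2 / M' := by positivity
  have hT2 : 2 * (ρ ^ 2 / M') ≤ ρ ^ 2 := by
    have h2 : 2 * (ρ ^ 2 / M') ≤ M' * (ρ ^ 2 / M') := mul_le_mul_of_nonneg_right m6 hT0
    linarith
  have hT3 : 8 * A ^ 2 * (ρ ^ 2 / M') ≤ 1 / 2 := by
    have h2 : 8 * A ^ 2 * (ρ ^ 2 / M') ≤ M' * (ρ ^ 2 / M') := mul_le_mul_of_nonneg_right m7 hT0
    have := hu.Qρ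
    linarith
  have N : NumC n K A Q A₀ Λ ρ η (ρ ^ 2 / M') β :=
    { hη := t3.le
      hηA := u1
      hρ := hρ
      hρA := hρQ.trans v2
      hA₀ := hA₀
      hA₀1 := by linarith
      hT := by positivity
      hT4 := hT2
      hT2 := hT2.trans hρQ
      hT3 := hT3
      hΛ := P.l1
      hβ := P.hβ }
  have hst := fun v => ST η δ ρ t3 (t4.trans HE.st) (t5.trans HE.st) (t6.trans HE.st) u uu hu hDr y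
    hyR2 (r₀ ^ 2) hrT' hrT v
  have hI : E4In m K A p u uu Q A₀ Λ ρ (ρ ^ 2 / M') r₀ α ((C + 1) / Λ) β y :=
    e4In_pt e hu hDr hTT hy P.E₀ P.E₂ P.G₃ P.P₃ P.D N t3 t1 hQ1 (by linarith) P.q1 P.q2 P.r1
      (t2.trans s3)
      (t2.trans s1) (t2.trans s2) (t4.trans HE.d) (t4.trans HE.p3) (t6.trans HE.d) u2 u3 u4
      (by linarith) (P.ha _ u5) v2 v1 (by linarith) m2 m3 m4 m8 P.hM₁ P.hB₀ P.hCα P.hCLβ P.hB₂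
      P.hB₂0 P.hB₂n P.hB₃ P.hcP P.hbG hst hr₀
  have hν : ∀ t, 0 < t → t ≤ ρ ^ 2 / M' →
      nu m n K p y (2 * t) y ≤ Bν * Dt m n K p Q A₀ ρ t y := by
    intro t ht htT
    have h2 : Λν * t ≤ M' * (ρ ^ 2 / M') := mul_le_mul m5 htT ht.le hM0.le
    exact P.ν y t Q A₀ ρ (dist_le hu hyR) ht (by linarith) hu.Qρ hA₀.le
  have hκ0 : 0 ≤ (C + 1) / Λ := by
    have := P.hC
    have := P.l1
    positivity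
  exact e4Out_voc e hu hyR N hI P.hα hκ0 (hA₀1.trans s3) P.l2 hr₀ hrT P.hκ hQ1 v3 v4 P.hBν hν

theorem e4_inner (e : Env m n K o A p)
    {C CL B₀ Γ₀ B₂ Γ₂ B₃ Γ₃ Bν Λν M₁ εD ε₃ a α β : ℝ}
    (P : Pk m n K A o p Q R Λ C CL B₀ Γ₀ B₂ Γ₂ B₃ Γ₃ Bν Λν M₁ εD ε₃ a α β)
    (ST : ∀ A₀, 0 < A₀ → ∃ M₀, 1 ≤ M₀ ∧ ∀ M', M₀ ≤ M' → ∃ ηs, 0 < ηs ∧
      STp m n K o p Q R A₀ M' ηs) :
    ∃ B, 1 ≤ B ∧ H771.EvI fun A₀ M' ε' η δ ρ => ∀ (u : Fin n → M →ₘ[m] ℝ) (uu : M → E n),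
      Cfg m n K o p R Q η ρ u uu → DropS m n K o p R Q δ ρ → TT m K o p (R / 2) Q ε' ρ u →
      ∀ y ∈ ball o (R / 4 * ρ), ∀ r₀, ρ / M' ≤ r₀ → r₀ ≤ ρ / √M' →
        ∃ (𝒜 : ℕ → E n →ₗ[ℝ] E n) (cc : ℕ → E n → ℝ),
          E4Out m K p u uu Q A₀ Λ B ρ r₀ y 𝒜 cc := by
  have hA := e.kb.one_le
  have hn1 : (1 : ℝ) ≤ n := by
    have := e.hyp.two_le
    exact_mod_cast (by omega : 1 ≤ n)
  have ha := P.ha0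
  have hεD := P.hεD
  have hε₃ := P.hε₃
  refine ⟨max 1 (bO (aE n A α) (bE n K A Λ β) ((C + 1) / Λ) (2 * √Λ)
    (H924.cF n Bν + √2 * √n)), le_max_left _ _, ?_⟩
  obtain ⟨ε₁, hε₁, Hε⟩ := exists_le_list [εD, ε₃, 1 / 16, a / 4] (by
    intro x hx
    simp only [List.mem_cons, List.not_mem_nil, or_false] at hx
    rcases hx with rfl | rfl | rfl | rfl <;> positivity)
  have s1 : ε₁ ≤ εD := Hε _ (by simp)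
  have s2 : ε₁ ≤ ε₃ := Hε _ (by simp)
  have s3 : ε₁ ≤ 1 / 16 := Hε _ (by simp)
  have s4 : ε₁ ≤ a / 4 := Hε _ (by simp)
  refine ⟨ε₁, hε₁, fun A₀ hA₀ hA₀1 => ?_⟩
  obtain ⟨Ms, hMs, ST⟩ := ST A₀ hA₀
  obtain ⟨M₀, hM₀, HM⟩ := exists_ge_list [Ms, Γ₀, Γ₂, Γ₃, Λν, 2, 8 * A ^ 2, M₁]
  refine ⟨M₀, hM₀, fun M' hM' => ?_⟩
  have m1 : Ms ≤ M' := (HM _ (by simp)).trans hM'
  have m2 : Γ₀ ≤ M' := (HM _ (by simp)).trans hM'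
  have m3 : Γ₂ ≤ M' := (HM _ (by simp)).trans hM'
  have m4 : Γ₃ ≤ M' := (HM _ (by simp)).trans hM'
  have m5 : Λν ≤ M' := (HM _ (by simp)).trans hM'
  have m6 : 2 ≤ M' := (HM _ (by simp)).trans hM'
  have m7 : 8 * A ^ 2 ≤ M' := (HM _ (by simp)).trans hM'
  have m8 : M₁ ≤ M' := (HM _ (by simp)).trans hM'
  have hM0 : 0 < M' := by linarith
  obtain ⟨ηs, hηs, ST⟩ := ST M' m1
  obtain ⟨η₁, hη₁, HE⟩ := etC_exists (K := K) (εD := εD) (ε₃ := ε₃) hn1 hA P.hQ1 hA₀ hεD hε₃ ha hηs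
  refine ⟨η₁, hη₁, ?_⟩
  intro ε' η δ ρ t1 t2 t3 t4 t5 t6 u uu hu hDr hTT y hy r₀ hr1 hr2
  have hr₀ : 0 < r₀ := by
    have := hu.ρ_pos
    exact lt_of_lt_of_le (by positivity) hr1
  obtain ⟨𝒜, cc, hO⟩ := e4_pt e P s1 s2 s3 s4 hA₀ hA₀1 m2 m3 m4 m5 m6 m7 m8 ST HE t1 t2 t3 t4 t5 t6
    hu hDr hTT hy hr1 hr2
  have hΛ0 : 0 < Λ := by linarith [P.l1]
  exact ⟨𝒜, cc, e4Out_mono hr₀ hΛ0 (le_max_right _ _) hO⟩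

/-- **A-E4.** -/
theorem sb_E4_of (e : Env m n K o A p) (hDL : DLb m n K o p) : H771.SB_E4 m n K o p := by
  have hA := e.kb.one_le
  have hA0 := e.kb.pos
  have hA2 : 1 ≤ A ^ 2 := one_le_pow₀ hA
  obtain ⟨C, hC, hDL⟩ := dl_resc e hDL
  obtain ⟨B₀, hB₀, Γ₀, hΓ₀, E₀⟩ := e1p_of e (L := 1) le_rfl
  obtain ⟨Bν, Λν, hBν, hΛν, Eν⟩ := nup_of e
  obtain ⟨ε₃, hε₃, P3⟩ := p3p_of e
  obtain ⟨Q₁, hQ₁, ST⟩ := H520.blk_Start M m n K o A p e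
  -- `α`
  obtain ⟨α, hα⟩ : ∃ α, α = B₀ + C := ⟨_, rfl⟩
  have hα0 : 0 ≤ α := by linarith
  have hαB : B₀ ≤ α ^ 2 := by nlinarith
  have hαC : C ≤ α := by linarith
  have haa0 : 0 ≤ aE n A α := by
    have hck := ck1_nonneg (n := n) hA
    have hcP := cP4_pos
    have hexp : 0 ≤ ck1 n A (16 * A ^ 4) * Real.exp (10 * A) := by positivity
    unfold aE; linarith
  obtain ⟨Q₀, hQ₀, HQ₀⟩ := exists_ge_list [Q₁, 4 * A ^ 2 * (24 * A ^ 2 * 4), 8 * A ^ 2, 2 * A]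
  refine ⟨Q₀, hQ₀, fun Q hQ => ?_⟩
  have q1 : Q₁ ≤ Q := (HQ₀ _ (by simp)).trans hQ
  have q2 : 4 * A ^ 2 * (24 * A ^ 2 * 4) ≤ Q := (HQ₀ _ (by simp)).trans hQ
  have q3 : 8 * A ^ 2 ≤ Q := (HQ₀ _ (by simp)).trans hQ
  have q4 : 2 * A ≤ Q := (HQ₀ _ (by simp)).trans hQ
  have hQ1 : 1 ≤ Q := hQ₀.trans hQ
  obtain ⟨R₁, hR₁, ST⟩ := ST Q q1
  obtain ⟨R₀, hR₀, HR₀⟩ := exists_ge_list [R₁, 32 * A * 4, 4]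
  refine ⟨R₀, hR₀, fun R hR => ?_⟩
  have r1 : R₁ ≤ R := (HR₀ _ (by simp)).trans hR
  have r2 : 32 * A * 4 ≤ R := (HR₀ _ (by simp)).trans hR
  have r3 : 4 ≤ R := (HR₀ _ (by simp)).trans hR
  obtain ⟨Λ₀, hΛ₀, HΛ₀⟩ := exists_ge_list [16, 4 * A ^ 2, C,
    (4 * ((2 + aE n A α ^ 3) * (C + 1))) ^ 2]
  refine ⟨Λ₀, HΛ₀ _ (by simp), fun Λ hΛ => ?_⟩
  have l1 : 16 ≤ Λ := (HΛ₀ _ (by simp)).trans hΛ
  have l2 : 4 * A ^ 2 ≤ Λ := (HΛ₀ _ (by simp)).trans hΛ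
  have l3 : C ≤ Λ := (HΛ₀ _ (by simp)).trans hΛ
  have l4 : (4 * ((2 + aE n A α ^ 3) * (C + 1))) ^ 2 ≤ Λ := (HΛ₀ _ (by simp)).trans hΛ
  have hΛ0 : 0 < Λ := by linarith
  have hΛ1 : 1 ≤ Λ := by linarith
  have hκ := kap_le haa0 hC hΛ0 l4
  have hW : 1 ≤ Λ ^ 2 + 8 * A ^ 2 := by nlinarith
  obtain ⟨CL, hCL, hDL⟩ := hDL Λ l3
  obtain ⟨M₁, hM₁, εD, hεD, hDL⟩ := hDL Q hQ1 (by linarith) q4 R r3
  obtain ⟨B₂, hB₂, Γ₂, hΓ₂, E₂⟩ := e1p_of e (L := Λ ^ 2 + 8 * A ^ 2) hW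
  obtain ⟨B₃, hB₃, Γ₃, hΓ₃, G₃⟩ : ∃ B, 1 ≤ B ∧ ∃ Γ, 1 ≤ Γ ∧
      GNp m n K o p (Λ ^ 2 + 8 * A ^ 2) B Γ := gnu_env e hW
  obtain ⟨a, ha, hexp⟩ := exists_exp (X := Λ ^ 2) (one_le_pow₀ hΛ1)
  obtain ⟨β, hβ, Hβ⟩ := exists_ge_list [CL, B₂, B₃, 2 * B₂ + 2 * (n : ℝ) ^ 2, H751.cP n A,
    bGam n A Λ]
  have b1 : CL ≤ β := Hβ _ (by simp)
  have b2 : B₂ ≤ β := Hβ _ (by simp)
  have b3 : B₃ ≤ β := Hβ _ (by simp)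
  have b4' : 2 * B₂ + 2 * (n : ℝ) ^ 2 ≤ β := Hβ _ (by simp)
  have b5 : H751.cP n A ≤ β := Hβ _ (by simp)
  have b6 : bGam n A Λ ≤ β := Hβ _ (by simp)
  have hββ : β ≤ β ^ 2 := by nlinarith
  refine e4_inner e (C := C) (CL := CL) (B₀ := B₀) (Γ₀ := Γ₀) (B₂ := B₂) (Γ₂ := Γ₂) (B₃ := B₃)
    (Γ₃ := Γ₃) (Bν := Bν) (Λν := Λν) (M₁ := M₁) (εD := εD) (ε₃ := ε₃) (a := a) (α := α) (β := β)
    ?_ (fun A₀ hA₀ => ST R r1 A₀ hA₀)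
  exact
    { E₀ := E₀
      E₂ := E₂
      G₃ := G₃
      P₃ := P3
      D := hDL
      ν := Eν
      hQ1 := hQ1
      hR0 := r3
      q1 := q2
      q2 := q3
      r1 := r2
      l1 := l1
      l2 := l2
      hM₁ := hM₁
      hB₀ := hαB
      hCα := hαC
      hC := hC
      hα := hα0
      hCLβ := b1
      hB₂ := b2
      hB₂0 := by linarith
      hB₂n := b4'.trans hββ
      hB₃ := b3
      hcP := b5.trans hββ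
      hbG := b6
      hβ := hβ
      hBν := by linarith
      ha := hexp
      ha0 := ha
      hεD := hεD
      hε₃ := hε₃
      hκ := hκ }

end Vale.Agent.P242.H655
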